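import Vale.Agent.Lib.P074q.Inf

open MeasureTheory
open scoped NNReal RealInnerProductSpace

namespace Vale.Agent.Lib.P074t

open Vale.Agent.Lib.P074q (E)
open Vale.Agent.Lib.P074b (unif IsOTMap W2 Admissible)

/-- Passing from all couplings to the infimum defining `W₂`, exponent `1/3`. -/
theorem le_W2_third_of_forall_coupling {d : ℕ} {μ ν : Measure (E d)} [IsProbabilityMeasure μ]
    [IsProbabilityMeasure ν] {A : ENNReal} {C : ℝ≥0}
    (h : ∀ π : Measure (E d × E d), π.fst = μ → π.snd = ν →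
      A ≤ C * (∫⁻ p, ENNReal.ofReal (‖p.1 - p.2‖ ^ 2) ∂π) ^ (1 / 6 : ℝ)) :
    A ≤ C * W2 μ ν ^ (1 / 3 : ℝ) := by
  unfold W2
  rw [← ENNReal.rpow_mul, show (1 / 2 : ℝ) * (1 / 3) = 1 / 6 by norm_num]
  by_cases hC : C = 0
  · have h0 := h (μ.prod ν) (by simp) (by simp)
    rw [hC] at h0
    simp only [ENNReal.coe_zero, zero_mul, nonpos_iff_eq_zero] at h0
    rw [h0]
    exact zero_le
  · have hC0 : (C : ENNReal) ≠ 0 := by simpa using hC
    rw [Vale.Agent.Lib.P074q.iInf₂_rpow _ (by norm_num : (0 : ℝ) < 1 / 6),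
      ENNReal.mul_iInf_of_ne hC0 ENNReal.coe_ne_top]
    refine le_iInf (fun π => ?_)
    rw [ENNReal.mul_iInf_of_ne hC0 ENNReal.coe_ne_top]
    exact le_iInf (fun hπ => h π hπ.1 hπ.2)

/-- Offsets: finitely many real functions on a finite type can be made injective simultaneously by
adding one small nonnegative offset function. -/
theorem exists_offsets {ι κ : Type} [Fintype ι] [Finite κ] (f : κ → ι → ℝ) {ε : ℝ} (hε : 0 < ε) :
    ∃ o : ι → ℝ, (∀ i, 0 ≤ o i) ∧ (∀ i, o i ≤ ε) ∧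
      ∀ k, Function.Injective (fun i => f k i + o i) := by
  classical
  let n := Fintype.card ι
  let rk : ι → ℝ := fun i => ((Fintype.equivFin ι i : ℕ) : ℝ)
  have hrk_inj : Function.Injective rk := by
    intro i j hij
    have hij' : (((Fintype.equivFin ι i : ℕ)) : ℝ) = ((Fintype.equivFin ι j : ℕ) : ℝ) := hij
    have h1 : ((Fintype.equivFin ι i : ℕ)) = (Fintype.equivFin ι j : ℕ) := by
      exact_mod_cast hij'
    exact (Fintype.equivFin ι).injective (Fin.ext h1)
  have hrk_le : ∀ i, rk i ≤ n := by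
    intro i
    have h0 : ((Fintype.equivFin ι i : ℕ)) ≤ n := (Fintype.equivFin ι i).isLt.le
    have h1 : (((Fintype.equivFin ι i : ℕ)) : ℝ) ≤ (n : ℝ) := by exact_mod_cast h0
    exact h1
  have hrk0 : ∀ i, 0 ≤ rk i := fun i => Nat.cast_nonneg _
  -- bad values
  let bad : Set ℝ := Set.range (fun q : κ × ι × ι => (f q.1 q.2.1 - f q.1 q.2.2) / (rk q.2.2 - rk q.2.1))
  have hbad : bad.Finite := Set.finite_range _
  have hpos : (0 : ℝ) < ε / (n + 1) := by positivity
  obtain ⟨lam, hlam⟩ := ((Set.Ioo_infinite hpos).sdiff hbad).nonempty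
  obtain ⟨⟨hl0, hl1⟩, hlb⟩ := hlam
  refine ⟨fun i => lam * rk i, fun i => mul_nonneg hl0.le (hrk0 i), fun i => ?_, fun k => ?_⟩
  · have h1 : lam * rk i ≤ ε / (n + 1) * n :=
      mul_le_mul hl1.le (hrk_le i) (hrk0 i) hpos.le
    have h2 : ε / (n + 1) * n ≤ ε := by
      rw [div_mul_eq_mul_div, div_le_iff₀ (by positivity)]
      nlinarith
    exact h1.trans h2
  · intro i j hij
    by_contra hne
    have hr : rk j - rk i ≠ 0 := sub_ne_zero.mpr (fun h => hne (hrk_inj h.symm))
    apply hlb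
    refine ⟨(k, i, j), ?_⟩
    simp only
    rw [div_eq_iff hr]
    simp only at hij
    linarith

/-- Quantiser: a measurable index map onto a finite `η`-net of a compact set. -/
theorem exists_quantiser {d : ℕ} (Y : Set (E d)) (hY : IsCompact Y) (hYne : Y.Nonempty)
    {η : ℝ} (hη : 0 < η) :
    ∃ (N : ℕ) (e : Fin (N + 1) → E d) (idx : E d → Fin (N + 1)), Measurable idx ∧
      (∀ k, e k ∈ Y) ∧ ∀ y ∈ Y, ‖y - e (idx y)‖ ≤ η := by
  classical
  obtain ⟨t, htY, htfin, hcov⟩ := hY.finite_cover_balls hη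
  obtain ⟨y0, hy0⟩ := hYne
  -- enumerate the net by a sequence
  obtain ⟨n, g, hg⟩ : ∃ (n : ℕ) (g : Fin n → E d), Set.range g = t := by
    obtain ⟨n, g, hg⟩ := htfin.fin_embedding
    exact ⟨n, g, hg⟩
  let e' : ℕ → E d := fun k => if h : k < n then g ⟨k, h⟩ else y0
  have he'Y : ∀ k, e' k ∈ Y := by
    intro k
    by_cases h : k < n
    · simp only [e', h, dif_pos]
      exact htY (hg ▸ Set.mem_range_self _)
    · simp only [e', h, dif_neg, not_false_eq_true]
      exact hy0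
  refine ⟨n, fun k => e' k, fun y => ⟨SimpleFunc.nearestPtInd e' n y,
    Nat.lt_succ_of_le (SimpleFunc.nearestPtInd_le e' n y)⟩, ?_, fun k => he'Y k, ?_⟩
  · refine measurable_to_countable' (fun k => ?_)
    have : (fun y => (⟨SimpleFunc.nearestPtInd e' n y,
        Nat.lt_succ_of_le (SimpleFunc.nearestPtInd_le e' n y)⟩ : Fin (n + 1))) ⁻¹' {k}
        = (SimpleFunc.nearestPtInd e' n) ⁻¹' {(k : ℕ)} := by
      ext y
      simp [Fin.ext_iff]
    rw [this]
    exact SimpleFunc.measurableSet_fiber _ _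
  · intro y hy
    have hy' := hcov hy
    simp only [Set.mem_iUnion, Metric.mem_ball, exists_prop] at hy'
    obtain ⟨x, hxt, hxy⟩ := hy'
    rw [← hg] at hxt
    obtain ⟨k, rfl⟩ := hxt
    have hk : e' k = g k := by simp [e', k.isLt]
    have h1 := SimpleFunc.edist_nearestPt_le e' y (k := k) (N := n) k.isLt.le
    rw [hk] at h1
    have h2 : dist (SimpleFunc.nearestPt e' n y) y ≤ dist (g k) y := by
      rw [edist_dist, edist_dist] at h1
      exact (ENNReal.ofReal_le_ofReal_iff dist_nonneg).mp h1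
    have h3 : SimpleFunc.nearestPt e' n y = e' (SimpleFunc.nearestPtInd e' n y) := rfl
    rw [h3] at h2
    rw [← dist_eq_norm, dist_comm]
    calc dist (e' (SimpleFunc.nearestPtInd e' n y)) y ≤ dist (g k) y := h2
      _ = dist y (g k) := dist_comm _ _
      _ ≤ η := hxy.le

end Vale.Agent.Lib.P074t
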