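import Vale.Agent.Lib.P074q.Main

open MeasureTheory
open scoped NNReal RealInnerProductSpace

namespace Vale.Agent.Lib.P074t

open Vale.Agent.Lib.P074q (E PotPair Tight)

/-- `W₁` between two push-forwards of the same measure. -/
theorem wass_one_map_le {d : ℕ} {Ω : Type*} [MeasurableSpace Ω] (π : Measure Ω)
    (F G : Ω → E d) (hF : Measurable F) (hG : Measurable G) :
    Vale.Agent.Lib.P074c.Wass 1 (π.map F) (π.map G) ≤ ∫⁻ p, ENNReal.ofReal ‖F p - G p‖ ∂π := by
  rw [Vale.Agent.Lib.P074q.wass_one_eq]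
  refine iInf₂_le_of_le (π.map (fun p => (F p, G p)))
    ⟨Measure.fst_map_prodMk hG, Measure.snd_map_prodMk hF⟩ ?_
  rw [lintegral_map (by fun_prop) (hF.prodMk hG)]

/-- mass of an atom of a push-forward under an injective relabelling -/
theorem map_label_singleton {d : ℕ} {Ω ι : Type*} [MeasurableSpace Ω] [MeasurableSpace ι]
    [MeasurableSingletonClass ι] [Countable ι]
    (π : Measure Ω) (label : Ω → ι) (hl : Measurable label) (P : ι → E d)
    (hP : Function.Injective P) (i : ι) :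
    (π.map (fun p => P (label p))) {P i} = π (label ⁻¹' {i}) := by
  have hm : Measurable (fun p => P (label p)) := (measurable_of_countable P).comp hl
  rw [Measure.map_apply hm (measurableSet_singleton _)]
  congr 1
  ext p
  simp [hP.eq_iff]

/-- a power-diagram map admits a tight potential pair -/
theorem good_of_discrete {d : ℕ} {K Y : Set (E d)} {M R : ℝ≥0}
    (hKM : ∀ z ∈ K, ‖z‖ ≤ M) (hYR : ∀ y ∈ Y, ‖y‖ ≤ R)
    (ρ : Measure (E d)) [IsProbabilityMeasure ρ] (hρK : ∀ᵐ x ∂ρ, x ∈ K)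
    {ι : Type} [Fintype ι] [Nonempty ι] (P : ι → E d) (w : ι → ℝ) (hPY : ∀ i, P i ∈ Y)
    (T : E d → E d)
    (hT : ∀ᵐ x ∂ρ, ∃ i, T x = P i ∧ ∀ j, ⟪x, P j⟫ - w j ≤ ⟪x, P i⟫ - w i) :
    ∃ a b : E d → ℝ, PotPair Y M R a b ∧ Tight ρ T a b := by
  classical
  refine Vale.Agent.Lib.P074q.potPair_of_subgrad hKM hYR ρ hρK T ?_
    (fun x => Finset.univ.sup' Finset.univ_nonempty (fun i => ⟪x, P i⟫ - w i)) ?_
  · filter_upwards [hT] with x hx
    obtain ⟨i, hi, _⟩ := hx
    rw [hi]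
    exact hPY i
  · filter_upwards [hT] with x hx z _
    obtain ⟨i, hi, hmax⟩ := hx
    have h1 : Finset.univ.sup' Finset.univ_nonempty (fun i => ⟪x, P i⟫ - w i) = ⟪x, P i⟫ - w i := by
      apply le_antisymm
      · exact Finset.sup'_le _ _ (fun j _ => hmax j)
      · exact Finset.le_sup' (fun i => ⟪x, P i⟫ - w i) (Finset.mem_univ i)
    have h2 : ⟪z, P i⟫ - w i ≤ Finset.univ.sup' Finset.univ_nonempty (fun i => ⟪z, P i⟫ - w i) :=
      Finset.le_sup' (fun i => ⟪z, P i⟫ - w i) (Finset.mem_univ i)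
    rw [h1, hi]
    have h3 : ⟪P i, z - x⟫ = ⟪z, P i⟫ - ⟪x, P i⟫ := by
      rw [inner_sub_right, real_inner_comm, real_inner_comm (P i) x]
    linarith

/-- coordinates are bounded by the norm -/
theorem abs_coord_le {x : E 2} (j : Fin 2) : |x j| ≤ ‖x‖ := by
  have := PiLp.norm_apply_le (p := 2) x j
  simpa using this

/-- the norm is bounded by the sum of the coordinates -/
theorem norm_le_abs_add (x : E 2) : ‖x‖ ≤ |x 0| + |x 1| := by
  rw [EuclideanSpace.norm_eq, Fin.sum_univ_two]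
  apply Real.sqrt_le_iff.mpr
  constructor
  · positivity
  · simp only [Real.norm_eq_abs, sq_abs]
    nlinarith [abs_nonneg (x 0), abs_nonneg (x 1), sq_abs (x 0), sq_abs (x 1)]

end Vale.Agent.Lib.P074t
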