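import Vale.Agent.Lib.P074t.ExistDisc
import Vale.Agent.Lib.P074t.ChainGlue17

open MeasureTheory
open scoped NNReal RealInnerProductSpace

namespace Vale.Agent.Lib.P074t

open Vale.Agent.Lib.P074q (E PotPair Tight)
open Vale.Agent.Lib.P074b (unif)

/-- everything we need about the power diagram attached to a relabelled coupling -/
theorem discrete_pack (K : Set (E 2)) (hK : IsCompact K) (hKi : (interior K).Nonempty)
    {Yt : Set (E 2)} (hYt : MeasurableSet Yt) {M R : ℝ≥0}
    (hKM : ∀ z ∈ K, ‖z‖ ≤ M) (hYR : ∀ y ∈ Yt, ‖y‖ ≤ R)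
    {Ω : Type} [MeasurableSpace Ω] (π : Measure Ω) [IsProbabilityMeasure π]
    (ι : Type) [Fintype ι] [Nonempty ι] [MeasurableSpace ι] [MeasurableSingletonClass ι]
    (label : Ω → ι) (hl : Measurable label) (P : ι → E 2) (hP : Function.Injective P)
    (hPY : ∀ i, P i ∈ Yt) :
    ∃ (T : E 2 → E 2) (w : ι → ℝ), Measurable T ∧
      (unif K).map T = π.map (fun p => P (label p)) ∧
      (∀ᵐ x ∂(unif K), ∃ i, T x = P i ∧ ∀ j, ⟪x, P j⟫ - w j ≤ ⟪x, P i⟫ - w i) ∧
      (∀ i, unif K {x | ∀ j, ⟪x, P j⟫ - w j ≤ ⟪x, P i⟫ - w i} = π (label ⁻¹' {i})) ∧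
      (∃ a b : E 2 → ℝ, PotPair Yt M R a b ∧ Tight (unif K) T a b) ∧
      (∀ᵐ y ∂(π.map (fun p => P (label p))), y ∈ Yt) := by
  have hm : Measurable (fun p => P (label p)) := (measurable_of_countable P).comp hl
  have hprob : IsProbabilityMeasure (π.map (fun p => P (label p))) :=
    Measure.isProbabilityMeasure_map hm.aemeasurable
  have hrange : ∀ᵐ y ∂(π.map (fun p => P (label p))), y ∈ Set.range P := by
    refine (ae_map_iff hm.aemeasurable (p := fun y => y ∈ Set.range P)
      (Set.finite_range P).measurableSet).mpr ?_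
    exact Filter.Eventually.of_forall (fun p => Set.mem_range_self _)
  obtain ⟨T, w, hT, hmap, hae, hmass⟩ :=
    exists_discrete K hK hKi ι P hP (π.map (fun p => P (label p))) hrange
  have hv0 : volume K ≠ 0 := (Measure.measure_pos_of_nonempty_interior volume hKi).ne'
  have hvT : volume K ≠ ⊤ := hK.measure_lt_top.ne
  have hρ : IsProbabilityMeasure (unif K) := Vale.Agent.Lib.P074q.isProbabilityMeasure_unif hv0 hvT
  refine ⟨T, w, hT, hmap, hae, fun i => ?_, ?_, ?_⟩
  · rw [hmass i, map_label_singleton π label hl P hP i]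
  · exact good_of_discrete hKM hYR (unif K)
      (Vale.Agent.Lib.P074q.ae_mem_unif hK.measurableSet) P w hPY T hae
  · filter_upwards [hrange] with y hy
    obtain ⟨i, rfl⟩ := hy
    exact hPY i

end Vale.Agent.Lib.P074t
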