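import Vale.Agent.Lib.P074t.ChainAux17
import Vale.Agent.Lib.P074t.ChainGlue17

open MeasureTheory
open scoped NNReal RealInnerProductSpace

namespace Vale.Agent.Lib.P074t

open Vale.Agent.Lib.P074q (E)

/-- The four families of atoms of the chain. -/
theorem exists_points {ι : Type} [Fintype ι] (c c' : ι → E 2) {R0 κ η : ℝ}
    (hc : ∀ i, ‖c i‖ ≤ R0) (hc' : ∀ i, ‖c' i‖ ≤ R0) (hη : 0 < η) (hη' : η ≤ 1 / 4) :
    ∃ P0 P1 P2 P3 : ι → E 2,
      (∀ i, ‖P0 i‖ ≤ 2 * R0 + 2) ∧ (∀ i, ‖P1 i‖ ≤ 2 * R0 + 2) ∧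
      (∀ i, ‖P2 i‖ ≤ 2 * R0 + 2) ∧ (∀ i, ‖P3 i‖ ≤ 2 * R0 + 2) ∧
      (∀ i, P0 i 1 = P1 i 1) ∧ Function.Injective (fun i => P0 i 1) ∧
      (∀ i, |P0 i 0 - P1 i 0| ≤ κ ⊔ 0) ∧
      (∀ i, P1 i 0 = P2 i 0) ∧ Function.Injective (fun i => P1 i 0) ∧
      (∀ i, |P1 i 1 - P2 i 1| ≤ κ ⊔ 0) ∧
      Function.Injective (fun i => P3 i 0) ∧
      (∀ i, ‖c i - P0 i‖ ≤ 2 * η) ∧ (∀ i, ‖c' i - P3 i‖ ≤ 2 * η) ∧
      (∀ i, ‖c i - c' i‖ ≤ κ → P2 i = P3 i) ∧
      (∀ i, ¬ ‖c i - c' i‖ ≤ κ → P2 i - P3 i = c i - c' i) := by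
  classical
  let f : Fin 3 → ι → ℝ := ![fun i => c i 1,
    fun i => if ‖c i - c' i‖ ≤ κ then c' i 0 else c i 0, fun i => c' i 0]
  obtain ⟨o, ho0, hoη, hinj⟩ := exists_offsets f hη
  let uu : E 2 := !₂[1, 1]
  have huu : ‖uu‖ ≤ 2 := by
    refine (norm_le_abs_add uu).trans ?_
    simp [uu]
    norm_num
  have hou : ∀ i, ‖o i • uu‖ ≤ 2 * η := by
    intro i
    rw [norm_smul, Real.norm_eq_abs, abs_of_nonneg (ho0 i)]
    calc o i * ‖uu‖ ≤ η * 2 := mul_le_mul (hoη i) huu (norm_nonneg _) hη.le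
      _ = 2 * η := by ring
  have hR0 : ∀ i : ι, 0 ≤ R0 := fun i => (norm_nonneg _).trans (hc i)
  have hmix : ∀ i, ‖(!₂[c' i 0, c i 1] : E 2)‖ ≤ 2 * R0 := by
    intro i
    refine (norm_le_abs_add _).trans ?_
    have h1 : |c' i 0| ≤ R0 := (abs_coord_le 0).trans (hc' i)
    have h2 : |c i 1| ≤ R0 := (abs_coord_le 1).trans (hc i)
    simp only [PiLp.toLp_apply, Matrix.cons_val_zero, Matrix.cons_val_one, Matrix.cons_val_fin_one]
    linarith
  have hb0 : ∀ i, ‖c i + o i • uu‖ ≤ 2 * R0 + 2 := by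
    intro i
    have := norm_add_le (c i) (o i • uu)
    linarith [hc i, hou i, hR0 i]
  have hb3 : ∀ i, ‖c' i + o i • uu‖ ≤ 2 * R0 + 2 := by
    intro i
    have := norm_add_le (c' i) (o i • uu)
    linarith [hc' i, hou i, hR0 i]
  have hb1 : ∀ i, ‖(!₂[c' i 0, c i 1] : E 2) + o i • uu‖ ≤ 2 * R0 + 2 := by
    intro i
    have := norm_add_le (!₂[c' i 0, c i 1] : E 2) (o i • uu)
    linarith [hmix i, hou i]
  refine ⟨fun i => c i + o i • uu,
    fun i => if ‖c i - c' i‖ ≤ κ then (!₂[c' i 0, c i 1] : E 2) + o i • uu else c i + o i • uu,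
    fun i => if ‖c i - c' i‖ ≤ κ then c' i + o i • uu else c i + o i • uu,
    fun i => c' i + o i • uu, hb0, ?_, ?_, hb3, ?_, ?_, ?_, ?_, ?_, ?_, ?_, ?_, ?_, ?_, ?_⟩
  · intro i
    by_cases h : ‖c i - c' i‖ ≤ κ
    · simp only [h, if_true]; exact hb1 i
    · simp only [h, if_false]; exact hb0 i
  · intro i
    by_cases h : ‖c i - c' i‖ ≤ κ
    · simp only [h, if_true]; exact hb3 i
    · simp only [h, if_false]; exact hb0 i
  · intro i
    by_cases h : ‖c i - c' i‖ ≤ κ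
    · simp [h, uu]
    · simp [h]
  · have := hinj 0
    simpa [f, uu] using this
  · intro i
    by_cases h : ‖c i - c' i‖ ≤ κ
    · have h1 : |(c i - c' i) 0| ≤ ‖c i - c' i‖ := abs_coord_le 0
      have h2 : |c i 0 - c' i 0| ≤ κ := by
        have : (c i - c' i) 0 = c i 0 - c' i 0 := by simp
        rw [this] at h1
        exact h1.trans h
      simp only [h, if_true]
      have e1 : (c i + o i • uu) 0 - ((!₂[c' i 0, c i 1] : E 2) + o i • uu) 0 = c i 0 - c' i 0 := by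
        simp
      rw [e1]
      exact h2.trans (le_max_left _ _)
    · simp [h]
  · intro i
    by_cases h : ‖c i - c' i‖ ≤ κ
    · simp [h, uu]
    · simp [h]
  · have := hinj 1
    intro i j hij
    apply this
    simp only [f, Matrix.cons_val_one, Matrix.cons_val_zero] at hij ⊢
    by_cases hi : ‖c i - c' i‖ ≤ κ <;> by_cases hj : ‖c j - c' j‖ ≤ κ <;>
      simpa [hi, hj, uu] using hij
  · intro i
    by_cases h : ‖c i - c' i‖ ≤ κ
    · have h1 : |(c i - c' i) 1| ≤ ‖c i - c' i‖ := abs_coord_le 1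
      have h2 : |c i 1 - c' i 1| ≤ κ := by
        have : (c i - c' i) 1 = c i 1 - c' i 1 := by simp
        rw [this] at h1
        exact h1.trans h
      simp only [h, if_true]
      have e1 : ((!₂[c' i 0, c i 1] : E 2) + o i • uu) 1 - (c' i + o i • uu) 1 = c i 1 - c' i 1 := by
        simp
      rw [e1]
      exact h2.trans (le_max_left _ _)
    · simp [h]
  · have := hinj 2
    simpa [f, uu] using this
  · intro i
    have : c i - (c i + o i • uu) = -(o i • uu) := by abel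
    rw [this, norm_neg]
    exact hou i
  · intro i
    have : c' i - (c' i + o i • uu) = -(o i • uu) := by abel
    rw [this, norm_neg]
    exact hou i
  · intro i h
    simp [h]
  · intro i h
    simp only [h, if_false]
    abel

end Vale.Agent.Lib.P074t
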