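import Vale.Agent.Lib.P074q.Brenier.Main
import Vale.Agent.Lib.P074b.Defs

open MeasureTheory
open scoped NNReal RealInnerProductSpace

namespace Vale.Agent.Lib.P074t

open Vale.Agent.Lib.P074q (E)
open Vale.Agent.Lib.P074b (unif)

/-- Existence of a power diagram with prescribed cell masses (from the dual minimiser of the
Brenier folder, applied with the finite set `Set.range P`). -/
theorem exists_discrete {d : ℕ} (K : Set (E d)) (hK : IsCompact K) (hKi : (interior K).Nonempty)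
    (ι : Type) [Fintype ι] [Nonempty ι] (P : ι → E d) (hP : Function.Injective P)
    (lam : Measure (E d)) [IsProbabilityMeasure lam] (hlam : ∀ᵐ y ∂lam, y ∈ Set.range P) :
    ∃ (T : E d → E d) (w : ι → ℝ), Measurable T ∧ (unif K).map T = lam ∧
      (∀ᵐ x ∂(unif K), ∃ i, T x = P i ∧ ∀ j, ⟪x, P j⟫ - w j ≤ ⟪x, P i⟫ - w i) ∧
      (∀ i, unif K {x | ∀ j, ⟪x, P j⟫ - w j ≤ ⟪x, P i⟫ - w i} = lam {P i}) := by
  classical
  set Y : Set (E d) := Set.range P with hYdef
  have hY : IsCompact Y := (Set.finite_range P).isCompact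
  have hYne : Y.Nonempty := Set.range_nonempty P
  set ρ : Measure (E d) := (volume K)⁻¹ • volume.restrict K with hρ
  have hunif : unif K = ρ := rfl
  rw [hunif]
  have hvtop : volume K ≠ ⊤ := hK.measure_lt_top.ne
  have hv0 : volume K ≠ 0 :=
    (lt_of_lt_of_le (isOpen_interior.measure_pos volume hKi)
      (measure_mono interior_subset)).ne'
  have hKne : K.Nonempty := hKi.mono interior_subset
  have hKmeas : MeasurableSet K := hK.measurableSet
  have : IsProbabilityMeasure ρ := ⟨by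
    rw [hρ, Measure.smul_apply, Measure.restrict_apply MeasurableSet.univ, Set.univ_inter,
      smul_eq_mul]
    exact ENNReal.inv_mul_cancel hv0 hvtop⟩
  have hρac : ρ ≪ volume :=
    (Measure.smul_absolutelyContinuous).trans Measure.restrict_le_self.absolutelyContinuous
  have hρK : ∀ᵐ x ∂ρ, x ∈ K := Measure.ae_smul_measure (ae_restrict_mem hKmeas) _
  obtain ⟨M, hKM⟩ := Vale.Agent.Lib.P074q.exists_nnnorm_bound hK
  obtain ⟨R, hYR⟩ := Vale.Agent.Lib.P074q.exists_nnnorm_bound hY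
  obtain ⟨b₀, hb₀, hmin⟩ :=
    Vale.Agent.Lib.P074q.exists_minimizer hK hKne hY hYne hKM hYR ρ lam hρK hlam
  have hbb : ∃ c, ∀ z ∈ Y, c ≤ b₀ z := Vale.Agent.Lib.P074q.exists_lower_bound hY hb₀.continuous
  obtain ⟨T₀, hT₀, huniq0⟩ := Vale.Agent.Lib.P074q.exists_unique_maximizer hY hYne hb₀.continuous
  have huniq : ∀ᵐ x ∂ρ, T₀ x ∈ Y ∧ Vale.Agent.Lib.P074q.conj Y b₀ x + b₀ (T₀ x) = ⟪x, T₀ x⟫ ∧
      ∀ y ∈ Y, Vale.Agent.Lib.P074q.conj Y b₀ x + b₀ y = ⟪x, y⟫ → y = T₀ x := hρac.ae_le huniq0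
  have hmap₀ : ρ.map T₀ = lam :=
    Vale.Agent.Lib.P074q.map_eq_of_minimizer hK hY hYne ρ lam hρK hlam hb₀.continuous hmin hT₀ huniq
  have hfy : ∀ x, ∀ j, ⟪x, P j⟫ - b₀ (P j) ≤ Vale.Agent.Lib.P074q.conj Y b₀ x := by
    intro x j
    exact Vale.Agent.Lib.P074q.le_conj hYR hbb x (Set.mem_range_self j)
  have hcell : ∀ᵐ x ∂ρ, ∃ i, T₀ x = P i ∧
      ∀ j, ⟪x, P j⟫ - b₀ (P j) ≤ ⟪x, P i⟫ - b₀ (P i) := by
    filter_upwards [huniq] with x hx
    obtain ⟨i, hi⟩ := hx.1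
    refine ⟨i, hi.symm, fun j => ?_⟩
    have h1 := hfy x j
    have h2 := hx.2.1
    rw [← hi] at h2
    linarith
  refine ⟨T₀, fun i => b₀ (P i), hT₀, hmap₀, hcell, ?_⟩
  intro i
  rw [← hmap₀, Measure.map_apply hT₀ (measurableSet_singleton _)]
  apply measure_congr
  filter_upwards [huniq, hcell] with x hx hc
  apply propext
  show (∀ j, ⟪x, P j⟫ - b₀ (P j) ≤ ⟪x, P i⟫ - b₀ (P i)) ↔ T₀ x = P i
  constructor
  · intro h
    have h1 : Vale.Agent.Lib.P074q.conj Y b₀ x ≤ ⟪x, P i⟫ - b₀ (P i) := by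
      apply Vale.Agent.Lib.P074q.conj_le hYne
      rintro y ⟨j, rfl⟩
      exact h j
    have h2 := hfy x i
    exact (hx.2.2 (P i) (Set.mem_range_self i) (by linarith)).symm
  · intro h
    obtain ⟨i', hi', hc'⟩ := hc
    have : i' = i := hP (hi'.symm.trans h)
    subst this
    exact hc'

end Vale.Agent.Lib.P074t
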