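import Vale.Agent.Lib.P074t.E1disc
import Vale.Agent.Lib.P074t.ExistDisc
import Vale.Agent.Lib.P074q.Main
import Vale.Agent.Lib.P074t.ChainAux17
import Vale.Agent.Lib.P074t.ChainGlue17
import Vale.Agent.Lib.P074t.ChainPack17
import Vale.Agent.Lib.P074t.ChainPts17

open MeasureTheory
open scoped NNReal RealInnerProductSpace

namespace Vale.Agent.Lib.P074t

open Vale.Agent.Lib.P074q (E PotPair Tight)
open Vale.Agent.Lib.P074b (unif IsOTMap W2 Admissible)

lemma eLpNorm_tri {ρ : Measure (E 2)} {A B C : E 2 → E 2} (hA : Measurable A) (hB : Measurable B)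
    (hC : Measurable C) :
    eLpNorm (fun x => A x - C x) 2 ρ ≤
      eLpNorm (fun x => A x - B x) 2 ρ + eLpNorm (fun x => B x - C x) 2 ρ := by
  have : (fun x => A x - C x) = (fun x => A x - B x) + (fun x => B x - C x) := by
    funext x
    simp
  rw [this]
  exact eLpNorm_add_le (hA.sub hB).aestronglyMeasurable (hB.sub hC).aestronglyMeasurable
    (by norm_num)

/-- pointwise estimate on far labels -/
lemma far_bound {a a' p q : E 2} {κ η : ℝ} (hκ : 0 < κ) (hη : η ≤ κ / 8)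
    (h1 : ‖p - a‖ ≤ η) (h2 : ‖q - a'‖ ≤ η) (hfar : ¬ ‖a - a'‖ ≤ κ) :
    ‖a - a'‖ ≤ 2 / κ * ‖p - q‖ ^ 2 := by
  have hfar' : κ < ‖a - a'‖ := not_le.mp hfar
  have h3 : ‖a - a'‖ ≤ ‖p - q‖ + 2 * η := by
    have e : a - a' = -(p - a) + (p - q) + (q - a') := by abel
    calc ‖a - a'‖ = ‖-(p - a) + (p - q) + (q - a')‖ := by rw [e]
      _ ≤ ‖-(p - a)‖ + ‖p - q‖ + ‖q - a'‖ := norm_add₃_le
      _ ≤ ‖p - q‖ + 2 * η := by rw [norm_neg]; linarith
  set D := ‖p - q‖
  have hD : 3 / 4 * κ ≤ D := by linarith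
  have h4 : ‖a - a'‖ ≤ 4 / 3 * D := by linarith
  have h5 : 4 / 3 * D ≤ 2 / κ * D ^ 2 := by
    have e : 2 / κ * D ^ 2 = 2 * D ^ 2 / κ := by ring
    rw [e, le_div_iff₀ hκ]
    have hD0 : 0 ≤ D := norm_nonneg _
    nlinarith
  exact h4.trans h5

/-- The bound against an arbitrary coupling. -/
theorem key_bound (K : Set (E 2)) (hK : IsCompact K) (hKc : Convex ℝ K)
    (hKi : (interior K).Nonempty) (Y : Set (E 2)) (hY : IsCompact Y) (hYne : Y.Nonempty) :
    ∃ C : ℝ≥0, ∀ μ ν : Measure (E 2), IsProbabilityMeasure μ → IsProbabilityMeasure ν →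
      (∀ᵐ y ∂μ, y ∈ Y) → (∀ᵐ y ∂ν, y ∈ Y) →
      ∀ T S : E 2 → E 2, IsOTMap (unif K) μ T → IsOTMap (unif K) ν S →
      ∀ π : Measure (E 2 × E 2), π.fst = μ → π.snd = ν →
      eLpNorm (fun x => T x - S x) 2 (unif K) ≤
        C * (∫⁻ p, ENNReal.ofReal (‖p.1 - p.2‖ ^ 2) ∂π) ^ (1 / 6 : ℝ) := by
  classical
  obtain ⟨R0', hR0'⟩ := hY.isBounded.exists_norm_le
  set R0 : ℝ := max R0' 0 with hR0def
  have hR0 : 0 ≤ R0 := le_max_right _ _
  have hYR0 : ∀ y ∈ Y, ‖y‖ ≤ R0 := fun y hy => (hR0' y hy).trans (le_max_left _ _)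
  let R1 : ℝ≥0 := ⟨2 * R0 + 2, by positivity⟩
  have hR1 : (R1 : ℝ) = 2 * R0 + 2 := rfl
  let Yt : Set (E 2) := Metric.closedBall 0 (R1 : ℝ)
  have hYtc : IsCompact Yt := isCompact_closedBall _ _
  have hmemYt : ∀ y : E 2, ‖y‖ ≤ 2 * R0 + 2 → y ∈ Yt := by
    intro y hy
    simpa [Yt, hR1] using hy
  have hYYt : ∀ y ∈ Y, y ∈ Yt := fun y hy => hmemYt y (by linarith [hYR0 y hy])
  obtain ⟨M, R, C1, hKM, hYR, hC1⟩ :=
    Vale.Agent.Lib.P074q.stability_of_potPairs K hK hKi Yt hYtc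
  obtain ⟨C2, hC2⟩ := E1_discrete K hK hKc hKi R1
  refine ⟨4 * C1 + 2 * C2 + 1, ?_⟩
  intro μ ν hμ hν hμY hνY T S hT hS π hπ1 hπ2
  have hv0 : volume K ≠ 0 := (Measure.measure_pos_of_nonempty_interior volume hKi).ne'
  have hvT : volume K ≠ ⊤ := hK.measure_lt_top.ne
  have hρ : IsProbabilityMeasure (unif K) := Vale.Agent.Lib.P074q.isProbabilityMeasure_unif hv0 hvT
  have hπprob : IsProbabilityMeasure π := by
    constructor
    have h1 : π.fst Set.univ = 1 := by rw [hπ1]; exact measure_univ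
    rwa [Measure.fst_univ] at h1
  have hπY1 : ∀ᵐ p ∂π, p.1 ∈ Y := by
    have h := hμY
    rw [← hπ1] at h
    exact (ae_map_iff measurable_fst.aemeasurable hY.measurableSet).mp h
  have hπY2 : ∀ᵐ p ∂π, p.2 ∈ Y := by
    have h := hνY
    rw [← hπ2] at h
    exact (ae_map_iff measurable_snd.aemeasurable hY.measurableSet).mp h
  have hμYt : ∀ᵐ y ∂μ, y ∈ Yt := hμY.mono hYYt
  have hνYt : ∀ᵐ y ∂ν, y ∈ Yt := hνY.mono hYYt
  have hgT : ∃ a b : E 2 → ℝ, PotPair Yt M R a b ∧ Tight (unif K) T a b :=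
    Vale.Agent.Lib.P074q.potPair_of_isOTMap hK hv0 hYtc ⟨0, hmemYt 0 (by simp; positivity)⟩
      hKM hYR μ hμYt T hT
  have hgS : ∃ a b : E 2 → ℝ, PotPair Yt M R a b ∧ Tight (unif K) S a b :=
    Vale.Agent.Lib.P074q.potPair_of_isOTMap hK hv0 hYtc ⟨0, hmemYt 0 (by simp; positivity)⟩
      hKM hYR ν hνYt S hS
  have hTmap : (unif K).map T = π.map Prod.fst := hT.2.1.trans hπ1.symm
  have hSmap : (unif K).map S = π.map Prod.snd := hS.2.1.trans hπ2.symm
  -- the W₁ step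
  have stepW : ∀ (F G : E 2 × E 2 → E 2), Measurable F → Measurable G →
      ∀ (A B : E 2 → E 2), Measurable A → Measurable B →
      (unif K).map A = π.map F → (unif K).map B = π.map G →
      (∀ᵐ y ∂(π.map F), y ∈ Yt) → (∀ᵐ y ∂(π.map G), y ∈ Yt) →
      (∃ a b : E 2 → ℝ, PotPair Yt M R a b ∧ Tight (unif K) A a b) →
      (∃ a b : E 2 → ℝ, PotPair Yt M R a b ∧ Tight (unif K) B a b) →
      ∀ b : ENNReal, (∫⁻ p, ENNReal.ofReal ‖F p - G p‖ ∂π) ≤ b →
      eLpNorm (fun x => A x - B x) 2 (unif K) ≤ C1 * b ^ (1 / 4 : ℝ) := by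
    intro F G hF hG A B hA hB hAm hBm hFY hGY hgA hgB b hb
    refine (hC1 (π.map F) (π.map G) hFY hGY A B hA hB hAm hBm hgA hgB).trans ?_
    gcongr
    exact (wass_one_map_le π F G hF hG).trans hb
  set cE : ENNReal := ∫⁻ p, ENNReal.ofReal (‖p.1 - p.2‖ ^ 2) ∂π with hcE
  have hTm : Measurable T := hT.1
  have hSm : Measurable S := hS.1
  have hfY : ∀ᵐ y ∂(π.map Prod.fst), y ∈ Yt := by
    have : π.map Prod.fst = μ := hπ1
    rw [this]; exact hμYt
  have hsY : ∀ᵐ y ∂(π.map Prod.snd), y ∈ Yt := by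
    have : π.map Prod.snd = ν := hπ2
    rw [this]; exact hνYt
  -- the three cases
  rcases eq_or_ne cE ⊤ with hctop | hctop
  · rw [hctop, ENNReal.top_rpow_of_pos (by norm_num), ENNReal.mul_top (by simp)]
    exact le_top
  rcases eq_or_ne cE 0 with hc0 | hc0
  · -- zero cost
    have hz : ∀ᵐ p ∂π, ENNReal.ofReal (‖p.1 - p.2‖ ^ 2) = 0 := by
      have := (lintegral_eq_zero_iff (by fun_prop)).mp hc0
      exact this
    have hz' : (∫⁻ p, ENNReal.ofReal ‖(Prod.fst p : E 2) - Prod.snd p‖ ∂π) ≤ 0 := by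
      have : (∫⁻ p, ENNReal.ofReal ‖(Prod.fst p : E 2) - Prod.snd p‖ ∂π) = ∫⁻ _, 0 ∂π := by
        refine lintegral_congr_ae ?_
        filter_upwards [hz] with p hp
        have h1 : ‖p.1 - p.2‖ ^ 2 ≤ 0 := ENNReal.ofReal_eq_zero.mp hp
        have h2 : ‖p.1 - p.2‖ = 0 := by
          have := pow_eq_zero_iff (two_ne_zero) |>.mp (le_antisymm h1 (sq_nonneg _))
          exact this
        rw [h2]; simp
      rw [this]; simp
    have := stepW Prod.fst Prod.snd measurable_fst measurable_snd T S hTm hSm hTmap hSmap hfY hsY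
      hgT hgS 0 hz'
    rw [ENNReal.zero_rpow_of_pos (by norm_num), mul_zero] at this
    exact this.trans zero_le
  -- main case
  set c : ℝ := cE.toReal with hcdef
  have hcpos : 0 < c := ENNReal.toReal_pos hc0 hctop
  have hcE' : cE = ENNReal.ofReal c := (ENNReal.ofReal_toReal hctop).symm
  set κ : ℝ := c ^ (1 / 3 : ℝ) with hκdef
  have hκ : 0 < κ := Real.rpow_pos_of_pos hcpos _
  have hκ3 : κ ^ 3 = c := by
    rw [hκdef, ← Real.rpow_natCast, ← Real.rpow_mul hcpos.le]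
    norm_num
  set η : ℝ := min (κ / 8) (min (κ ^ 2 / 3) (1 / 4)) with hηdef
  have hη : 0 < η := by
    refine lt_min (by positivity) (lt_min (by positivity) (by norm_num))
  have hη1 : η ≤ κ / 8 := min_le_left _ _
  have hη2 : 3 * η ≤ κ ^ 2 := by
    have : η ≤ κ ^ 2 / 3 := (min_le_right _ _).trans (min_le_left _ _)
    linarith
  have hη3 : η ≤ 1 / 4 := (min_le_right _ _).trans (min_le_right _ _)
  obtain ⟨N, e, idx, hidx, heY, hnet⟩ := exists_quantiser Y hY hYne hη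
  let label : E 2 × E 2 → Fin (N + 1) × Fin (N + 1) := fun p => (idx p.1, idx p.2)
  have hlabel : Measurable label :=
    (hidx.comp measurable_fst).prodMk (hidx.comp measurable_snd)
  obtain ⟨P0, P1, P2, P3, hn0, hn1, hn2, hn3, h01, hi0, hd01, h12, hi1, hd12, hi3, hc0', hc3',
    hnear, hfar⟩ := exists_points (fun i : Fin (N + 1) × Fin (N + 1) => e i.1) (fun i => e i.2)
      (R0 := R0) (κ := κ) (η := η) (fun i => hYR0 _ (heY _)) (fun i => hYR0 _ (heY _)) hη hη3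
  have hκmax : κ ⊔ 0 = κ := max_eq_left hκ.le
  rw [hκmax] at hd01 hd12
  have hP0 : Function.Injective P0 := fun i j h => hi0 (congrArg (fun x : E 2 => x 1) h)
  have hP1 : Function.Injective P1 := fun i j h => hi1 (congrArg (fun x : E 2 => x 0) h)
  have hP2 : Function.Injective P2 := by
    intro i j h
    apply hi1
    show P1 i 0 = P1 j 0
    rw [h12 i, h12 j, h]
  have hP3 : Function.Injective P3 := fun i j h => hi3 (congrArg (fun x : E 2 => x 0) h)
  obtain ⟨T0, w0, hT0m, hT0map, hT0ae, hT0mass, hT0g, hT0Y⟩ :=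
    discrete_pack K hK hKi hYtc.measurableSet hKM hYR π _ label hlabel P0 hP0
      (fun i => hmemYt _ (hn0 i))
  obtain ⟨T1, w1, hT1m, hT1map, hT1ae, hT1mass, hT1g, hT1Y⟩ :=
    discrete_pack K hK hKi hYtc.measurableSet hKM hYR π _ label hlabel P1 hP1
      (fun i => hmemYt _ (hn1 i))
  obtain ⟨T2, w2, hT2m, hT2map, hT2ae, hT2mass, hT2g, hT2Y⟩ :=
    discrete_pack K hK hKi hYtc.measurableSet hKM hYR π _ label hlabel P2 hP2
      (fun i => hmemYt _ (hn2 i))
  obtain ⟨T3, w3, hT3m, hT3map, hT3ae, hT3mass, hT3g, hT3Y⟩ :=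
    discrete_pack K hK hKi hYtc.measurableSet hKM hYR π _ label hlabel P3 hP3
      (fun i => hmemYt _ (hn3 i))
  have hmP : ∀ P : Fin (N + 1) × Fin (N + 1) → E 2, Measurable (fun p => P (label p)) :=
    fun P => (measurable_of_countable P).comp hlabel
  set x : ENNReal := ENNReal.ofReal κ with hx
  -- step 1
  have b1 : (∫⁻ p, ENNReal.ofReal ‖Prod.fst p - P0 (label p)‖ ∂π) ≤ x ^ 2 := by
    calc (∫⁻ p, ENNReal.ofReal ‖Prod.fst p - P0 (label p)‖ ∂π)
        ≤ ∫⁻ _, ENNReal.ofReal (κ ^ 2) ∂π := by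
          refine lintegral_mono_ae ?_
          filter_upwards [hπY1] with p hp
          apply ENNReal.ofReal_le_ofReal
          have h1 := hnet p.1 hp
          have h2 := hc0' (label p)
          have e1 : p.1 - P0 (label p) = (p.1 - e (idx p.1)) + (e (idx p.1) - P0 (label p)) := by
            abel
          calc ‖p.1 - P0 (label p)‖ ≤ ‖p.1 - e (idx p.1)‖ + ‖e (idx p.1) - P0 (label p)‖ := by
                rw [e1]; exact norm_add_le _ _
            _ ≤ η + 2 * η := add_le_add h1 h2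
            _ ≤ κ ^ 2 := by linarith
      _ = x ^ 2 := by
          rw [lintegral_const, measure_univ, mul_one, ENNReal.ofReal_pow hκ.le]
  have b5 : (∫⁻ p, ENNReal.ofReal ‖P3 (label p) - Prod.snd p‖ ∂π) ≤ x ^ 2 := by
    calc (∫⁻ p, ENNReal.ofReal ‖P3 (label p) - Prod.snd p‖ ∂π)
        ≤ ∫⁻ _, ENNReal.ofReal (κ ^ 2) ∂π := by
          refine lintegral_mono_ae ?_
          filter_upwards [hπY2] with p hp
          apply ENNReal.ofReal_le_ofReal
          have h1 := hnet p.2 hp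
          have h2 := hc3' (label p)
          have e1 : P3 (label p) - p.2 = -((p.2 - e (idx p.2)) + (e (idx p.2) - P3 (label p))) := by
            abel
          calc ‖P3 (label p) - p.2‖ ≤ ‖p.2 - e (idx p.2)‖ + ‖e (idx p.2) - P3 (label p)‖ := by
                rw [e1, norm_neg]; exact norm_add_le _ _
            _ ≤ η + 2 * η := add_le_add h1 h2
            _ ≤ κ ^ 2 := by linarith
      _ = x ^ 2 := by
          rw [lintegral_const, measure_univ, mul_one, ENNReal.ofReal_pow hκ.le]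
  have b4 : (∫⁻ p, ENNReal.ofReal ‖P2 (label p) - P3 (label p)‖ ∂π) ≤ 2 * x ^ 2 := by
    calc (∫⁻ p, ENNReal.ofReal ‖P2 (label p) - P3 (label p)‖ ∂π)
        ≤ ∫⁻ p, ENNReal.ofReal (2 / κ) * ENNReal.ofReal (‖p.1 - p.2‖ ^ 2) ∂π := by
          refine lintegral_mono_ae ?_
          filter_upwards [hπY1, hπY2] with p hp1 hp2
          rw [← ENNReal.ofReal_mul (by positivity)]
          apply ENNReal.ofReal_le_ofReal
          by_cases hnr : ‖e (idx p.1) - e (idx p.2)‖ ≤ κ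
          · rw [hnear (label p) hnr]
            simp only [sub_self, norm_zero]
            positivity
          · rw [hfar (label p) hnr]
            exact far_bound hκ hη1 (hnet p.1 hp1) (hnet p.2 hp2) hnr
      _ = ENNReal.ofReal (2 / κ) * cE := by
          rw [lintegral_const_mul _ (by fun_prop)]
      _ = 2 * x ^ 2 := by
          rw [hcE', ← ENNReal.ofReal_mul (by positivity), ← hκ3, hx, ← ENNReal.ofReal_pow hκ.le]
          have : 2 / κ * κ ^ 3 = 2 * κ ^ 2 := by field_simp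
          rw [this, ENNReal.ofReal_mul (by norm_num)]
          simp
  have s1 := stepW Prod.fst (fun p => P0 (label p)) measurable_fst (hmP P0) T T0 hTm hT0m hTmap
    hT0map hfY hT0Y hgT hT0g _ b1
  have s4 := stepW (fun p => P2 (label p)) (fun p => P3 (label p)) (hmP P2) (hmP P3) T2 T3 hT2m
    hT3m hT2map hT3map hT2Y hT3Y hT2g hT3g _ b4
  have s5 := stepW (fun p => P3 (label p)) Prod.snd (hmP P3) measurable_snd T3 S hT3m hSm hT3map
    hSmap hT3Y hsY hT3g hgS _ b5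
  have s2 := hC2 (Fin (N + 1) × Fin (N + 1)) 0 1 (by decide) P0 P1 w0 w1 κ hκ hn0 hn1 h01 hi0 hd01
    T0 T1 hT0m hT1m hT0ae hT1ae (fun i => (hT0mass i).trans (hT1mass i).symm)
  have s3 := hC2 (Fin (N + 1) × Fin (N + 1)) 1 0 (by decide) P1 P2 w1 w2 κ hκ hn1 hn2 h12 hi1 hd12
    T1 T2 hT1m hT2m hT1ae hT2ae (fun i => (hT1mass i).trans (hT2mass i).symm)
  -- arithmetic
  set t : ENNReal := x ^ (1 / 2 : ℝ) with ht
  have a1 : (x ^ 2) ^ (1 / 4 : ℝ) = t := by
    rw [ht, ← ENNReal.rpow_natCast, ← ENNReal.rpow_mul]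
    norm_num
  have a4 : (2 * x ^ 2) ^ (1 / 4 : ℝ) ≤ 2 * t := by
    rw [ENNReal.mul_rpow_of_nonneg _ _ (by norm_num), a1]
    gcongr
    calc (2 : ENNReal) ^ (1 / 4 : ℝ) ≤ (2 : ENNReal) ^ (1 : ℝ) :=
          ENNReal.rpow_le_rpow_of_exponent_le (by norm_num) (by norm_num)
      _ = 2 := ENNReal.rpow_one _
  have a6 : cE ^ (1 / 6 : ℝ) = t := by
    rw [hcE', ← hκ3, ENNReal.ofReal_pow hκ.le, ht, ← hx, ← ENNReal.rpow_natCast,
      ← ENNReal.rpow_mul]
    norm_num
  rw [a1] at s1 s5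
  rw [a6]
  have s4' : eLpNorm (fun x => T2 x - T3 x) 2 (unif K) ≤ C1 * (2 * t) := s4.trans (by gcongr)
  calc eLpNorm (fun x => T x - S x) 2 (unif K)
      ≤ eLpNorm (fun x => T x - T0 x) 2 (unif K) + (eLpNorm (fun x => T0 x - T1 x) 2 (unif K) +
        (eLpNorm (fun x => T1 x - T2 x) 2 (unif K) + (eLpNorm (fun x => T2 x - T3 x) 2 (unif K) +
          eLpNorm (fun x => T3 x - S x) 2 (unif K)))) := by
        refine (eLpNorm_tri hTm hT0m hSm).trans ?_
        gcongr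
        refine (eLpNorm_tri hT0m hT1m hSm).trans ?_
        gcongr
        refine (eLpNorm_tri hT1m hT2m hSm).trans ?_
        gcongr
        exact eLpNorm_tri hT2m hT3m hSm
    _ ≤ C1 * t + (C2 * t + (C2 * t + (C1 * (2 * t) + C1 * t))) := by
        gcongr
    _ ≤ ((4 * C1 + 2 * C2 + 1 : ℝ≥0) : ENNReal) * t := by
        push_cast
        have : (C1 : ENNReal) * t + (C2 * t + (C2 * t + (C1 * (2 * t) + C1 * t)))
            = (4 * C1 + 2 * C2) * t := by ring
        rw [this]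
        exact mul_le_mul' le_self_add le_rfl

/-- The exponent `1/3` is admissible in dimension two. -/
theorem admissible_third : Admissible 2 (1 / 3) := by
  refine ⟨by norm_num, by norm_num, ?_⟩
  intro K hK hKc hKi Y hY hYne
  obtain ⟨C, hC⟩ := key_bound K hK hKc hKi Y hY hYne
  refine ⟨C, ?_⟩
  intro μ ν hμ hν hμY hνY T S hT hS
  exact le_W2_third_of_forall_coupling (fun π h1 h2 => hC μ ν hμ hν hμY hνY T S hT hS π h1 h2)

end Vale.Agent.Lib.P074t
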