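import Mathlib

/-!
Arithmetic at the end of the chain argument.
-/

open MeasureTheory
open scoped NNReal

namespace Vale.Agent.Lib.P074t

theorem rpow_quarter_le {k m x : ℝ} (hk : 0 ≤ k) (hm : 0 ≤ m) (hx : 0 ≤ x) (hkm : k ≤ m ^ 4) :
    (k * x ^ 4) ^ (1 / 4 : ℝ) ≤ m * x := by
  have h1 : k * x ^ 4 ≤ (m * x) ^ 4 := by
    rw [mul_pow]
    exact mul_le_mul_of_nonneg_right hkm (by positivity)
  calc (k * x ^ 4) ^ (1 / 4 : ℝ) ≤ ((m * x) ^ 4) ^ (1 / 4 : ℝ) :=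
        Real.rpow_le_rpow (by positivity) h1 (by norm_num)
    _ = m * x := by
        rw [← Real.rpow_natCast, ← Real.rpow_mul (by positivity)]
        norm_num

theorem lintegral_rpow_quarter_le {Ω : Type*} [MeasurableSpace Ω] (π : Measure Ω)
    (f : Ω → ℝ) {k m x : ℝ} (hk : 0 ≤ k) (hm : 0 ≤ m) (hx : 0 ≤ x) (hkm : k ≤ m ^ 4)
    (h : ∫⁻ p, ENNReal.ofReal (f p) ∂π ≤ ENNReal.ofReal (k * x ^ 4)) :
    (∫⁻ p, ENNReal.ofReal (f p) ∂π) ^ (1 / 4 : ℝ) ≤ ENNReal.ofReal (m * x) := by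
  calc (∫⁻ p, ENNReal.ofReal (f p) ∂π) ^ (1 / 4 : ℝ)
      ≤ (ENNReal.ofReal (k * x ^ 4)) ^ (1 / 4 : ℝ) := ENNReal.rpow_le_rpow h (by norm_num)
    _ = ENNReal.ofReal ((k * x ^ 4) ^ (1 / 4 : ℝ)) :=
        ENNReal.ofReal_rpow_of_nonneg (by positivity) (by norm_num)
    _ ≤ ENNReal.ofReal (m * x) := ENNReal.ofReal_le_ofReal (rpow_quarter_le hk hm hx hkm)

/-- The right-hand side of `chain_bound` is at most `(4 C1 + 2 C2) c ^ (1/6)`. -/
theorem chain_arith {Ω : Type*} [MeasurableSpace Ω] (π : Measure Ω) [IsProbabilityMeasure π]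
    (C1 C2 : ℝ≥0) (D a b g : Ω → ℝ) (κ η c : ℝ) (hc : 0 < c)
    (hcπ : ∫⁻ p, ENNReal.ofReal (D p ^ 2) ∂π = ENNReal.ofReal c)
    (hκ : κ = c ^ (1 / 3 : ℝ)) (hη : η ≤ c ^ (2 / 3 : ℝ))
    (ha : ∀ᵐ p ∂π, a p ≤ 2 * η) (hb : ∀ᵐ p ∂π, b p ≤ 2 * η)
    (hg : ∀ᵐ p ∂π, g p ≤ 3 / κ * D p ^ 2) :
    C1 * (∫⁻ p, ENNReal.ofReal (a p) ∂π) ^ (1 / 4 : ℝ)
        + C2 * ENNReal.ofReal κ ^ (1 / 2 : ℝ) + C2 * ENNReal.ofReal κ ^ (1 / 2 : ℝ)
        + C1 * (∫⁻ p, ENNReal.ofReal (g p) ∂π) ^ (1 / 4 : ℝ)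
        + C1 * (∫⁻ p, ENNReal.ofReal (b p) ∂π) ^ (1 / 4 : ℝ)
      ≤ ((4 * C1 + 2 * C2 : ℝ≥0) : ENNReal) * ENNReal.ofReal c ^ (1 / 6 : ℝ) := by
  set x : ℝ := c ^ (1 / 6 : ℝ) with hx
  have hx0 : 0 < x := Real.rpow_pos_of_pos hc _
  have hx4 : c ^ (2 / 3 : ℝ) = x ^ 4 := by
    rw [hx, ← Real.rpow_natCast, ← Real.rpow_mul hc.le]
    norm_num
  have hx2 : κ = x ^ 2 := by
    rw [hκ, hx, ← Real.rpow_natCast, ← Real.rpow_mul hc.le]
    norm_num
  have hx6 : c = x ^ 6 := by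
    rw [hx, ← Real.rpow_natCast, ← Real.rpow_mul hc.le]
    norm_num
  have hκ0 : 0 < κ := by rw [hx2]; positivity
  have hconst : ∀ f : Ω → ℝ, (∀ᵐ p ∂π, f p ≤ 2 * η) →
      ∫⁻ p, ENNReal.ofReal (f p) ∂π ≤ ENNReal.ofReal (2 * x ^ 4) := by
    intro f hf
    calc ∫⁻ p, ENNReal.ofReal (f p) ∂π ≤ ∫⁻ _, ENNReal.ofReal (2 * x ^ 4) ∂π := by
          refine lintegral_mono_ae ?_
          filter_upwards [hf] with p hp
          exact ENNReal.ofReal_le_ofReal (by rw [← hx4]; linarith)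
      _ = ENNReal.ofReal (2 * x ^ 4) := by simp
  have hgi : ∫⁻ p, ENNReal.ofReal (g p) ∂π ≤ ENNReal.ofReal (3 * x ^ 4) := by
    calc ∫⁻ p, ENNReal.ofReal (g p) ∂π
        ≤ ∫⁻ p, ENNReal.ofReal (3 / κ) * ENNReal.ofReal (D p ^ 2) ∂π := by
          refine lintegral_mono_ae ?_
          filter_upwards [hg] with p hp
          rw [← ENNReal.ofReal_mul (by positivity)]
          exact ENNReal.ofReal_le_ofReal hp
      _ = ENNReal.ofReal (3 / κ) * ENNReal.ofReal c := by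
          rw [lintegral_const_mul' _ _ ENNReal.ofReal_ne_top, hcπ]
      _ = ENNReal.ofReal (3 * x ^ 4) := by
          rw [← ENNReal.ofReal_mul (by positivity)]
          congr 1
          rw [hx2, hx6]
          field_simp
  have e1 := lintegral_rpow_quarter_le π a (k := 2) (m := 5 / 4) (by norm_num) (by norm_num)
    hx0.le (by norm_num) (hconst a ha)
  have e2 := lintegral_rpow_quarter_le π b (k := 2) (m := 5 / 4) (by norm_num) (by norm_num)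
    hx0.le (by norm_num) (hconst b hb)
  have e3 := lintegral_rpow_quarter_le π g (k := 3) (m := 3 / 2) (by norm_num) (by norm_num)
    hx0.le (by norm_num) hgi
  have e4 : ENNReal.ofReal κ ^ (1 / 2 : ℝ) = ENNReal.ofReal x := by
    rw [ENNReal.ofReal_rpow_of_nonneg hκ0.le (by norm_num), hx2, ← Real.rpow_natCast,
      ← Real.rpow_mul hx0.le]
    norm_num
  have e5 : ENNReal.ofReal c ^ (1 / 6 : ℝ) = ENNReal.ofReal x :=
    ENNReal.ofReal_rpow_of_nonneg hc.le (by norm_num)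
  rw [e4, e5]
  calc (C1 : ENNReal) * (∫⁻ p, ENNReal.ofReal (a p) ∂π) ^ (1 / 4 : ℝ)
        + C2 * ENNReal.ofReal x + C2 * ENNReal.ofReal x
        + C1 * (∫⁻ p, ENNReal.ofReal (g p) ∂π) ^ (1 / 4 : ℝ)
        + C1 * (∫⁻ p, ENNReal.ofReal (b p) ∂π) ^ (1 / 4 : ℝ)
      ≤ (C1 : ENNReal) * ENNReal.ofReal (5 / 4 * x)
        + C2 * ENNReal.ofReal x + C2 * ENNReal.ofReal x
        + C1 * ENNReal.ofReal (3 / 2 * x) + C1 * ENNReal.ofReal (5 / 4 * x) := by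
        gcongr
    _ = ((4 * C1 + 2 * C2 : ℝ≥0) : ENNReal) * ENNReal.ofReal x := by
        rw [← ENNReal.ofReal_coe_nnreal (p := C1), ← ENNReal.ofReal_coe_nnreal (p := C2),
          ← ENNReal.ofReal_coe_nnreal (p := 4 * C1 + 2 * C2)]
        have h1 : (0 : ℝ) ≤ C1 := C1.2
        have h2 : (0 : ℝ) ≤ C2 := C2.2
        simp only [← ENNReal.ofReal_mul h1, ← ENNReal.ofReal_mul h2]
        rw [← ENNReal.ofReal_mul (by positivity), ← ENNReal.ofReal_add (by positivity)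
          (by positivity), ← ENNReal.ofReal_add (by positivity) (by positivity),
          ← ENNReal.ofReal_add (by positivity) (by positivity),
          ← ENNReal.ofReal_add (by positivity) (by positivity)]
        congr 1
        push_cast
        ring

end Vale.Agent.Lib.P074t
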