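import Vale.Agent.Lib.P074t.ExistDisc
import Vale.Agent.Lib.P074q.Main
import Vale.Agent.Lib.P074e.DPrelim

/-!
Glue lemmas for the chain argument: images of a coupling under finitely valued maps, subgradient
property of power diagrams, and the five-step triangle inequality.
-/

open MeasureTheory
open scoped NNReal RealInnerProductSpace

namespace Vale.Agent.Lib.P074t

open Vale.Agent.Lib.P074q (E)
open Vale.Agent.Lib.P074b (unif IsOTMap)

section glue

variable {d : ℕ} {Ω : Type*} [MeasurableSpace Ω]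
variable {ι : Type} [MeasurableSpace ι] [DiscreteMeasurableSpace ι]

theorem measurable_comp_label {label : Ω → ι} (hl : Measurable label) (P : ι → E d) :
    Measurable (fun p => P (label p)) :=
  (Measurable.of_discrete (f := P)).comp hl

/-- Mass of an atom of the image measure. -/
theorem map_label_singleton (π : Measure Ω) {label : Ω → ι} (hl : Measurable label)
    {P : ι → E d} (hP : Function.Injective P) (i : ι) :
    (π.map (fun p => P (label p))) {P i} = π (label ⁻¹' {i}) := by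
  rw [Measure.map_apply (measurable_comp_label hl P) (measurableSet_singleton _)]
  congr 1
  ext p
  simp only [Set.mem_preimage, Set.mem_singleton_iff]
  exact ⟨fun h => hP h, fun h => by rw [h]⟩

theorem ae_map_label_mem_range [Finite ι] (π : Measure Ω) {label : Ω → ι} (hl : Measurable label)
    (P : ι → E d) : ∀ᵐ y ∂(π.map (fun p => P (label p))), y ∈ Set.range P := by
  refine (ae_map_iff (measurable_comp_label hl P).aemeasurable
    (Set.finite_range P).measurableSet).mpr ?_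
  exact Filter.Eventually.of_forall fun p => ⟨label p, rfl⟩

theorem ae_map_label_mem (π : Measure Ω) {label : Ω → ι} (hl : Measurable label)
    (P : ι → E d) {Y : Set (E d)} (hY : MeasurableSet Y) (hPY : ∀ i, P i ∈ Y) :
    ∀ᵐ y ∂(π.map (fun p => P (label p))), y ∈ Y := by
  refine (ae_map_iff (measurable_comp_label hl P).aemeasurable hY).mpr ?_
  exact Filter.Eventually.of_forall fun p => hPY (label p)

end glue

/-- A map that selects a.e. a maximal affine piece is a.e. a subgradient of the maximum. -/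
theorem subgrad_of_diagram {d : ℕ} {ι : Type} [Fintype ι] [Nonempty ι] (ρ : Measure (E d))
    (K : Set (E d)) (P : ι → E d) (w : ι → ℝ) (T : E d → E d)
    (h : ∀ᵐ x ∂ρ, ∃ i, T x = P i ∧ ∀ j, ⟪x, P j⟫ - w j ≤ ⟪x, P i⟫ - w i) :
    ∃ φ : E d → ℝ, ∀ᵐ x ∂ρ, ∀ z ∈ K, φ x + ⟪T x, z - x⟫ ≤ φ z := by
  refine ⟨fun x => Finset.univ.sup' Finset.univ_nonempty (fun i => ⟪x, P i⟫ - w i), ?_⟩
  filter_upwards [h] with x hx z _
  obtain ⟨i, hTi, hmax⟩ := hx
  have h1 : Finset.univ.sup' Finset.univ_nonempty (fun i => ⟪x, P i⟫ - w i) ≤ ⟪x, P i⟫ - w i :=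
    Finset.sup'_le _ _ fun j _ => hmax j
  have h2 : ⟪z, P i⟫ - w i ≤ Finset.univ.sup' Finset.univ_nonempty (fun i => ⟪z, P i⟫ - w i) :=
    Finset.le_sup' (fun i => ⟪z, P i⟫ - w i) (Finset.mem_univ i)
  have h3 : ⟪T x, z - x⟫ = ⟪z, P i⟫ - ⟪x, P i⟫ := by
    rw [hTi, inner_sub_right, real_inner_comm, real_inner_comm x]
  rw [h3]
  linarith

/-- The statement of `E1_discrete` for a fixed constant. -/
def E1Prop (K : Set (E 2)) (R C : ℝ≥0) : Prop :=
  ∀ (ι : Type) [Fintype ι] [Nonempty ι] (j0 j1 : Fin 2), j0 ≠ j1 →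
      ∀ (P P' : ι → E 2) (w w' : ι → ℝ) (δ : ℝ), 0 < δ →
      (∀ i, ‖P i‖ ≤ R) → (∀ i, ‖P' i‖ ≤ R) →
      (∀ i, P i j1 = P' i j1) → Function.Injective (fun i => P i j1) →
      (∀ i, |P i j0 - P' i j0| ≤ δ) →
      ∀ T S : E 2 → E 2, Measurable T → Measurable S →
      (∀ᵐ x ∂(unif K), ∃ i, T x = P i ∧ ∀ j, ⟪x, P j⟫ - w j ≤ ⟪x, P i⟫ - w i) →
      (∀ᵐ x ∂(unif K), ∃ i, S x = P' i ∧ ∀ j, ⟪x, P' j⟫ - w' j ≤ ⟪x, P' i⟫ - w' i) →
      (∀ i, unif K {x | ∀ j, ⟪x, P j⟫ - w j ≤ ⟪x, P i⟫ - w i} =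
        unif K {x | ∀ j, ⟪x, P' j⟫ - w' j ≤ ⟪x, P' i⟫ - w' i}) →
      eLpNorm (fun x => T x - S x) 2 (unif K) ≤ C * ENNReal.ofReal δ ^ (1 / 2 : ℝ)

/-- The five-step chain.  `Yt` is a compact set containing all targets, `P0 .. P3` are the four
finite configurations, indexed by the labels of a coupling `π` of `μ` and `ν`. -/
theorem chain_bound (K : Set (E 2)) (hK : IsCompact K) (hKi : (interior K).Nonempty)
    (Yt : Set (E 2)) (hYt : IsCompact Yt) (hYtne : Yt.Nonempty) (R C2 : ℝ≥0)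
    (hR : ∀ y ∈ Yt, ‖y‖ ≤ R) (hE1 : E1Prop K R C2) :
    ∃ C1 : ℝ≥0, ∀ μ ν : Measure (E 2), IsProbabilityMeasure μ → IsProbabilityMeasure ν →
      (∀ᵐ y ∂μ, y ∈ Yt) → (∀ᵐ y ∂ν, y ∈ Yt) →
      ∀ T S : E 2 → E 2, IsOTMap (unif K) μ T → IsOTMap (unif K) ν S →
      ∀ π : Measure (E 2 × E 2), π.fst = μ → π.snd = ν →
      ∀ (ι : Type) [Fintype ι] [Nonempty ι] [MeasurableSpace ι] [DiscreteMeasurableSpace ι]
        (label : E 2 × E 2 → ι), Measurable label →
      ∀ (P0 P1 P2 P3 : ι → E 2) (κ : ℝ), 0 < κ →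
      (∀ i, P0 i ∈ Yt) → (∀ i, P1 i ∈ Yt) → (∀ i, P2 i ∈ Yt) → (∀ i, P3 i ∈ Yt) →
      (∀ i, P0 i 1 = P1 i 1) → Function.Injective (fun i => P0 i 1) →
      (∀ i, |P0 i 0 - P1 i 0| ≤ κ) →
      (∀ i, P1 i 0 = P2 i 0) → Function.Injective (fun i => P1 i 0) →
      (∀ i, |P1 i 1 - P2 i 1| ≤ κ) →
      Function.Injective P3 →
      eLpNorm (fun x => T x - S x) 2 (unif K) ≤
        C1 * (∫⁻ p, ENNReal.ofReal ‖p.1 - P0 (label p)‖ ∂π) ^ (1 / 4 : ℝ)
        + C2 * ENNReal.ofReal κ ^ (1 / 2 : ℝ) + C2 * ENNReal.ofReal κ ^ (1 / 2 : ℝ)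
        + C1 * (∫⁻ p, ENNReal.ofReal ‖P2 (label p) - P3 (label p)‖ ∂π) ^ (1 / 4 : ℝ)
        + C1 * (∫⁻ p, ENNReal.ofReal ‖P3 (label p) - p.2‖ ∂π) ^ (1 / 4 : ℝ) := by
  classical
  obtain ⟨M, R', C1, hKM, hYR, hC⟩ := Vale.Agent.Lib.P074q.stability_of_potPairs K hK hKi Yt hYt
  have hv0 : volume K ≠ 0 := (Measure.measure_pos_of_nonempty_interior volume hKi).ne'
  have hvT : volume K ≠ ⊤ := hK.measure_lt_top.ne
  have hρ : IsProbabilityMeasure ((volume K)⁻¹ • volume.restrict K) :=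
    Vale.Agent.Lib.P074q.isProbabilityMeasure_unif hv0 hvT
  have hρK : ∀ᵐ x ∂((volume K)⁻¹ • volume.restrict K), x ∈ K :=
    Vale.Agent.Lib.P074q.ae_mem_unif hK.measurableSet
  refine ⟨C1, ?_⟩
  intro μ ν hμ hν hμY hνY T S hT hS π hπ1 hπ2 ι _ _ _ _ label hl P0 P1 P2 P3 κ hκ
    hP0 hP1 hP2 hP3 h01 i01 d01 h12 i12 d12 i3
  have hπ : IsProbabilityMeasure π := by
    constructor
    have : π.fst Set.univ = 1 := by rw [hπ1]; exact measure_univ
    rwa [Measure.fst_univ] at this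
  -- injectivity of the four configurations
  have j0 : Function.Injective P0 := fun a b hab => i01 (by simp only [hab])
  have j1 : Function.Injective P1 := fun a b hab => i12 (by simp only [hab])
  have j2 : Function.Injective P2 := fun a b hab => i12 (by simp only [h12, hab])
  -- the four discrete measures
  have key : ∀ P : ι → E 2, Function.Injective P → (∀ i, P i ∈ Yt) →
      ∃ (Tk : E 2 → E 2) (w : ι → ℝ), Measurable Tk ∧
        (unif K).map Tk = π.map (fun p => P (label p)) ∧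
        (∀ᵐ x ∂(unif K), ∃ i, Tk x = P i ∧ ∀ j, ⟪x, P j⟫ - w j ≤ ⟪x, P i⟫ - w i) ∧
        (∀ i, unif K {x | ∀ j, ⟪x, P j⟫ - w j ≤ ⟪x, P i⟫ - w i} = π (label ⁻¹' {i})) ∧
        (∃ a b : E 2 → ℝ, Vale.Agent.Lib.P074q.PotPair Yt M R' a b ∧
          Vale.Agent.Lib.P074q.Tight ((volume K)⁻¹ • volume.restrict K) Tk a b) := by
    intro P hPinj hPY
    have hprob : IsProbabilityMeasure (π.map (fun p => P (label p))) :=
      Measure.isProbabilityMeasure_map (measurable_comp_label hl P).aemeasurable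
    obtain ⟨Tk, w, hTk, hmap, hdiag, hmass⟩ := exists_discrete K hK hKi ι P hPinj
      (π.map (fun p => P (label p))) (ae_map_label_mem_range π hl P)
    refine ⟨Tk, w, hTk, hmap, hdiag, fun i => ?_, ?_⟩
    · rw [hmass i, map_label_singleton π hl hPinj i]
    · obtain ⟨φ, hφ⟩ := subgrad_of_diagram (unif K) K P w Tk hdiag
      have hTY : ∀ᵐ x ∂((volume K)⁻¹ • volume.restrict K), Tk x ∈ Yt := by
        have hd : ∀ᵐ x ∂((volume K)⁻¹ • volume.restrict K),
            ∃ i, Tk x = P i ∧ ∀ j, ⟪x, P j⟫ - w j ≤ ⟪x, P i⟫ - w i := hdiag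
        filter_upwards [hd] with x hx
        obtain ⟨i, hi, _⟩ := hx
        rw [hi]
        exact hPY i
      exact Vale.Agent.Lib.P074q.potPair_of_subgrad hKM hYR _ hρK Tk hTY φ hφ
  obtain ⟨T0, w0, mT0, map0, diag0, mass0, pot0⟩ := key P0 j0 hP0
  obtain ⟨T1, w1, mT1, map1, diag1, mass1, pot1⟩ := key P1 j1 hP1
  obtain ⟨T2, w2, mT2, map2, diag2, mass2, pot2⟩ := key P2 j2 hP2
  obtain ⟨T3, w3, mT3, map3, diag3, mass3, pot3⟩ := key P3 i3 hP3
  have potT := Vale.Agent.Lib.P074q.potPair_of_isOTMap hK hv0 hYt hYtne hKM hYR μ hμY T hT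
  have potS := Vale.Agent.Lib.P074q.potPair_of_isOTMap hK hv0 hYt hYtne hKM hYR ν hνY S hS
  have hYm : MeasurableSet Yt := hYt.measurableSet
  -- the five steps
  have s1 : eLpNorm (fun x => T x - T0 x) 2 (unif K) ≤
      C1 * (∫⁻ p, ENNReal.ofReal ‖p.1 - P0 (label p)‖ ∂π) ^ (1 / 4 : ℝ) := by
    refine (hC μ _ hμY (ae_map_label_mem π hl P0 hYm hP0) T T0 hT.1 mT0 hT.2.1 map0
      potT pot0).trans ?_
    gcongr
    have := Vale.Agent.Lib.P074e.wass_one_map_map_le π measurable_fst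
      (measurable_comp_label hl P0)
    rwa [show π.map Prod.fst = μ from hπ1] at this
  have s2 : eLpNorm (fun x => T0 x - T1 x) 2 (unif K) ≤ C2 * ENNReal.ofReal κ ^ (1 / 2 : ℝ) :=
    hE1 ι 0 1 (by decide) P0 P1 w0 w1 κ hκ (fun i => hR _ (hP0 i)) (fun i => hR _ (hP1 i))
      h01 i01 d01 T0 T1 mT0 mT1 diag0 diag1 (fun i => by rw [mass0 i, mass1 i])
  have s3 : eLpNorm (fun x => T1 x - T2 x) 2 (unif K) ≤ C2 * ENNReal.ofReal κ ^ (1 / 2 : ℝ) :=
    hE1 ι 1 0 (by decide) P1 P2 w1 w2 κ hκ (fun i => hR _ (hP1 i)) (fun i => hR _ (hP2 i))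
      h12 i12 d12 T1 T2 mT1 mT2 diag1 diag2 (fun i => by rw [mass1 i, mass2 i])
  have s4 : eLpNorm (fun x => T2 x - T3 x) 2 (unif K) ≤
      C1 * (∫⁻ p, ENNReal.ofReal ‖P2 (label p) - P3 (label p)‖ ∂π) ^ (1 / 4 : ℝ) := by
    refine (hC _ _ (ae_map_label_mem π hl P2 hYm hP2) (ae_map_label_mem π hl P3 hYm hP3)
      T2 T3 mT2 mT3 map2 map3 pot2 pot3).trans ?_
    gcongr
    exact Vale.Agent.Lib.P074e.wass_one_map_map_le π (measurable_comp_label hl P2)
      (measurable_comp_label hl P3)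
  have s5 : eLpNorm (fun x => T3 x - S x) 2 (unif K) ≤
      C1 * (∫⁻ p, ENNReal.ofReal ‖P3 (label p) - p.2‖ ∂π) ^ (1 / 4 : ℝ) := by
    refine (hC _ ν (ae_map_label_mem π hl P3 hYm hP3) hνY T3 S mT3 hS.1 map3 hS.2.1
      pot3 potS).trans ?_
    gcongr
    have := Vale.Agent.Lib.P074e.wass_one_map_map_le π (measurable_comp_label hl P3)
      measurable_snd
    rwa [show π.map Prod.snd = ν from hπ2] at this
  -- triangle inequality
  have hsplit : (fun x => T x - S x) = (fun x => T x - T0 x) + (fun x => T0 x - T1 x)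
      + (fun x => T1 x - T2 x) + (fun x => T2 x - T3 x) + (fun x => T3 x - S x) := by
    funext x
    simp only [Pi.add_apply]
    abel
  have m1 := (hT.1.sub mT0).aestronglyMeasurable (μ := unif K)
  have m2 := (mT0.sub mT1).aestronglyMeasurable (μ := unif K)
  have m3 := (mT1.sub mT2).aestronglyMeasurable (μ := unif K)
  have m4 := (mT2.sub mT3).aestronglyMeasurable (μ := unif K)
  have m5 := (mT3.sub hS.1).aestronglyMeasurable (μ := unif K)
  rw [hsplit]
  refine (eLpNorm_add_le (((m1.add m2).add m3).add m4) m5 (by norm_num)).trans ?_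
  refine add_le_add ?_ s5
  refine (eLpNorm_add_le ((m1.add m2).add m3) m4 (by norm_num)).trans ?_
  refine add_le_add ?_ s4
  refine (eLpNorm_add_le (m1.add m2) m3 (by norm_num)).trans ?_
  refine add_le_add ?_ s3
  exact (eLpNorm_add_le m1 m2 (by norm_num)).trans (add_le_add s1 s2)

end Vale.Agent.Lib.P074t
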