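import Vale.Agent.Lib.P074q.Defs

/-!
Generic auxiliary lemmas for the discretisation step: a measurable quantiser of a compact set and
small offsets making finitely many real functions on a finite type injective.
-/

open MeasureTheory
open scoped NNReal

namespace Vale.Agent.Lib.P074t

open Vale.Agent.Lib.P074q (E)

/-- Small offsets making finitely many functions injective. -/
theorem exists_offsets20 (ι : Type) [Fintype ι] (F : Finset (ι → ℝ)) {η : ℝ} (hη : 0 < η) :
    ∃ o : ι → ℝ, (∀ i, 0 ≤ o i ∧ o i ≤ η) ∧ ∀ f ∈ F, Function.Injective (fun i => f i + o i) := by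
  classical
  set n := Fintype.card ι with hn
  let rk : ι → ℝ := fun i => ((Fintype.equivFin ι i : ℕ) : ℝ)
  have hrk_inj : Function.Injective rk := by
    intro i j hij
    have h1 : ((Fintype.equivFin ι i : ℕ)) = (Fintype.equivFin ι j : ℕ) := by
      have h0 : (((Fintype.equivFin ι i : ℕ)) : ℝ) = ((Fintype.equivFin ι j : ℕ) : ℝ) := hij
      exact_mod_cast h0
    exact (Fintype.equivFin ι).injective (Fin.ext h1)
  have hrk_le : ∀ i, rk i ≤ n := fun i => by
    have h0 := (Fintype.equivFin ι i).isLt
    have h1 : (((Fintype.equivFin ι i : ℕ)) : ℝ) ≤ (Fintype.card ι : ℝ) := by exact_mod_cast h0.le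
    exact h1
  have hrk0 : ∀ i, 0 ≤ rk i := fun i => Nat.cast_nonneg _
  -- bad values of the scale
  let bad : Set ℝ := ⋃ f ∈ F, ⋃ i : ι, ⋃ j : ι, {(f j - f i) / (rk i - rk j)}
  have hbad : bad.Finite := by
    refine Set.Finite.biUnion F.finite_toSet fun f _ => ?_
    refine Set.finite_iUnion fun i => Set.finite_iUnion fun j => Set.finite_singleton _
  have hpos : (0 : ℝ) < η / (n + 1) := by positivity
  obtain ⟨lam, hlam, hnot⟩ := (Set.Ioo_infinite hpos).exists_notMem_finite hbad
  refine ⟨fun i => lam * rk i, fun i => ⟨mul_nonneg hlam.1.le (hrk0 i), ?_⟩, ?_⟩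
  · have h1 : lam * rk i ≤ η / (n + 1) * n :=
      mul_le_mul hlam.2.le (hrk_le i) (hrk0 i) hpos.le
    have h2 : η / (n + 1) * n ≤ η := by
      rw [div_mul_eq_mul_div, div_le_iff₀ (by positivity)]
      nlinarith
    exact h1.trans h2
  · intro f hf i j hij
    by_contra hne
    apply hnot
    have hr : rk i - rk j ≠ 0 := sub_ne_zero.mpr (fun h => hne (hrk_inj h))
    have : lam = (f j - f i) / (rk i - rk j) := by
      rw [eq_div_iff hr]
      simp only at hij
      linarith
    simp only [bad, Set.mem_iUnion, Set.mem_singleton_iff]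
    exact ⟨f, hf, i, j, this⟩

/-- A measurable quantiser of a compact set. -/
theorem exists_quantiser20 {d : ℕ} (Y : Set (E d)) (hY : IsCompact Y) (hne : Y.Nonempty) {η : ℝ}
    (hη : 0 < η) :
    ∃ (N : ℕ) (e : Fin (N + 1) → E d) (idx : E d → Fin (N + 1)), Measurable idx ∧
      (∀ k, e k ∈ Y) ∧ ∀ y ∈ Y, ‖y - e (idx y)‖ ≤ η := by
  classical
  obtain ⟨t, htY, htfin, hcov⟩ := hY.finite_cover_balls hη
  obtain ⟨y0, hy0⟩ := hne
  -- enumerate the centres
  have htne : t.Nonempty := by
    have := hcov hy0
    simp only [Set.mem_iUnion] at this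
    obtain ⟨x, hx, _⟩ := this
    exact ⟨x, hx⟩
  let tf : Finset (E d) := htfin.toFinset
  have htf : tf.Nonempty := by simpa [tf] using htne
  obtain ⟨N, hN⟩ : ∃ N, tf.card = N + 1 := ⟨tf.card - 1, by have := htf.card_pos; omega⟩
  let en : Fin (N + 1) ≃ tf := (Finset.equivFinOfCardEq hN).symm
  let e : Fin (N + 1) → E d := fun k => (en k : E d)
  have heY : ∀ k, e k ∈ Y := fun k => htY (htfin.mem_toFinset.mp (en k).2)
  -- first index whose ball contains the point
  let A : Fin (N + 1) → Set (E d) := fun k => Metric.ball (e k) η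
  have hA : ∀ k, MeasurableSet (A k) := fun k => Metric.isOpen_ball.measurableSet
  let idx : E d → Fin (N + 1) := fun y =>
    if h : ∃ k, y ∈ A k then (Finset.univ.filter fun k => y ∈ A k).min' (by
      obtain ⟨k, hk⟩ := h
      exact ⟨k, by simp [hk]⟩) else 0
  have hidx : ∀ y, (∃ k, y ∈ A k) → y ∈ A (idx y) := by
    intro y h
    have h1 := Finset.min'_mem (Finset.univ.filter fun k => y ∈ A k) (by
      obtain ⟨k, hk⟩ := h
      exact ⟨k, by simp [hk]⟩)
    simp only [idx, dif_pos h]
    exact (Finset.mem_filter.mp h1).2
  refine ⟨N, e, idx, ?_, heY, ?_⟩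
  · -- measurability: preimages of singletons
    apply measurable_to_countable'
    intro k
    have : idx ⁻¹' {k} =
        (A k ∩ ⋂ j : Fin (N + 1), ⋂ _ : j < k, (A j)ᶜ) ∪
          (if k = 0 then ⋂ j, (A j)ᶜ else ∅) := by
      ext y
      simp only [Set.mem_preimage, Set.mem_singleton_iff, Set.mem_union, Set.mem_inter_iff,
        Set.mem_iInter, Set.mem_compl_iff]
      by_cases h : ∃ k, y ∈ A k
      · have hne' : (Finset.univ.filter fun k => y ∈ A k).Nonempty := by
          obtain ⟨k, hk⟩ := h
          exact ⟨k, by simp [hk]⟩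
        have hval : idx y = (Finset.univ.filter fun k => y ∈ A k).min' hne' := by
          simp only [idx, dif_pos h]
        have hnot : ¬ (y ∈ (if k = 0 then ⋂ j, (A j)ᶜ else (∅ : Set (E d)))) := by
          split_ifs
          · simp only [Set.mem_iInter, Set.mem_compl_iff, not_forall, not_not]
            exact h
          · simp
        constructor
        · intro hk
          left
          refine ⟨hk ▸ hidx y h, fun j hj hyj => ?_⟩
          have := Finset.min'_le (Finset.univ.filter fun k => y ∈ A k) j (by simp [hyj])
          rw [← hval, hk] at this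
          exact absurd hj (not_lt.mpr this)
        · rintro (⟨hk, hlt⟩ | hk)
          · rw [hval]
            apply le_antisymm
            · exact Finset.min'_le _ _ (by simp [hk])
            · by_contra hcon
              push Not at hcon
              have hm := Finset.min'_mem (Finset.univ.filter fun k => y ∈ A k) hne'
              exact hlt _ hcon (Finset.mem_filter.mp hm).2
          · exact absurd hk hnot
      · have hval : idx y = 0 := by simp only [idx, dif_neg h]
        push Not at h
        rw [hval]
        constructor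
        · intro hk
          right
          rw [if_pos hk.symm]
          simpa using h
        · rintro (⟨hk, _⟩ | hk)
          · exact absurd hk (h k)
          · split_ifs at hk with h0
            · exact h0.symm
            · exact absurd hk (by simp)
    rw [this]
    refine ((hA k).inter (MeasurableSet.iInter fun j => MeasurableSet.iInter fun _ =>
      (hA j).compl)).union ?_
    split_ifs
    · exact MeasurableSet.iInter fun j => (hA j).compl
    · exact MeasurableSet.empty
  · intro y hy
    have h1 := hcov hy
    simp only [Set.mem_iUnion] at h1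
    obtain ⟨x, hx, hyx⟩ := h1
    have hx' : x ∈ tf := by simpa [tf] using hx
    have hex : ∃ k, y ∈ A k := ⟨en.symm ⟨x, hx'⟩, by simpa [A, e] using hyx⟩
    have h2 := hidx y hex
    have h3 : dist y (e (idx y)) < η := h2
    rw [dist_eq_norm] at h3
    exact h3.le

end Vale.Agent.Lib.P074t
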