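import Vale.Agent.Lib.P074q.Inf

/-!
From a bound against every coupling to the bound against `W₂`.
-/

open MeasureTheory ENNReal
open scoped NNReal

namespace Vale.Agent.Lib.P074t

open Vale.Agent.Lib.P074q (E)
open Vale.Agent.Lib.P074b (unif IsOTMap W2 Admissible)

/-- Passing from all couplings to the infimum defining `W₂`. -/
theorem le_W2_of_forall_coupling {d : ℕ} {μ ν : Measure (E d)} [IsProbabilityMeasure μ]
    [IsProbabilityMeasure ν] {A : ℝ≥0∞} {C : ℝ≥0}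
    (h : ∀ π : Measure (E d × E d), π.fst = μ → π.snd = ν →
      A ≤ C * (∫⁻ p, ENNReal.ofReal (‖p.1 - p.2‖ ^ 2) ∂π) ^ (1 / 6 : ℝ)) :
    A ≤ C * W2 μ ν ^ (1 / 3 : ℝ) := by
  by_cases hC : C = 0
  · have h0 := h (μ.prod ν) (by simp) (by simp)
    rw [hC] at h0
    simp only [ENNReal.coe_zero, zero_mul, nonpos_iff_eq_zero] at h0
    rw [h0]
    exact zero_le
  · have hC0 : (C : ℝ≥0∞) ≠ 0 := by simpa using hC
    unfold W2
    rw [← ENNReal.rpow_mul, show (1 / 2 : ℝ) * (1 / 3) = 1 / 6 by norm_num,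
      Vale.Agent.Lib.P074q.iInf₂_rpow _ (by norm_num : (0 : ℝ) < 1 / 6),
      ENNReal.mul_iInf_of_ne hC0 ENNReal.coe_ne_top]
    refine le_iInf (fun π => ?_)
    rw [ENNReal.mul_iInf_of_ne hC0 ENNReal.coe_ne_top]
    exact le_iInf (fun hπ => h π hπ.1 hπ.2)

/-- Admissibility of `1/3` from the bound against every coupling. -/
theorem admissible_third_of_key {d : ℕ}
    (key : ∀ (K : Set (E d)), IsCompact K → Convex ℝ K → (interior K).Nonempty →
      ∀ (Y : Set (E d)), IsCompact Y → Y.Nonempty →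
      ∃ C : ℝ≥0, ∀ μ ν : Measure (E d), IsProbabilityMeasure μ → IsProbabilityMeasure ν →
        (∀ᵐ y ∂μ, y ∈ Y) → (∀ᵐ y ∂ν, y ∈ Y) →
        ∀ T S : E d → E d, IsOTMap (unif K) μ T → IsOTMap (unif K) ν S →
        ∀ π : Measure (E d × E d), π.fst = μ → π.snd = ν →
        eLpNorm (fun x => T x - S x) 2 (unif K) ≤
          C * (∫⁻ p, ENNReal.ofReal (‖p.1 - p.2‖ ^ 2) ∂π) ^ (1 / 6 : ℝ)) :
    Admissible d (1 / 3) := by
  refine ⟨by norm_num, by norm_num, ?_⟩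
  intro K hK hKc hKi Y hY hYne
  obtain ⟨C, hC⟩ := key K hK hKc hKi Y hY hYne
  refine ⟨C, ?_⟩
  intro μ ν hμ hν hμY hνY T S hT hS
  exact le_W2_of_forall_coupling (fun π h1 h2 => hC μ ν hμ hν hμY hνY T S hT hS π h1 h2)

end Vale.Agent.Lib.P074t
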