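import Vale.Agent.Lib.P074t.ChainAux20

/-!
Construction of the four finite families of points used in the discretised chain.
-/

open MeasureTheory
open scoped NNReal

namespace Vale.Agent.Lib.P074t

open Vale.Agent.Lib.P074q (E)

lemma norm_le_abs_add_abs (v : E 2) : ‖v‖ ≤ |v 0| + |v 1| := by
  rw [EuclideanSpace.norm_eq, Fin.sum_univ_two, Real.norm_eq_abs, Real.norm_eq_abs]
  apply Real.sqrt_le_iff.mpr
  constructor
  · positivity
  · nlinarith [abs_nonneg (v 0), abs_nonneg (v 1)]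

lemma abs_coord_le (v : E 2) (j : Fin 2) : |v j| ≤ ‖v‖ := by
  have := PiLp.norm_apply_le v j
  rwa [Real.norm_eq_abs] at this

/-- The points of the discretised chain. -/
theorem exists_points (Y : Set (E 2)) (hY : IsCompact Y) (hne : Y.Nonempty) {R0 η κ : ℝ}
    (hR0 : ∀ y ∈ Y, ‖y‖ ≤ R0) (hη : 0 < η) (hη1 : η ≤ 1) :
    ∃ (N : ℕ) (label : E 2 × E 2 → Fin (N + 1) × Fin (N + 1))
      (P0 P1 P2 P3 : Fin (N + 1) × Fin (N + 1) → E 2),
      Measurable label ∧
      (∀ i, P0 i 1 = P1 i 1) ∧ Function.Injective (fun i => P0 i 1) ∧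
      (∀ i, |P0 i 0 - P1 i 0| ≤ κ ⊔ 0) ∧
      (∀ i, P1 i 0 = P2 i 0) ∧ Function.Injective (fun i => P1 i 0) ∧
      (∀ i, |P1 i 1 - P2 i 1| ≤ κ ⊔ 0) ∧
      Function.Injective (fun i => P3 i 0) ∧
      (∀ i, ‖P0 i‖ ≤ 2 * R0 + 2 ∧ ‖P1 i‖ ≤ 2 * R0 + 2 ∧ ‖P2 i‖ ≤ 2 * R0 + 2 ∧
        ‖P3 i‖ ≤ 2 * R0 + 2) ∧
      (∀ p : E 2 × E 2, p.1 ∈ Y → p.2 ∈ Y →
        ‖p.1 - P0 (label p)‖ ≤ 3 * η ∧ ‖p.2 - P3 (label p)‖ ≤ 3 * η ∧
        (‖p.1 - p.2‖ + 2 * η ≤ κ → P2 (label p) = P3 (label p)) ∧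
        ‖P2 (label p) - P3 (label p)‖ ≤ ‖p.1 - p.2‖ + 2 * η) := by
  classical
  obtain ⟨N, e, idx, hidx, heY, hclose⟩ := exists_quantiser20 Y hY hne hη
  let ι := Fin (N + 1) × Fin (N + 1)
  let near : ι → Prop := fun i => ‖e i.1 - e i.2‖ ≤ κ
  let f1 : ι → ℝ := fun i => e i.1 1
  let f2 : ι → ℝ := fun i => if near i then e i.2 0 else e i.1 0
  let f3 : ι → ℝ := fun i => e i.2 0
  obtain ⟨o, ho, hinj⟩ := exists_offsets20 ι ({f1, f2, f3} : Finset (ι → ℝ)) hη
  have hinj1 := hinj f1 (by simp)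
  have hinj2 := hinj f2 (by simp)
  have hinj3 := hinj f3 (by simp)
  let P0 : ι → E 2 := fun i => !₂[e i.1 0 + o i, e i.1 1 + o i]
  let P1 : ι → E 2 := fun i => !₂[f2 i + o i, e i.1 1 + o i]
  let P2 : ι → E 2 := fun i => !₂[f2 i + o i, (if near i then e i.2 1 else e i.1 1) + o i]
  let P3 : ι → E 2 := fun i => !₂[e i.2 0 + o i, e i.2 1 + o i]
  have hcoord : ∀ (k : Fin (N + 1)) (j : Fin 2), |e k j| ≤ R0 := fun k j =>
    (abs_coord_le (e k) j).trans (hR0 _ (heY k))
  have hbound : ∀ (a b : ℝ) (i : ι), |a| ≤ R0 → |b| ≤ R0 →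
      ‖(!₂[a + o i, b + o i] : E 2)‖ ≤ 2 * R0 + 2 := by
    intro a b i ha hb
    refine (norm_le_abs_add_abs _).trans ?_
    have h1 : |a + o i| ≤ |a| + |o i| := abs_add_le _ _
    have h2 : |b + o i| ≤ |b| + |o i| := abs_add_le _ _
    have h3 : |o i| ≤ 1 := by
      rw [abs_of_nonneg (ho i).1]; exact (ho i).2.trans hη1
    simp only [Matrix.cons_val_zero, Matrix.cons_val_one]
    linarith
  have hf2 : ∀ i, |f2 i| ≤ R0 := by
    intro i
    simp only [f2]
    split_ifs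
    · exact hcoord _ _
    · exact hcoord _ _
  refine ⟨N, fun p => (idx p.1, idx p.2), P0, P1, P2, P3, ?_, ?_, ?_, ?_, ?_, ?_, ?_, ?_, ?_, ?_⟩
  · exact (hidx.comp measurable_fst).prodMk (hidx.comp measurable_snd)
  · intro i; simp [P0, P1]
  · intro i j hij
    apply hinj1
    simpa [P0, f1] using hij
  · intro i
    by_cases hn : near i
    · have h1 : P0 i 0 - P1 i 0 = (e i.1 - e i.2) 0 := by
        simp [P0, P1, f2, hn]
      rw [h1]
      exact ((abs_coord_le _ 0).trans hn).trans le_sup_left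
    · have h1 : P0 i 0 - P1 i 0 = 0 := by
        simp [P0, P1, f2, hn]
      rw [h1, abs_zero]
      exact le_sup_right
  · intro i; simp [P1, P2]
  · intro i j hij
    apply hinj2
    simpa [P1] using hij
  · intro i
    by_cases hn : near i
    · have h1 : P1 i 1 - P2 i 1 = (e i.1 - e i.2) 1 := by
        simp [P1, P2, hn]
      rw [h1]
      exact ((abs_coord_le _ 1).trans hn).trans le_sup_left
    · have h1 : P1 i 1 - P2 i 1 = 0 := by
        simp [P1, P2, hn]
      rw [h1, abs_zero]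
      exact le_sup_right
  · intro i j hij
    apply hinj3
    simpa [P3, f3] using hij
  · intro i
    refine ⟨hbound _ _ i (hcoord _ _) (hcoord _ _), hbound _ _ i (hf2 i) (hcoord _ _),
      hbound _ _ i (hf2 i) ?_, hbound _ _ i (hcoord _ _) (hcoord _ _)⟩
    split_ifs
    · exact hcoord _ _
    · exact hcoord _ _
  · intro p hp1 hp2
    set i : ι := (idx p.1, idx p.2) with hi
    have hc1 : ‖p.1 - e i.1‖ ≤ η := hclose _ hp1
    have hc2 : ‖p.2 - e i.2‖ ≤ η := hclose _ hp2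
    have hoff : ∀ k : Fin (N + 1), ‖e k - (!₂[e k 0 + o i, e k 1 + o i] : E 2)‖ ≤ 2 * η := by
      intro k
      refine (norm_le_abs_add_abs _).trans ?_
      have h3 : |o i| ≤ η := by
        rw [abs_of_nonneg (ho i).1]; exact (ho i).2
      simp only [PiLp.sub_apply, Matrix.cons_val_zero, Matrix.cons_val_one]
      simp only [sub_add_cancel_left, abs_neg]
      linarith
    have hcc : ‖e i.1 - e i.2‖ ≤ ‖p.1 - p.2‖ + 2 * η := by
      have h1 : e i.1 - e i.2 = -(p.1 - e i.1) + (p.1 - p.2) + (p.2 - e i.2) := by abel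
      rw [h1]
      have h2 := norm_add₃_le (a := -(p.1 - e i.1)) (b := p.1 - p.2) (c := p.2 - e i.2)
      rw [norm_neg] at h2
      linarith
    refine ⟨?_, ?_, ?_, ?_⟩
    · have h1 : p.1 - P0 i = (p.1 - e i.1) + (e i.1 - P0 i) := by abel
      rw [h1]
      refine (norm_add_le _ _).trans ?_
      have := hoff i.1
      linarith
    · have h1 : p.2 - P3 i = (p.2 - e i.2) + (e i.2 - P3 i) := by abel
      rw [h1]
      refine (norm_add_le _ _).trans ?_
      have := hoff i.2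
      linarith
    · intro hk
      have hn : near i := hcc.trans hk
      have hn' : near (idx p.1, idx p.2) := hn
      simp [P2, P3, f2, hn']
    · by_cases hn : near i
      · have h1 : P2 i - P3 i = 0 := by
          have h2 : P2 i = P3 i := by simp [P2, P3, f2, hn]
          rw [h2, sub_self]
        rw [h1, norm_zero]
        have := norm_nonneg (p.1 - p.2)
        linarith
      · have h1 : P2 i - P3 i = e i.1 - e i.2 := by
          ext j
          fin_cases j <;> simp [P2, P3, f2, hn]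
        rw [h1]
        exact hcc

end Vale.Agent.Lib.P074t
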