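import Vale.Agent.Lib.P074t.Defs

open MeasureTheory

namespace Vale.Agent.Lib.P074t

variable {ι : Type} [Fintype ι] {K : Set (ℝ × ℝ)}

theorem aff_le_pot (η t w : ι → ℝ) (i : ι) (s z : ℝ) : aff η t w i s z ≤ pot η t w s z :=
  le_ciSup (f := fun i => aff η t w i s z) (Set.finite_range _).bddAbove i

omit [Fintype ι] in
theorem pot_le [Nonempty ι] (η t w : ι → ℝ) {s z c : ℝ} (h : ∀ i, aff η t w i s z ≤ c) :
    pot η t w s z ≤ c :=
  ciSup_le h

theorem continuous_pot [Nonempty ι] (η t w : ι → ℝ) :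
    Continuous (fun p : ℝ × ℝ => pot η t w p.1 p.2) := by
  have h : (fun p : ℝ × ℝ => pot η t w p.1 p.2) =
      fun p : ℝ × ℝ => Finset.univ.sup' Finset.univ_nonempty (fun i => aff η t w i p.1 p.2) := by
    funext p
    rw [Finset.sup'_univ_eq_ciSup]
    rfl
  rw [h]
  refine Continuous.finset_sup'_apply _ (fun i _ => ?_)
  unfold aff
  fun_prop

theorem pot_convex_comb [Nonempty ι] (η t w : ι → ℝ) {a b : ℝ} (ha : 0 ≤ a) (hb : 0 ≤ b)
    (hab : a + b = 1) (s1 z1 s2 z2 : ℝ) :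
    pot η t w (a * s1 + b * s2) (a * z1 + b * z2) ≤
      a * pot η t w s1 z1 + b * pot η t w s2 z2 := by
  refine pot_le η t w (fun i => ?_)
  have h1 := mul_le_mul_of_nonneg_left (aff_le_pot η t w i s1 z1) ha
  have h2 := mul_le_mul_of_nonneg_left (aff_le_pot η t w i s2 z2) hb
  have h3 : aff η t w i (a * s1 + b * s2) (a * z1 + b * z2) =
      a * aff η t w i s1 z1 + b * aff η t w i s2 z2 := by
    unfold aff
    have : w i = (a + b) * w i := by rw [hab, one_mul]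
    linear_combination -this
  linarith

theorem isCompact_sec (hK : IsCompact K) (s : ℝ) : IsCompact (sec K s) := by
  have h : sec K s = Prod.snd '' (K ∩ Prod.fst ⁻¹' {s}) := by
    ext z
    constructor
    · intro hz
      exact ⟨(s, z), ⟨hz, rfl⟩, rfl⟩
    · rintro ⟨⟨s', z'⟩, ⟨hp, hs⟩, rfl⟩
      have hs' : s' = s := hs
      subst hs'
      exact hp
  rw [h]
  exact (hK.inter_right (isClosed_singleton.preimage continuous_fst)).image continuous_snd

theorem continuous_obj [Nonempty ι] (η t w : ι → ℝ) (s τ : ℝ) :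
    Continuous (fun z => pot η t w s z - τ * z) := by
  have h := (continuous_pot η t w).comp (Continuous.prodMk_right (X := ℝ) (Y := ℝ) s)
  exact h.sub (continuous_const.mul continuous_id)

theorem bddBelow_obj [Nonempty ι] (hK : IsCompact K) (η t w : ι → ℝ) (s τ : ℝ) :
    BddBelow ((fun z => pot η t w s z - τ * z) '' sec K s) :=
  ((isCompact_sec hK s).image (continuous_obj η t w s τ)).bddBelow

theorem PL_le [Nonempty ι] (hK : IsCompact K) (η t w : ι → ℝ) {s z : ℝ} (hz : (s, z) ∈ K)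
    (τ : ℝ) : PL K η t w s τ ≤ pot η t w s z - τ * z :=
  csInf_le (bddBelow_obj hK η t w s τ) ⟨z, hz, rfl⟩

theorem PL_attained [Nonempty ι] (hK : IsCompact K) (η t w : ι → ℝ) {s : ℝ}
    (hs : (sec K s).Nonempty) (τ : ℝ) :
    ∃ z, (s, z) ∈ K ∧ PL K η t w s τ = pot η t w s z - τ * z := by
  obtain ⟨z, hz, hmin⟩ := (isCompact_sec hK s).exists_isMinOn hs
    (continuous_obj η t w s τ).continuousOn
  refine ⟨z, hz, ?_⟩
  have hl : IsLeast ((fun z => pot η t w s z - τ * z) '' sec K s) (pot η t w s z - τ * z) := by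
    refine ⟨⟨z, hz, rfl⟩, ?_⟩
    rintro _ ⟨z', hz', rfl⟩
    exact hmin hz'
  exact hl.csInf_eq

theorem sec_nonempty_of_mem {s : ℝ} (hs : s ∈ Prod.fst '' K) : (sec K s).Nonempty := by
  obtain ⟨⟨s', z⟩, hp, rfl⟩ := hs
  exact ⟨z, hp⟩

theorem convex_fst_image (hKc : Convex ℝ K) : Convex ℝ (Prod.fst '' K) :=
  hKc.linear_image (LinearMap.fst ℝ ℝ ℝ)

theorem PL_convexOn [Nonempty ι] (hK : IsCompact K) (hKc : Convex ℝ K) (η t w : ι → ℝ) (τ : ℝ) :
    ConvexOn ℝ (Prod.fst '' K) (fun s => PL K η t w s τ) := by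
  refine ⟨convex_fst_image hKc, ?_⟩
  intro s1 hs1 s2 hs2 a b ha hb hab
  obtain ⟨z1, hz1, h1⟩ := PL_attained hK η t w (sec_nonempty_of_mem hs1) τ
  obtain ⟨z2, hz2, h2⟩ := PL_attained hK η t w (sec_nonempty_of_mem hs2) τ
  have hmem : (a * s1 + b * s2, a * z1 + b * z2) ∈ K := by
    have := hKc hz1 hz2 ha hb hab
    simpa using this
  have h3 := PL_le hK η t w hmem τ
  have h4 := pot_convex_comb η t w ha hb hab s1 z1 s2 z2
  simp only [smul_eq_mul]
  rw [h1, h2]
  nlinarith [h3, h4]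

/-- `PL` is bounded on the projection of `K`. -/
theorem PL_bounded [Nonempty ι] (hK : IsCompact K) (η t w : ι → ℝ) (τ : ℝ) :
    ∃ B : ℝ, ∀ s ∈ Prod.fst '' K, |PL K η t w s τ| ≤ B := by
  have hc : Continuous (fun p : ℝ × ℝ => pot η t w p.1 p.2 - τ * p.2) :=
    (continuous_pot η t w).sub (continuous_const.mul continuous_snd)
  obtain ⟨B, hB⟩ := hK.exists_bound_of_continuousOn hc.continuousOn
  refine ⟨B, fun s hs => ?_⟩
  obtain ⟨z, hz, h⟩ := PL_attained hK η t w (sec_nonempty_of_mem hs) τ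
  rw [h]
  simpa using hB (s, z) hz

theorem G_nonneg [Nonempty ι] (hK : IsCompact K) (η t w : ι → ℝ) (i : ι) {s : ℝ}
    (hs : (sec K s).Nonempty) : 0 ≤ G K η t w i s := by
  obtain ⟨z, _, h⟩ := PL_attained hK η t w hs (t i)
  have h1 := aff_le_pot η t w i s z
  unfold aff at h1
  unfold G
  rw [h]
  linarith

theorem G_eq_zero [Nonempty ι] (hK : IsCompact K) (η t w : ι → ℝ) (i : ι) {s z : ℝ}
    (h : (s, z) ∈ cell K η t w i) : G K η t w i s = 0 := by
  have hz : (s, z) ∈ K := h.1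
  have h0 := G_nonneg hK η t w i (s := s) ⟨z, hz⟩
  have h1 := PL_le hK η t w hz (t i)
  have h2 : pot η t w s z ≤ aff η t w i s z := pot_le η t w (fun j => h.2 j)
  unfold aff at h2
  unfold G at h0 ⊢
  linarith

theorem G_convexOn [Nonempty ι] (hK : IsCompact K) (hKc : Convex ℝ K) (η t w : ι → ℝ) (i : ι) :
    ConvexOn ℝ (Prod.fst '' K) (fun s => G K η t w i s) := by
  have h1 := PL_convexOn hK hKc η t w (t i)
  refine ⟨h1.1, ?_⟩
  intro s1 hs1 s2 hs2 a b ha hb hab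
  have h2 := h1.2 hs1 hs2 ha hb hab
  simp only [smul_eq_mul] at h2 ⊢
  unfold G
  have : w i = (a + b) * w i := by rw [hab, one_mul]
  nlinarith [h2]

theorem G_anti [Nonempty ι] (hK : IsCompact K) (hKc : Convex ℝ K) (η t w : ι → ℝ) (i : ι)
    {z0 s1 s2 : ℝ} (h0 : G K η t w i z0 = 0) (hz0 : z0 ∈ Prod.fst '' K)
    (hs1 : s1 ∈ Prod.fst '' K) (h12 : s1 ≤ s2) (h2 : s2 ≤ z0) :
    G K η t w i s2 ≤ G K η t w i s1 := by
  rcases eq_or_lt_of_le h12 with rfl | h12'
  · exact le_rfl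
  have hpos : 0 < z0 - s1 := by linarith
  have hG1 := G_nonneg hK η t w i (sec_nonempty_of_mem hs1)
  have hA : 0 ≤ (z0 - s2) / (z0 - s1) := div_nonneg (by linarith) hpos.le
  have hB : 0 ≤ (s2 - s1) / (z0 - s1) := div_nonneg (by linarith) hpos.le
  have hAB : (z0 - s2) / (z0 - s1) + (s2 - s1) / (z0 - s1) = 1 := by
    field_simp
    ring
  have hc := (G_convexOn hK hKc η t w i).2 hs1 hz0 hA hB hAB
  simp only [smul_eq_mul] at hc
  have he : (z0 - s2) / (z0 - s1) * s1 + (s2 - s1) / (z0 - s1) * z0 = s2 := by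
    field_simp
    ring
  rw [he, h0, mul_zero, add_zero] at hc
  have hle : (z0 - s2) / (z0 - s1) ≤ 1 := by
    rw [div_le_one hpos]
    linarith
  calc G K η t w i s2 ≤ (z0 - s2) / (z0 - s1) * G K η t w i s1 := hc
    _ ≤ 1 * G K η t w i s1 := mul_le_mul_of_nonneg_right hle hG1
    _ = G K η t w i s1 := one_mul _

theorem G_mono [Nonempty ι] (hK : IsCompact K) (hKc : Convex ℝ K) (η t w : ι → ℝ) (i : ι)
    {z0 s1 s2 : ℝ} (h0 : G K η t w i z0 = 0) (hz0 : z0 ∈ Prod.fst '' K)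
    (hs2 : s2 ∈ Prod.fst '' K) (h01 : z0 ≤ s1) (h12 : s1 ≤ s2) :
    G K η t w i s1 ≤ G K η t w i s2 := by
  rcases eq_or_lt_of_le h12 with rfl | h12'
  · exact le_rfl
  have hpos : 0 < s2 - z0 := by linarith
  have hG2 := G_nonneg hK η t w i (sec_nonempty_of_mem hs2)
  have hA : 0 ≤ (s2 - s1) / (s2 - z0) := div_nonneg (by linarith) hpos.le
  have hB : 0 ≤ (s1 - z0) / (s2 - z0) := div_nonneg (by linarith) hpos.le
  have hAB : (s2 - s1) / (s2 - z0) + (s1 - z0) / (s2 - z0) = 1 := by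
    field_simp
    ring
  have hc := (G_convexOn hK hKc η t w i).2 hz0 hs2 hA hB hAB
  simp only [smul_eq_mul] at hc
  have he : (s2 - s1) / (s2 - z0) * z0 + (s1 - z0) / (s2 - z0) * s2 = s1 := by
    field_simp
    ring
  rw [he, h0, mul_zero, zero_add] at hc
  have hle : (s1 - z0) / (s2 - z0) ≤ 1 := by
    rw [div_le_one hpos]
    linarith
  calc G K η t w i s1 ≤ (s1 - z0) / (s2 - z0) * G K η t w i s2 := hc
    _ ≤ 1 * G K η t w i s2 := mul_le_mul_of_nonneg_right hle hG2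
    _ = G K η t w i s2 := one_mul _

end Vale.Agent.Lib.P074t
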