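import Vale.Agent.Lib.P074t.Convex

open MeasureTheory

namespace Vale.Agent.Lib.P074t

variable {ι : Type} [Fintype ι] {K : Set (ℝ × ℝ)}

omit [Fintype ι] in
theorem continuous_aff_fub (η t w : ι → ℝ) (i : ι) :
    Continuous (fun p : ℝ × ℝ => aff η t w i p.1 p.2) := by
  unfold aff
  fun_prop

omit [Fintype ι] in
theorem isClosed_cell (hK : IsCompact K) (η t w : ι → ℝ) (i : ι) :
    IsClosed (cell K η t w i) := by
  have h : cell K η t w i =
      K ∩ ⋂ j, {p : ℝ × ℝ | aff η t w j p.1 p.2 ≤ aff η t w i p.1 p.2} := by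
    ext p
    simp [cell]
  rw [h]
  exact hK.isClosed.inter
    (isClosed_iInter fun j => isClosed_le (continuous_aff_fub η t w j) (continuous_aff_fub η t w i))

omit [Fintype ι] in
theorem cell_subset (η t w : ι → ℝ) (i : ι) : cell K η t w i ⊆ K := fun _ hp => hp.1

theorem measurableSet_cell (hK : IsCompact K) (η t w : ι → ℝ) (i : ι) :
    MeasurableSet (cell K η t w i) :=
  (isClosed_cell hK η t w i).measurableSet

theorem measurable_tau (hK : IsCompact K) (η t w : ι → ℝ) (i : ι) :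
    Measurable (tau K η t w i) := by
  have h := measurable_measure_prodMk_left (ν := (volume : Measure ℝ))
    (measurableSet_cell hK η t w i)
  exact h.ennreal_toReal

theorem tau_nonneg (η t w : ι → ℝ) (i : ι) (s : ℝ) : 0 ≤ tau K η t w i s :=
  ENNReal.toReal_nonneg

omit [Fintype ι] in
theorem sec_cell_subset (hK : IsCompact K) : ∃ r : ℝ, ∀ (η t w : ι → ℝ) (i : ι) (s : ℝ),
    sec (cell K η t w i) s ⊆ Set.Icc (-r) r := by
  obtain ⟨r, hr⟩ := hK.isBounded.exists_norm_le
  refine ⟨r, fun η t w i s z hz => ?_⟩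
  have h1 : (s, z) ∈ K := hz.1
  have h2 := hr _ h1
  have h3 : ‖z‖ ≤ ‖(s, z)‖ := norm_snd_le (s, z)
  rw [Real.norm_eq_abs] at h3
  exact abs_le.mp (h3.trans h2)

theorem tau_le (hK : IsCompact K) : ∃ H : ℝ, ∀ (η t w : ι → ℝ) (i : ι) (s : ℝ),
    tau K η t w i s ≤ H := by
  obtain ⟨r, hr⟩ := sec_cell_subset (ι := ι) hK
  refine ⟨(volume (Set.Icc (-r) r)).toReal, fun η t w i s => ?_⟩
  exact ENNReal.toReal_mono (by simp) (measure_mono (hr η t w i s))

theorem intervalIntegrable_tau (hK : IsCompact K) (η t w : ι → ℝ) (i : ι) (a b : ℝ) :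
    IntervalIntegrable (tau K η t w i) volume a b := by
  obtain ⟨H, hH⟩ := tau_le (ι := ι) hK
  rw [intervalIntegrable_iff]
  refine Measure.integrableOn_of_bounded (M := H) (by simp)
    (measurable_tau hK η t w i).aestronglyMeasurable ?_
  refine Filter.Eventually.of_forall fun s => ?_
  rw [Real.norm_eq_abs, abs_of_nonneg (tau_nonneg η t w i s)]
  exact hH η t w i s

omit [Fintype ι] in
theorem volume_cell_ne_top (hK : IsCompact K) (η t w : ι → ℝ) (i : ι) :
    volume (cell K η t w i) ≠ ⊤ :=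
  ((measure_mono (cell_subset η t w i)).trans_lt hK.measure_lt_top).ne

theorem volume_cell_strip (hK : IsCompact K) (η t w : ι → ℝ) (i : ι) (a b : ℝ) :
    volume (cell K η t w i ∩ {p | a < p.1 ∧ p.1 ≤ b}) =
      ∫⁻ s in Set.Ioc a b, volume (sec (cell K η t w i) s) := by
  have hm : MeasurableSet (cell K η t w i ∩ {p : ℝ × ℝ | a < p.1 ∧ p.1 ≤ b}) := by
    refine (measurableSet_cell hK η t w i).inter ?_
    exact (measurableSet_lt measurable_const measurable_fst).inter
      (measurableSet_le measurable_fst measurable_const)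
  rw [Measure.volume_eq_prod, Measure.prod_apply hm, ← lintegral_indicator measurableSet_Ioc]
  congr 1
  ext s
  by_cases hs : s ∈ Set.Ioc a b
  · rw [Set.indicator_of_mem hs]
    congr 1
    ext z
    simp only [Set.mem_preimage, Set.mem_inter_iff, Set.mem_setOf_eq, sec]
    exact ⟨fun h => h.1, fun h => ⟨h, hs.1, hs.2⟩⟩
  · rw [Set.indicator_of_notMem hs]
    have : Prod.mk s ⁻¹' (cell K η t w i ∩ {p : ℝ × ℝ | a < p.1 ∧ p.1 ≤ b}) = ∅ := by
      ext z
      simp only [Set.mem_preimage, Set.mem_inter_iff, Set.mem_setOf_eq, Set.mem_empty_iff_false,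
        iff_false, not_and]
      intro _ h1 h2
      exact hs ⟨h1, h2⟩
    rw [this, measure_empty]

theorem integral_tau (hK : IsCompact K) (η t w : ι → ℝ) (i : ι) {a b : ℝ} (hab : a ≤ b) :
    ∫ s in a..b, tau K η t w i s = Lm K η t w i b - Lm K η t w i a := by
  have hC := measurableSet_cell hK η t w i
  have hfin := volume_cell_ne_top hK η t w i
  have hma : MeasurableSet (cell K η t w i ∩ {p : ℝ × ℝ | p.1 ≤ a}) :=
    hC.inter (measurableSet_le measurable_fst measurable_const)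
  have hsub : cell K η t w i ∩ {p : ℝ × ℝ | p.1 ≤ a} ⊆ cell K η t w i ∩ {p : ℝ × ℝ | p.1 ≤ b} :=
    fun p hp => ⟨hp.1, le_trans hp.2 hab⟩
  have hfa : volume (cell K η t w i ∩ {p : ℝ × ℝ | p.1 ≤ a}) ≠ ⊤ :=
    ((measure_mono Set.inter_subset_left).trans_lt (lt_top_iff_ne_top.mpr hfin)).ne
  have hfb : volume (cell K η t w i ∩ {p : ℝ × ℝ | p.1 ≤ b}) ≠ ⊤ :=
    ((measure_mono Set.inter_subset_left).trans_lt (lt_top_iff_ne_top.mpr hfin)).ne
  have hdiff : cell K η t w i ∩ {p : ℝ × ℝ | a < p.1 ∧ p.1 ≤ b} =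
      (cell K η t w i ∩ {p : ℝ × ℝ | p.1 ≤ b}) \ (cell K η t w i ∩ {p : ℝ × ℝ | p.1 ≤ a}) := by
    ext p
    simp only [Set.mem_inter_iff, Set.mem_setOf_eq, Set.mem_diff, not_and, not_le]
    constructor
    · rintro ⟨h1, h2, h3⟩
      exact ⟨⟨h1, h3⟩, fun _ => h2⟩
    · rintro ⟨⟨h1, h3⟩, h2⟩
      exact ⟨h1, h2 h1, h3⟩
  have hvol := volume_cell_strip hK η t w i a b
  rw [hdiff, measure_diff hsub hma.nullMeasurableSet hfa] at hvol
  rw [intervalIntegral.integral_of_le hab]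
  unfold tau
  rw [integral_toReal]
  · rw [← hvol, ENNReal.toReal_sub_of_le (measure_mono hsub) hfb]
    rfl
  · exact (measurable_measure_prodMk_left (ν := (volume : Measure ℝ)) hC).aemeasurable
  · obtain ⟨r, hr⟩ := sec_cell_subset (ι := ι) hK
    refine Filter.Eventually.of_forall fun s => ?_
    exact (measure_mono (hr η t w i s)).trans_lt (by simp)

theorem Lm_nonneg (η t w : ι → ℝ) (i : ι) (c : ℝ) : 0 ≤ Lm K η t w i c :=
  ENNReal.toReal_nonneg

theorem Lm_le_mass (hK : IsCompact K) (η t w : ι → ℝ) (i : ι) (c : ℝ) :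
    Lm K η t w i c ≤ mass K η t w i :=
  ENNReal.toReal_mono (volume_cell_ne_top hK η t w i) (measure_mono Set.inter_subset_left)

theorem Lm_left (hK : IsCompact K) (η t w : ι → ℝ) (i : ι) {a0 b0 : ℝ}
    (hr : Prod.fst '' K = Set.Icc a0 b0) : Lm K η t w i a0 = 0 := by
  have hsub : cell K η t w i ∩ {p : ℝ × ℝ | p.1 ≤ a0} ⊆ ({a0} : Set ℝ) ×ˢ (Set.univ : Set ℝ) := by
    rintro p ⟨hp, hpa⟩
    have h1 : p.1 ∈ Set.Icc a0 b0 := hr ▸ Set.mem_image_of_mem _ hp.1
    simp only [Set.mem_prod, Set.mem_singleton_iff, Set.mem_univ, and_true]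
    exact le_antisymm hpa h1.1
  have h0 : volume (({a0} : Set ℝ) ×ˢ (Set.univ : Set ℝ)) = 0 := by
    rw [Measure.volume_eq_prod, Measure.prod_prod]
    simp
  unfold Lm
  rw [measure_mono_null hsub h0]
  rfl

theorem Lm_right (hK : IsCompact K) (η t w : ι → ℝ) (i : ι) {a0 b0 : ℝ}
    (hr : Prod.fst '' K = Set.Icc a0 b0) : Lm K η t w i b0 = mass K η t w i := by
  have h : cell K η t w i ∩ {p : ℝ × ℝ | p.1 ≤ b0} = cell K η t w i := by
    apply Set.inter_eq_left.mpr
    intro p hp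
    have h1 : p.1 ∈ Set.Icc a0 b0 := hr ▸ Set.mem_image_of_mem _ hp.1
    exact h1.2
  unfold Lm mass
  rw [h]

theorem PL_continuousOn [Nonempty ι] (hK : IsCompact K) (hKc : Convex ℝ K) (η t w : ι → ℝ)
    {a0 b0 : ℝ} (hr : Prod.fst '' K = Set.Icc a0 b0) (τ : ℝ) :
    ContinuousOn (fun s => PL K η t w s τ) (Set.Ioo a0 b0) := by
  have h := PL_convexOn hK hKc η t w τ
  rw [hr] at h
  exact (h.subset Set.Ioo_subset_Icc_self (convex_Ioo a0 b0)).continuousOn isOpen_Ioo

theorem PL_intervalIntegrable [Nonempty ι] (hK : IsCompact K) (hKc : Convex ℝ K) (η t w : ι → ℝ)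
    {a0 b0 : ℝ} (hr : Prod.fst '' K = Set.Icc a0 b0) (τ : ℝ) :
    IntervalIntegrable (fun s => PL K η t w s τ) volume a0 b0 := by
  rcases le_or_gt a0 b0 with hab | hab
  · obtain ⟨B, hB⟩ := PL_bounded hK η t w τ
    rw [intervalIntegrable_iff_integrableOn_Ioo_of_le hab]
    have hc := PL_continuousOn hK hKc η t w hr τ
    refine ⟨hc.aestronglyMeasurable measurableSet_Ioo, ?_⟩
    refine HasFiniteIntegral.restrict_of_bounded B (by simp) ?_
    filter_upwards [ae_restrict_mem measurableSet_Ioo] with s hs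
    rw [Real.norm_eq_abs]
    exact hB s (hr ▸ Set.Ioo_subset_Icc_self hs)
  · -- `K` is empty
    have hKe : K = ∅ := by
      rw [Set.Icc_eq_empty (not_le.mpr hab)] at hr
      exact Set.image_eq_empty.mp hr
    have h0 : (fun s => PL K η t w s τ) = fun _ => (0 : ℝ) := by
      ext s
      simp [PL, sec, hKe]
    rw [h0]
    exact intervalIntegrable_const

end Vale.Agent.Lib.P074t
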