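import Vale.Agent.Lib.P074t.Section
import Vale.Agent.Lib.P074t.Fubini

open MeasureTheory

namespace Vale.Agent.Lib.P074t

variable {ι : Type} [Fintype ι] {K : Set (ℝ × ℝ)}

/-- Integral formula in the row variable (take `cc a b = ∫ s in a..b, k0 s` with
`k0 s = pot η' t w' s (bot K s) - pot η t w s (bot K s)`; pointwise identity from `PL_formula`,
then `integral_tau`, `PL_intervalIntegrable`, `intervalIntegrable_tau`; second part: `sum_tau`). -/
theorem coreA [Nonempty ι] (hK : IsCompact K) (hKc : Convex ℝ K) (η η' t w w' : ι → ℝ)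
    (ht : Function.Injective t) {a0 b0 : ℝ} (hr : Prod.fst '' K = Set.Icc a0 b0) :
    ∃ cc : ℝ → ℝ → ℝ,
      (∀ a b, a0 ≤ a → a ≤ b → b ≤ b0 → ∀ i,
        ∫ s in a..b, (PL K η' t w' s (t i) - PL K η t w s (t i)) =
          cc a b - ∑ j, ((Lm K η' t w' j b - Lm K η' t w' j a) -
            (Lm K η t w j b - Lm K η t w j a)) * max (t i - t j) 0) ∧
      (∀ a b, a0 ≤ a → a ≤ b → b ≤ b0 →
        ∑ j, ((Lm K η' t w' j b - Lm K η' t w' j a) - (Lm K η t w j b - Lm K η t w j a)) = 0) := by
  classical
  obtain ⟨i0⟩ := ‹Nonempty ι›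
  have : Nonempty ι := ⟨i0⟩
  have hsec : ∀ s, s ∈ Set.Icc a0 b0 → (sec K s).Nonempty := fun s hs =>
    sec_nonempty_of_mem (hr ▸ hs)
  set F : ι → ℝ → ℝ := fun i s => (PL K η' t w' s (t i) - PL K η t w s (t i)) +
    ∑ j, (tau K η' t w' j s - tau K η t w j s) * max (t i - t j) 0 with hFdef
  have hF : ∀ i s, s ∈ Set.Icc a0 b0 → F i s = F i0 s := by
    intro i s hs
    have h1 := PL_formula hK hKc η' t w' ht (hsec s hs) (t i)
    have h2 := PL_formula hK hKc η t w ht (hsec s hs) (t i)
    have h3 := PL_formula hK hKc η' t w' ht (hsec s hs) (t i0)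
    have h4 := PL_formula hK hKc η t w ht (hsec s hs) (t i0)
    simp only [hFdef, sub_mul, Finset.sum_sub_distrib]
    rw [h1, h2, h3, h4]
    ring
  have hPLint : ∀ (η t w : ι → ℝ) (τ a b : ℝ), a0 ≤ a → a ≤ b → b ≤ b0 →
      IntervalIntegrable (fun s => PL K η t w s τ) volume a b := by
    intro η t w τ a b ha hab hb
    refine (PL_intervalIntegrable hK hKc η t w hr τ).mono_set ?_
    rw [Set.uIcc_of_le hab, Set.uIcc_of_le (ha.trans (hab.trans hb))]
    exact Set.Icc_subset_Icc ha hb
  have hint : ∀ a b, a0 ≤ a → a ≤ b → b ≤ b0 → ∀ i, ∫ s in a..b, F i s =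
      (∫ s in a..b, (PL K η' t w' s (t i) - PL K η t w s (t i))) +
        ∑ j, ((Lm K η' t w' j b - Lm K η' t w' j a) -
            (Lm K η t w j b - Lm K η t w j a)) * max (t i - t j) 0 := by
    intro a b ha hab hb i
    have hI1 : IntervalIntegrable
        (fun s => PL K η' t w' s (t i) - PL K η t w s (t i)) volume a b :=
      (hPLint η' t w' (t i) a b ha hab hb).sub (hPLint η t w (t i) a b ha hab hb)
    have hI2 : ∀ j ∈ (Finset.univ : Finset ι), IntervalIntegrable
        (fun s => (tau K η' t w' j s - tau K η t w j s) * max (t i - t j) 0) volume a b :=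
      fun j _ => ((intervalIntegrable_tau hK η' t w' j a b).sub
        (intervalIntegrable_tau hK η t w j a b)).mul_const _
    have hI3 : IntervalIntegrable
        (fun s => ∑ j, (tau K η' t w' j s - tau K η t w j s) * max (t i - t j) 0) volume a b := by
      have h := IntervalIntegrable.sum (Finset.univ : Finset ι) hI2
      have he : (fun s => ∑ j, (tau K η' t w' j s - tau K η t w j s) * max (t i - t j) 0) =
          ∑ j, (fun s => (tau K η' t w' j s - tau K η t w j s) * max (t i - t j) 0) := by
        ext s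
        simp
      rw [he]
      exact h
    rw [hFdef]
    simp only
    rw [intervalIntegral.integral_add hI1 hI3, intervalIntegral.integral_finsetSum hI2]
    congr 1
    refine Finset.sum_congr rfl fun j _ => ?_
    rw [intervalIntegral.integral_mul_const,
      intervalIntegral.integral_sub (intervalIntegrable_tau hK η' t w' j a b)
        (intervalIntegrable_tau hK η t w j a b),
      integral_tau hK η' t w' j hab, integral_tau hK η t w j hab]
  refine ⟨fun a b => ∫ s in a..b, F i0 s, ?_, ?_⟩
  · intro a b ha hab hb i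
    have h1 := hint a b ha hab hb i
    have h2 : ∫ s in a..b, F i s = ∫ s in a..b, F i0 s := by
      refine intervalIntegral.integral_congr fun s hs => ?_
      rw [Set.uIcc_of_le hab] at hs
      exact hF i s ⟨ha.trans hs.1, hs.2.trans hb⟩
    simp only
    rw [← h2, h1]
    ring
  · intro a b ha hab hb
    have h1 : ∀ j, (Lm K η' t w' j b - Lm K η' t w' j a) - (Lm K η t w j b - Lm K η t w j a) =
        ∫ s in a..b, (tau K η' t w' j s - tau K η t w j s) := by
      intro j
      rw [intervalIntegral.integral_sub (intervalIntegrable_tau hK η' t w' j a b)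
        (intervalIntegrable_tau hK η t w j a b),
        integral_tau hK η' t w' j hab, integral_tau hK η t w j hab]
    simp only [h1]
    rw [← intervalIntegral.integral_finsetSum (fun j _ =>
      (intervalIntegrable_tau hK η' t w' j a b).sub (intervalIntegrable_tau hK η t w j a b))]
    have h2 : ∫ s in a..b, ∑ j, (tau K η' t w' j s - tau K η t w j s) =
        ∫ s in a..b, (0 : ℝ) := by
      refine intervalIntegral.integral_congr fun s hs => ?_
      rw [Set.uIcc_of_le hab] at hs
      have hs' : s ∈ Set.Icc a0 b0 := ⟨ha.trans hs.1, hs.2.trans hb⟩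
      simp only [Finset.sum_sub_distrib]
      rw [sum_tau hK hKc η' t w' ht (hsec s hs'), sum_tau hK hKc η t w ht (hsec s hs')]
      ring
    rw [h2]
    simp

end Vale.Agent.Lib.P074t
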