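import Vale.Agent.Lib.P074t.Defs

open MeasureTheory

namespace Vale.Agent.Lib.P074t

variable {ι : Type} [Fintype ι] {K : Set (ℝ × ℝ)}

lemma volume_fst_eq (c : ℝ) : volume {p : ℝ × ℝ | p.1 = c} = 0 := by
  have h : {p : ℝ × ℝ | p.1 = c} = ({c} : Set ℝ) ×ˢ (Set.univ : Set ℝ) := by
    ext p
    simp
  rw [h, Measure.volume_eq_prod, Measure.prod_prod]
  simp

theorem exists_left_point (η t w : ι → ℝ) (i : ι) {c : ℝ} (h : 0 < Lm K η t w i c) :
    ∃ p ∈ cell K η t w i, p.1 < c := by
  by_contra hcon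
  push Not at hcon
  have hsub : cell K η t w i ∩ {p | p.1 ≤ c} ⊆ {p : ℝ × ℝ | p.1 = c} := by
    intro p hp
    exact le_antisymm hp.2 (hcon p hp.1)
  have h0 : volume (cell K η t w i ∩ {p | p.1 ≤ c}) = 0 :=
    measure_mono_null hsub (volume_fst_eq c)
  unfold Lm at h
  rw [h0] at h
  simp at h

theorem exists_right_point (hK : IsCompact K) (η t w : ι → ℝ) (i : ι) {c : ℝ}
    (h : Lm K η t w i c < mass K η t w i) :
    ∃ p ∈ cell K η t w i, c < p.1 := by
  by_contra hcon
  push Not at hcon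
  have heq : cell K η t w i ∩ {p | p.1 ≤ c} = cell K η t w i := by
    apply Set.inter_eq_left.mpr
    intro p hp
    exact hcon p hp
  unfold Lm mass at h
  rw [heq] at h
  exact lt_irrefl _ h

lemma continuous_aff_geom (η t w : ι → ℝ) (i : ι) :
    Continuous (fun p : ℝ × ℝ => aff η t w i p.1 p.2) := by
  unfold aff
  fun_prop

/-- If the cells outside `S` are null inside the open set `Hs`, then at every interior point of
`K` adherent to `Hs` some index of `S` is maximal. -/
lemma exists_max_mem [Nonempty ι] (η t w : ι → ℝ) (S : Set ι) (Hs : Set (ℝ × ℝ))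
    (hHs : IsOpen Hs) (hnull : ∀ j, j ∉ S → volume (cell K η t w j ∩ Hs) = 0)
    {x : ℝ × ℝ} (hxK : x ∈ interior K)
    (hx : ∀ N : Set (ℝ × ℝ), IsOpen N → x ∈ N → (N ∩ Hs).Nonempty) :
    ∃ i ∈ S, ∀ k, aff η t w k x.1 x.2 ≤ aff η t w i x.1 x.2 := by
  classical
  by_contra hcon
  push Not at hcon
  obtain ⟨k0, hk0⟩ := Finite.exists_max (fun k => aff η t w k x.1 x.2)
  have hlt : ∀ i, i ∈ S → aff η t w i x.1 x.2 < aff η t w k0 x.1 x.2 := by
    intro i hi
    obtain ⟨k, hk⟩ := hcon i hi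
    exact lt_of_lt_of_le hk (hk0 k)
  set N : Set (ℝ × ℝ) :=
    interior K ∩ {p | ∀ i, i ∈ S → aff η t w i p.1 p.2 < aff η t w k0 p.1 p.2} with hN
  have hNo : IsOpen N := by
    apply isOpen_interior.inter
    have : {p : ℝ × ℝ | ∀ i, i ∈ S → aff η t w i p.1 p.2 < aff η t w k0 p.1 p.2} =
        ⋂ i, ⋂ (_ : i ∈ S), {p : ℝ × ℝ | aff η t w i p.1 p.2 < aff η t w k0 p.1 p.2} := by
      ext p
      simp
    rw [this]
    exact isOpen_iInter_of_finite fun i => isOpen_iInter_of_finite fun _ =>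
      isOpen_lt (continuous_aff_geom η t w i) (continuous_aff_geom η t w k0)
  have hxN : x ∈ N := ⟨hxK, hlt⟩
  have hne : (N ∩ Hs).Nonempty := hx N hNo hxN
  have hpos : 0 < volume (N ∩ Hs) := (hNo.inter hHs).measure_pos volume hne
  have hsub : N ∩ Hs ⊆ ⋃ j, ⋃ (_ : j ∉ S), cell K η t w j ∩ Hs := by
    intro p hp
    obtain ⟨j, hj⟩ := Finite.exists_max (fun k => aff η t w k p.1 p.2)
    have hjS : j ∉ S := by
      intro hjS
      have h1 := hp.1.2 j hjS
      have h2 := hj k0
      exact absurd h1 (not_lt.mpr h2)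
    simp only [Set.mem_iUnion]
    exact ⟨j, hjS, ⟨interior_subset hp.1.1, hj⟩, hp.2⟩
  have hzero : volume (⋃ j, ⋃ (_ : j ∉ S), cell K η t w j ∩ Hs) = 0 := by
    rw [measure_iUnion_null_iff]
    intro j
    rw [measure_iUnion_null_iff]
    intro hj
    exact hnull j hj
  have := measure_mono_null hsub hzero
  rw [this] at hpos
  exact lt_irrefl _ hpos

lemma exists_left_in_open {N : Set (ℝ × ℝ)} (hN : IsOpen N) {c z : ℝ} (h : (c, z) ∈ N) :
    (N ∩ {p | p.1 < c}).Nonempty := by
  have hcont : Continuous (fun s : ℝ => (s, z)) := by fun_prop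
  have ho : IsOpen ((fun s : ℝ => (s, z)) ⁻¹' N) := hN.preimage hcont
  obtain ⟨l, u, hlu, hsub⟩ := mem_nhds_iff_exists_Ioo_subset.mp (ho.mem_nhds h)
  refine ⟨((l + c) / 2, z), hsub ⟨?_, ?_⟩, ?_⟩
  · linarith [hlu.1]
  · linarith [hlu.1, hlu.2]
  · show (l + c) / 2 < c
    linarith [hlu.1]

lemma exists_right_in_open {N : Set (ℝ × ℝ)} (hN : IsOpen N) {c z : ℝ} (h : (c, z) ∈ N) :
    (N ∩ {p | c < p.1}).Nonempty := by
  have hcont : Continuous (fun s : ℝ => (s, z)) := by fun_prop
  have ho : IsOpen ((fun s : ℝ => (s, z)) ⁻¹' N) := hN.preimage hcont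
  obtain ⟨l, u, hlu, hsub⟩ := mem_nhds_iff_exists_Ioo_subset.mp (ho.mem_nhds h)
  refine ⟨((c + u) / 2, z), hsub ⟨?_, ?_⟩, ?_⟩
  · linarith [hlu.1, hlu.2]
  · linarith [hlu.2]
  · show c < (c + u) / 2
    linarith [hlu.2]

/-- An interior vertical line meets the interior of `K`. -/
lemma exists_interior_on_line (hKc : Convex ℝ K) (hKi : (interior K).Nonempty) {a0 b0 : ℝ}
    (hr : Prod.fst '' K = Set.Icc a0 b0) {c : ℝ} (hc : c ∈ Set.Ioo a0 b0) :
    ∃ z, (c, z) ∈ interior K := by
  obtain ⟨x0, hx0⟩ := hKi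
  have hab : a0 ≤ b0 := le_of_lt (hc.1.trans hc.2)
  have key : ∀ q ∈ K, (x0.1 < c ∧ c < q.1) ∨ (q.1 < c ∧ c < x0.1) → ∃ z, (c, z) ∈ interior K := by
    intro q hq hcase
    have hne : q.1 - x0.1 ≠ 0 := by
      rcases hcase with h | h
      · have : 0 < q.1 - x0.1 := by linarith [h.1, h.2]
        exact ne_of_gt this
      · have : q.1 - x0.1 < 0 := by linarith [h.1, h.2]
        exact ne_of_lt this
    set lam : ℝ := (c - x0.1) / (q.1 - x0.1) with hlam
    have hl0 : 0 < lam := by
      rcases hcase with h | h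
      · exact div_pos (by linarith [h.1]) (by linarith [h.1, h.2])
      · exact div_pos_of_neg_of_neg (by linarith [h.2]) (by linarith [h.1, h.2])
    have hl1 : lam < 1 := by
      rcases hcase with h | h
      · rw [hlam, div_lt_one (by linarith [h.1, h.2])]
        linarith [h.2]
      · rw [hlam, div_lt_one_of_neg (by linarith [h.1, h.2])]
        linarith [h.1]
    have hmem : (1 - lam) • x0 + lam • q ∈ interior K :=
      hKc.combo_interior_closure_mem_interior hx0 (subset_closure hq) (by linarith) hl0.le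
        (by ring)
    refine ⟨((1 - lam) • x0 + lam • q).2, ?_⟩
    have h1 : ((1 - lam) • x0 + lam • q).1 = c := by
      simp only [Prod.fst_add, Prod.smul_fst, smul_eq_mul]
      have : lam * (q.1 - x0.1) = c - x0.1 := by
        rw [hlam]
        field_simp
      linarith
    have h2 : (c, ((1 - lam) • x0 + lam • q).2) = (1 - lam) • x0 + lam • q := by
      ext
      · exact h1.symm
      · rfl
    rw [h2]
    exact hmem
  rcases lt_trichotomy x0.1 c with h | h | h
  · have hb : b0 ∈ Prod.fst '' K := by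
      rw [hr]
      exact ⟨hab, le_refl _⟩
    obtain ⟨q, hq, hq1⟩ := hb
    exact key q hq (Or.inl ⟨h, by rw [hq1]; exact hc.2⟩)
  · refine ⟨x0.2, ?_⟩
    have : (c, x0.2) = x0 := by
      ext
      · exact h.symm
      · rfl
    rw [this]
    exact hx0
  · have ha : a0 ∈ Prod.fst '' K := by
      rw [hr]
      exact ⟨le_refl _, hab⟩
    obtain ⟨q, hq, hq1⟩ := ha
    exact key q hq (Or.inr ⟨by rw [hq1]; exact hc.1, h⟩)

/-- With pairwise distinct rows, some cell has positive area on both sides of every interior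
vertical line. -/
theorem exists_crossing [Nonempty ι] (hK : IsCompact K) (hKc : Convex ℝ K)
    (hKi : (interior K).Nonempty) (η t w : ι → ℝ) (ht : Function.Injective t) {a0 b0 : ℝ}
    (hr : Prod.fst '' K = Set.Icc a0 b0) {c : ℝ} (hc : c ∈ Set.Ioo a0 b0) :
    ∃ j, 0 < Lm K η t w j c ∧ Lm K η t w j c < mass K η t w j := by
  classical
  by_contra hcon
  push Not at hcon
  have hfin : ∀ j, volume (cell K η t w j) ≠ ⊤ := fun j =>
    (measure_mono (fun p hp => hp.1)).trans_lt hK.measure_lt_top |>.ne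
  set A : Set ι := {j | volume (cell K η t w j ∩ {p | p.1 ≤ c}) ≠ 0} with hA
  have hleft : ∀ j, j ∉ A → volume (cell K η t w j ∩ {p | p.1 < c}) = 0 := by
    intro j hj
    have h0 : volume (cell K η t w j ∩ {p | p.1 ≤ c}) = 0 := by
      by_contra h
      exact hj h
    refine measure_mono_null ?_ h0
    intro p hp
    exact ⟨hp.1, le_of_lt (show p.1 < c from hp.2)⟩
  have hright : ∀ j, j ∉ Aᶜ → volume (cell K η t w j ∩ {p | c < p.1}) = 0 := by
    intro j hj
    have hjA : volume (cell K η t w j ∩ {p | p.1 ≤ c}) ≠ 0 := by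
      simpa [hA] using hj
    have hfin' : volume (cell K η t w j ∩ {p | p.1 ≤ c}) ≠ ⊤ :=
      ((measure_mono Set.inter_subset_left).trans_lt (lt_top_iff_ne_top.mpr (hfin j))).ne
    have hpos : 0 < Lm K η t w j c := ENNReal.toReal_pos hjA hfin'
    have hge := hcon j hpos
    have hm : MeasurableSet {p : ℝ × ℝ | p.1 ≤ c} :=
      (isClosed_le continuous_fst continuous_const).measurableSet
    have hadd := measure_inter_add_sdiff (μ := volume) (cell K η t w j) hm
    have hle : volume (cell K η t w j) ≤ volume (cell K η t w j ∩ {p | p.1 ≤ c}) :=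
      (ENNReal.toReal_le_toReal (hfin j) hfin').mp hge
    have hd : volume (cell K η t w j \ {p | p.1 ≤ c}) = 0 := by
      by_contra hne
      have hlt : volume (cell K η t w j ∩ {p | p.1 ≤ c}) <
          volume (cell K η t w j ∩ {p | p.1 ≤ c}) + volume (cell K η t w j \ {p | p.1 ≤ c}) :=
        ENNReal.lt_add_right hfin' hne
      rw [hadd] at hlt
      exact absurd hle (not_le.mpr hlt)
    refine measure_mono_null ?_ hd
    intro p hp
    refine ⟨hp.1, fun h => ?_⟩
    have h1 : c < p.1 := hp.2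
    have h2 : p.1 ≤ c := h
    exact absurd h1 (not_lt.mpr h2)
  set I : Set ℝ := {z | (c, z) ∈ interior K} with hI
  have hIo : IsOpen I := isOpen_interior.preimage (by fun_prop : Continuous fun z : ℝ => (c, z))
  obtain ⟨z0, hz0⟩ := exists_interior_on_line hKc hKi hr hc
  have hIinf : I.Infinite := by
    obtain ⟨l, u, hlu, hsub⟩ := mem_nhds_iff_exists_Ioo_subset.mp (hIo.mem_nhds hz0)
    exact (Set.Ioo_infinite (hlu.1.trans hlu.2)).mono hsub
  have hpair : ∀ z, z ∈ I → ∃ ij : ι × ι, ij.1 ∈ A ∧ ij.2 ∉ A ∧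
      aff η t w ij.1 c z = aff η t w ij.2 c z := by
    intro z hz
    obtain ⟨i, hiA, hi⟩ := exists_max_mem η t w A {p | p.1 < c}
      (isOpen_lt continuous_fst continuous_const) hleft hz
      (fun N hN hx => exists_left_in_open hN hx)
    obtain ⟨j, hjA, hj⟩ := exists_max_mem η t w Aᶜ {p | c < p.1}
      (isOpen_lt continuous_const continuous_fst) hright hz
      (fun N hN hx => exists_right_in_open hN hx)
    exact ⟨(i, j), hiA, hjA, le_antisymm (hj i) (hi j)⟩
  choose! f hf using hpair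
  obtain ⟨z, hz, z', hz', hne, hfeq⟩ :=
    hIinf.exists_ne_map_eq_of_mapsTo (t := Set.univ) (f := f) (fun _ _ => Set.mem_univ _)
      Set.finite_univ
  have h1 := (hf z hz).2.2
  have h2 := (hf z' hz').2.2
  rw [← hfeq] at h2
  unfold aff at h1 h2
  have h3 : (t (f z).1 - t (f z).2) * (z - z') = 0 := by linarith
  have h4 : t (f z).1 = t (f z).2 := by
    rcases mul_eq_zero.mp h3 with h | h
    · linarith
    · exact absurd (sub_eq_zero.mp h) hne
  have h5 := ht h4
  exact (hf z hz).2.1 (h5 ▸ (hf z hz).1)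

end Vale.Agent.Lib.P074t
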