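import Vale.Agent.Lib.P074t.Convex
import Vale.Agent.Lib.P074t.Geom

open MeasureTheory

namespace Vale.Agent.Lib.P074t

variable {ι : Type} [Fintype ι] {K : Set (ℝ × ℝ)}

theorem PL_eq_G (η t w : ι → ℝ) (i : ι) (s : ℝ) :
    PL K η t w s (t i) = G K η t w i s + (η i * s - w i) := by
  unfold G
  ring

theorem mem_fst_image_of_between (hKc : Convex ℝ K) {x y s : ℝ} (hx : x ∈ Prod.fst '' K)
    (hy : y ∈ Prod.fst '' K) (h1 : x ≤ s) (h2 : s ≤ y) : s ∈ Prod.fst '' K :=
  (convex_fst_image hKc).ordConnected.out hx hy ⟨h1, h2⟩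

/-- Slope bound at the right end point (`exists_left_point` for the primed system,
`exists_right_point` for the unprimed one, `G_eq_zero`, `G_mono`, `G_anti`). -/
theorem coreB_b [Nonempty ι] (hK : IsCompact K) (hKc : Convex ℝ K) (η η' t w w' : ι → ℝ)
    (δ : ℝ) (he : ∀ i, |η' i - η i| ≤ δ) (i : ι) {b : ℝ}
    (h1 : 0 < Lm K η' t w' i b) (h2 : Lm K η t w i b < mass K η t w i) (c0 : ℝ) :
    ∃ h0 > 0, ∀ s ∈ Set.Ioo 0 h0, -(2 * δ * s) ≤
      (PL K η' t w' (b + s) (t i) - PL K η t w (b + s) (t i) - c0) -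
        (PL K η' t w' (b - s) (t i) - PL K η t w (b - s) (t i) - c0) := by
  obtain ⟨⟨x', y'⟩, hp', hlt'⟩ := exists_left_point η' t w' i h1
  obtain ⟨⟨x, y⟩, hp, hlt⟩ := exists_right_point hK η t w i h2
  simp only at hlt' hlt
  have hG' : G K η' t w' i x' = 0 := G_eq_zero hK η' t w' i hp'
  have hG : G K η t w i x = 0 := G_eq_zero hK η t w i hp
  have hx' : x' ∈ Prod.fst '' K := ⟨(x', y'), hp'.1, rfl⟩
  have hx : x ∈ Prod.fst '' K := ⟨(x, y), hp.1, rfl⟩
  refine ⟨min (b - x') (x - b), lt_min (by linarith) (by linarith), ?_⟩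
  intro s hs
  have hs0 : 0 < s := hs.1
  have hs1 : s < b - x' := lt_of_lt_of_le hs.2 (min_le_left _ _)
  have hs2 : s < x - b := lt_of_lt_of_le hs.2 (min_le_right _ _)
  have hm1 : b - s ∈ Prod.fst '' K :=
    mem_fst_image_of_between hKc hx' hx (by linarith) (by linarith)
  have hm2 : b + s ∈ Prod.fst '' K :=
    mem_fst_image_of_between hKc hx' hx (by linarith) (by linarith)
  have hA : G K η' t w' i (b - s) ≤ G K η' t w' i (b + s) :=
    G_mono hK hKc η' t w' i hG' hx' hm2 (by linarith) (by linarith)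
  have hB : G K η t w i (b + s) ≤ G K η t w i (b - s) :=
    G_anti hK hKc η t w i hG hx hm1 (by linarith) (by linarith)
  have hd : -δ ≤ η' i - η i := (abs_le.mp (he i)).1
  have hd2 : -δ * s ≤ (η' i - η i) * s := mul_le_mul_of_nonneg_right hd hs0.le
  rw [PL_eq_G η' t w' i (b + s), PL_eq_G η t w i (b + s), PL_eq_G η' t w' i (b - s),
    PL_eq_G η t w i (b - s)]
  nlinarith [hA, hB, hd2]

/-- Slope bound at the left end point. -/
theorem coreB_a [Nonempty ι] (hK : IsCompact K) (hKc : Convex ℝ K) (η η' t w w' : ι → ℝ)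
    (δ : ℝ) (he : ∀ i, |η' i - η i| ≤ δ) (i : ι) {a : ℝ}
    (h1 : Lm K η' t w' i a < mass K η' t w' i) (h2 : 0 < Lm K η t w i a) (c0 : ℝ) :
    ∃ h0 > 0, ∀ s ∈ Set.Ioo 0 h0,
      (PL K η' t w' (a + s) (t i) - PL K η t w (a + s) (t i) - c0) -
        (PL K η' t w' (a - s) (t i) - PL K η t w (a - s) (t i) - c0) ≤ 2 * δ * s := by
  obtain ⟨⟨x', y'⟩, hp', hlt'⟩ := exists_right_point hK η' t w' i h1
  obtain ⟨⟨x, y⟩, hp, hlt⟩ := exists_left_point η t w i h2
  simp only at hlt' hlt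
  have hG' : G K η' t w' i x' = 0 := G_eq_zero hK η' t w' i hp'
  have hG : G K η t w i x = 0 := G_eq_zero hK η t w i hp
  have hx' : x' ∈ Prod.fst '' K := ⟨(x', y'), hp'.1, rfl⟩
  have hx : x ∈ Prod.fst '' K := ⟨(x, y), hp.1, rfl⟩
  refine ⟨min (a - x) (x' - a), lt_min (by linarith) (by linarith), ?_⟩
  intro s hs
  have hs0 : 0 < s := hs.1
  have hs1 : s < a - x := lt_of_lt_of_le hs.2 (min_le_left _ _)
  have hs2 : s < x' - a := lt_of_lt_of_le hs.2 (min_le_right _ _)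
  have hm1 : a - s ∈ Prod.fst '' K :=
    mem_fst_image_of_between hKc hx hx' (by linarith) (by linarith)
  have hm2 : a + s ∈ Prod.fst '' K :=
    mem_fst_image_of_between hKc hx hx' (by linarith) (by linarith)
  have hA : G K η' t w' i (a + s) ≤ G K η' t w' i (a - s) :=
    G_anti hK hKc η' t w' i hG' hx' hm1 (by linarith) (by linarith)
  have hB : G K η t w i (a - s) ≤ G K η t w i (a + s) :=
    G_mono hK hKc η t w i hG hx hm2 (by linarith) (by linarith)
  have hd : η' i - η i ≤ δ := (abs_le.mp (he i)).2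
  have hd2 : (η' i - η i) * s ≤ δ * s := mul_le_mul_of_nonneg_right hd hs0.le
  rw [PL_eq_G η' t w' i (a + s), PL_eq_G η t w i (a + s), PL_eq_G η' t w' i (a - s),
    PL_eq_G η t w i (a - s)]
  nlinarith [hA, hB, hd2]

end Vale.Agent.Lib.P074t
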