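import Vale.Agent.Lib.P074t.Fubini

open MeasureTheory

namespace Vale.Agent.Lib.P074t

variable {ι : Type} [Fintype ι] {K : Set (ℝ × ℝ)}

/-- A function continuous on an open interval whose integral means are at most `B` is at most `B`
pointwise. -/
theorem le_of_integral_le {f : ℝ → ℝ} {a0 b0 B : ℝ} (hf : ContinuousOn f (Set.Ioo a0 b0))
    (hB : ∀ a b, a0 ≤ a → a ≤ b → b ≤ b0 → ∫ s in a..b, f s ≤ B * (b - a)) :
    ∀ s ∈ Set.Ioo a0 b0, f s ≤ B := by
  intro s hs
  by_contra hcon
  have hlt : B < f s := not_le.mp hcon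
  set B' : ℝ := (B + f s) / 2 with hB'
  have hB1 : B < B' := by rw [hB']; linarith
  have hB2 : B' < f s := by rw [hB']; linarith
  have hcont : ContinuousAt f s := hf.continuousAt (isOpen_Ioo.mem_nhds hs)
  have hev : ∀ᶠ u in nhds s, B' < f u := hcont.eventually (lt_mem_nhds hB2)
  have hev2 : ∀ᶠ u in nhds s, u ∈ Set.Ioo a0 b0 := isOpen_Ioo.mem_nhds hs
  obtain ⟨ε, hε, hball⟩ := Metric.eventually_nhds_iff.mp (hev.and hev2)
  set h : ℝ := ε / 2 with hh
  have hhpos : 0 < h := by rw [hh]; linarith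
  have hin : ∀ u ∈ Set.Icc (s - h) (s + h), B' < f u ∧ u ∈ Set.Ioo a0 b0 := by
    intro u hu
    apply hball
    rw [Real.dist_eq, abs_lt]
    constructor
    · have := hu.1; linarith
    · have := hu.2; linarith
  have hle : s - h ≤ s + h := by linarith
  have hsub : Set.Icc (s - h) (s + h) ⊆ Set.Ioo a0 b0 := fun u hu => (hin u hu).2
  have h1 := (hsub (Set.left_mem_Icc.mpr hle)).1
  have h2 := (hsub (Set.right_mem_Icc.mpr hle)).2
  have hint : IntervalIntegrable f volume (s - h) (s + h) := by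
    apply ContinuousOn.intervalIntegrable
    rw [Set.uIcc_of_le hle]
    exact hf.mono hsub
  have hlow : ∫ u in (s - h)..(s + h), B' ≤ ∫ u in (s - h)..(s + h), f u := by
    apply intervalIntegral.integral_mono_on hle intervalIntegrable_const hint
    intro u hu
    exact le_of_lt (hin u hu).1
  rw [intervalIntegral.integral_const, smul_eq_mul] at hlow
  have hup := hB (s - h) (s + h) h1.le hle h2.le
  have : (s + h - (s - h)) = 2 * h := by ring
  rw [this] at hlow hup
  nlinarith

/-- From the integral bound to the pointwise bound on the potentials: continuity of `PL` on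
`Ioo a0 b0` gives `PL' - PL - c0 ≤ B` at every row; for `(s,z) ∈ K` take `i` maximal for the primed
system (`G_eq_zero`, `PL_le`); end points `s = a0, b0` by continuity along a segment. -/
theorem coreC [Nonempty ι] (hK : IsCompact K) (hKc : Convex ℝ K) (η η' t w w' : ι → ℝ)
    {a0 b0 : ℝ} (hr : Prod.fst '' K = Set.Icc a0 b0) (hab : a0 < b0) (c0 B : ℝ)
    (hB : ∀ a b, a0 ≤ a → a ≤ b → b ≤ b0 → ∀ i,
      ∫ s in a..b, (PL K η' t w' s (t i) - PL K η t w s (t i) - c0) ≤ B * (b - a)) :
    ∀ p ∈ K, pot η' t w' p.1 p.2 - pot η t w p.1 p.2 - c0 ≤ B := by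
  -- pointwise bound at the rows
  have hrow : ∀ i, ∀ s ∈ Set.Ioo a0 b0,
      PL K η' t w' s (t i) - PL K η t w s (t i) - c0 ≤ B := by
    intro i
    apply le_of_integral_le
    · exact ((PL_continuousOn hK hKc η' t w' hr (t i)).sub
        (PL_continuousOn hK hKc η t w hr (t i))).sub continuousOn_const
    · intro a b ha hab' hb
      exact hB a b ha hab' hb i
  -- interior abscissae
  have hint : ∀ p ∈ K, p.1 ∈ Set.Ioo a0 b0 →
      pot η' t w' p.1 p.2 - pot η t w p.1 p.2 - c0 ≤ B := by
    intro p hp hp1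
    obtain ⟨i, hi⟩ := Finite.exists_max (fun j => aff η' t w' j p.1 p.2)
    have hcell : (p.1, p.2) ∈ cell K η' t w' i := ⟨hp, hi⟩
    have hG := G_eq_zero hK η' t w' i hcell
    have hpot' : pot η' t w' p.1 p.2 = aff η' t w' i p.1 p.2 :=
      le_antisymm (pot_le η' t w' hi) (aff_le_pot η' t w' i p.1 p.2)
    have hPL := PL_le hK η t w (s := p.1) (z := p.2) hp (t i)
    have hr' := hrow i p.1 hp1
    unfold G at hG
    rw [hpot']
    unfold aff
    linarith
  -- closure argument
  have hclosed : IsClosed {p : ℝ × ℝ | pot η' t w' p.1 p.2 - pot η t w p.1 p.2 - c0 ≤ B} := by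
    apply isClosed_le _ continuous_const
    exact ((continuous_pot η' t w').sub (continuous_pot η t w)).sub continuous_const
  obtain ⟨qa, hqa, hqa1⟩ : a0 ∈ Prod.fst '' K := by
    rw [hr]; exact Set.left_mem_Icc.mpr hab.le
  obtain ⟨qb, hqb, hqb1⟩ : b0 ∈ Prod.fst '' K := by
    rw [hr]; exact Set.right_mem_Icc.mpr hab.le
  set m : ℝ × ℝ := (1 / 2 : ℝ) • qa + (1 / 2 : ℝ) • qb with hm
  have hmK : m ∈ K := hKc hqa hqb (by norm_num) (by norm_num) (by norm_num)
  have hm1 : m.1 = (a0 + b0) / 2 := by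
    rw [hm]
    simp only [Prod.fst_add, Prod.smul_fst, smul_eq_mul, hqa1, hqb1]
    ring
  intro p hp
  have hp1 : p.1 ∈ Set.Icc a0 b0 := by
    rw [← hr]; exact ⟨p, hp, rfl⟩
  have hmem : p ∈ closure {p : ℝ × ℝ | pot η' t w' p.1 p.2 - pot η t w p.1 p.2 - c0 ≤ B} := by
    have htend : Filter.Tendsto (fun lam : ℝ => (1 - lam) • p + lam • m)
        (nhdsWithin 0 (Set.Ioi 0)) (nhds p) := by
      have hc : Continuous (fun lam : ℝ => (1 - lam) • p + lam • m) := by fun_prop
      have h0 := hc.tendsto 0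
      simp only [sub_zero, one_smul, zero_smul, add_zero] at h0
      exact h0.mono_left nhdsWithin_le_nhds
    apply mem_closure_of_tendsto htend
    have hev : ∀ᶠ lam : ℝ in nhdsWithin 0 (Set.Ioi 0), lam ∈ Set.Ioo (0 : ℝ) 1 :=
      Ioo_mem_nhdsGT (by norm_num)
    filter_upwards [hev] with lam hlam
    apply hint
    · exact hKc hp hmK (by linarith [hlam.2]) hlam.1.le (by ring)
    · simp only [Prod.fst_add, Prod.smul_fst, smul_eq_mul, hm1]
      have h1 := hp1.1
      have h2 := hp1.2
      have h3 := hlam.1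
      have h4 := hlam.2
      constructor
      · nlinarith
      · nlinarith
  rw [hclosed.closure_eq] at hmem
  exact hmem

end Vale.Agent.Lib.P074t
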