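import Mathlib

open MeasureTheory

namespace Vale.Agent.Lib.P074t

lemma second_diff_pos_part (x h : ℝ) (hh : 0 ≤ h) :
    max (x + h) 0 + max (x - h) 0 - 2 * max x 0 = max (h - |x|) 0 := by
  rcases le_total 0 x with hx | hx
  · rw [abs_of_nonneg hx, max_eq_left hx, max_eq_left (by linarith : (0:ℝ) ≤ x + h)]
    rcases le_total 0 (x - h) with h1 | h1
    · rw [max_eq_left h1, max_eq_right (by linarith)]; ring
    · rw [max_eq_right h1, max_eq_left (by linarith)]; ring
  · rw [abs_of_nonpos hx, max_eq_right hx, max_eq_right (by linarith : x - h ≤ 0)]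
    rcases le_total 0 (x + h) with h1 | h1
    · rw [max_eq_left h1, max_eq_left (by linarith)]; ring
    · rw [max_eq_right h1, max_eq_right (by linarith)]; ring

/-- A piecewise linear function with kinks `-d j` at the pairwise distinct points `t j`,
`∑ d = 0`, whose kinks at global maximum points are convex, is constant. -/
lemma pl_const {ι : Type} [Fintype ι] [Nonempty ι] (t d : ι → ℝ) (ht : Function.Injective t)
    (c : ℝ) (hsum : ∑ j, d j = 0)
    (hmax : ∀ j, (∀ τ, c - ∑ l, d l * max (τ - t l) 0 ≤ c - ∑ l, d l * max (t j - t l) 0) → d j ≤ 0) :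
    (∀ τ τ', c - ∑ l, d l * max (τ - t l) 0 = c - ∑ l, d l * max (τ' - t l) 0) ∧ ∀ j, d j = 0 := by
  classical
  set f : ℝ → ℝ := fun τ => c - ∑ l, d l * max (τ - t l) 0 with hf
  have hfc : Continuous f := by
    simp only [hf]
    fun_prop
  -- second difference
  have hsd : ∀ τ h, 0 ≤ h → f (τ + h) + f (τ - h) - 2 * f τ = - ∑ l, d l * max (h - |τ - t l|) 0 := by
    intro τ h hh
    simp only [hf]
    have : ∀ l, d l * max (h - |τ - t l|) 0 =
        d l * max (τ + h - t l) 0 + d l * max (τ - h - t l) 0 - 2 * (d l * max (τ - t l) 0) := by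
      intro l
      rw [← second_diff_pos_part (τ - t l) h hh]
      have e1 : τ - t l + h = τ + h - t l := by ring
      have e2 : τ - t l - h = τ - h - t l := by ring
      rw [e1, e2]; ring
    simp only [this, Finset.sum_sub_distrib, Finset.sum_add_distrib, ← Finset.mul_sum]
    ring
  -- small h
  have hsmall : ∀ τ, ∃ h0 > 0, ∀ l, t l ≠ τ → h0 ≤ |τ - t l| := by
    intro τ
    by_cases hne : (Finset.univ.filter (fun l => t l ≠ τ)).Nonempty
    · obtain ⟨l0, hl0, hmin⟩ := Finset.exists_min_image _ (fun l => |τ - t l|) hne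
      refine ⟨|τ - t l0|, ?_, ?_⟩
      · have := (Finset.mem_filter.1 hl0).2
        exact abs_pos.2 (sub_ne_zero.2 (Ne.symm this))
      · intro l hl
        exact hmin l (Finset.mem_filter.2 ⟨Finset.mem_univ _, hl⟩)
    · refine ⟨1, one_pos, ?_⟩
      intro l hl
      exact absurd ⟨l, Finset.mem_filter.2 ⟨Finset.mem_univ _, hl⟩⟩ hne
  -- value of the second difference for small h
  have hsd0 : ∀ τ, (∀ l, t l ≠ τ) → ∃ h0 > 0, ∀ h, 0 ≤ h → h ≤ h0 → f (τ + h) + f (τ - h) - 2 * f τ = 0 := by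
    intro τ hτ
    obtain ⟨h0, h0pos, hh0⟩ := hsmall τ
    refine ⟨h0, h0pos, ?_⟩
    intro h hh hle
    rw [hsd τ h hh]
    have : ∀ l, d l * max (h - |τ - t l|) 0 = 0 := by
      intro l
      rw [max_eq_right (by linarith [hh0 l (hτ l)]), mul_zero]
    simp [this]
  have hsd1 : ∀ j, ∃ h0 > 0, ∀ h, 0 ≤ h → h ≤ h0 → f (t j + h) + f (t j - h) - 2 * f (t j) = - (d j * h) := by
    intro j
    obtain ⟨h0, h0pos, hh0⟩ := hsmall (t j)
    refine ⟨h0, h0pos, ?_⟩
    intro h hh hle
    rw [hsd (t j) h hh]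
    congr 1
    rw [Finset.sum_eq_single j]
    · simp [hh]
    · intro l _ hl
      have : t l ≠ t j := fun e => hl (ht e)
      rw [max_eq_right (by linarith [hh0 l this]), mul_zero]
    · intro h; exact absurd (Finset.mem_univ j) h
  -- f attains its maximum
  obtain ⟨A, hA⟩ : ∃ A, ∀ l, A ≤ t l := by
    obtain ⟨l0, _, hl0⟩ := Finset.exists_min_image Finset.univ t Finset.univ_nonempty
    exact ⟨t l0, fun l => hl0 l (Finset.mem_univ _)⟩
  obtain ⟨B, hB⟩ : ∃ B, ∀ l, t l ≤ B := by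
    obtain ⟨l0, _, hl0⟩ := Finset.exists_max_image Finset.univ t Finset.univ_nonempty
    exact ⟨t l0, fun l => hl0 l (Finset.mem_univ _)⟩
  have hAB : A ≤ B := (hA (Classical.arbitrary ι)).trans (hB _)
  have hleft : ∀ τ, τ ≤ A → f τ = f A := by
    intro τ hτ
    simp only [hf]
    congr 1
    apply Finset.sum_congr rfl
    intro l _
    rw [max_eq_right (by linarith [hA l]), max_eq_right (by linarith [hA l])]
  have hright : ∀ τ, B ≤ τ → f τ = f B := by
    intro τ hτ
    simp only [hf]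
    congr 1
    have e1 : ∀ l, d l * max (τ - t l) 0 = d l * (B - t l) + d l * (τ - B) := by
      intro l
      rw [max_eq_left (by linarith [hB l])]; ring
    have e2 : ∀ l, d l * max (B - t l) 0 = d l * (B - t l) := by
      intro l
      rw [max_eq_left (by linarith [hB l])]
    simp only [e1, e2, Finset.sum_add_distrib, ← Finset.sum_mul, hsum]
    ring
  obtain ⟨τs, _, hτs⟩ := (isCompact_Icc (a := A) (b := B)).exists_isMaxOn
    ⟨A, Set.left_mem_Icc.2 hAB⟩ hfc.continuousOn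
  have hglob : ∀ τ, f τ ≤ f τs := by
    intro τ
    rcases le_total τ A with h1 | h1
    · rw [hleft τ h1]; exact hτs (Set.left_mem_Icc.2 hAB)
    · rcases le_total τ B with h2 | h2
      · exact hτs ⟨h1, h2⟩
      · rw [hright τ h2]; exact hτs (Set.right_mem_Icc.2 hAB)
  -- the set of maximisers is clopen
  set Z : Set ℝ := {τ | f τ = f τs} with hZ
  have hZc : IsClosed Z := isClosed_eq hfc continuous_const
  have hZo : IsOpen Z := by
    rw [Metric.isOpen_iff]
    intro τ hτ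
    have hτ' : f τ = f τs := hτ
    have key : ∃ h0 > 0, ∀ h, 0 ≤ h → h ≤ h0 → 0 ≤ f (τ + h) + f (τ - h) - 2 * f τ := by
      by_cases hrow : ∃ j, t j = τ
      · obtain ⟨j, rfl⟩ := hrow
        obtain ⟨h0, h0pos, hh⟩ := hsd1 j
        refine ⟨h0, h0pos, fun h h1 h2 => ?_⟩
        rw [hh h h1 h2]
        have hdj : d j ≤ 0 := hmax j (fun τ => by
          have := hglob τ
          rw [← hτ'] at this
          exact this)
        nlinarith
      · simp only [not_exists] at hrow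
        obtain ⟨h0, h0pos, hh⟩ := hsd0 τ hrow
        exact ⟨h0, h0pos, fun h h1 h2 => (hh h h1 h2).ge⟩
    obtain ⟨h0, h0pos, hh⟩ := key
    refine ⟨h0, h0pos, ?_⟩
    intro τ' hτ'2
    rw [Metric.mem_ball, Real.dist_eq] at hτ'2
    have h1 := hh |τ' - τ| (abs_nonneg _) hτ'2.le
    have h2 := hglob (τ + |τ' - τ|)
    have h3 := hglob (τ - |τ' - τ|)
    have e1 : f (τ + |τ' - τ|) = f τs := by linarith
    have e2 : f (τ - |τ' - τ|) = f τs := by linarith
    show f τ' = f τs
    rcases le_total 0 (τ' - τ) with h4 | h4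
    · rw [abs_of_nonneg h4] at e1
      rwa [show τ + (τ' - τ) = τ' by ring] at e1
    · rw [abs_of_nonpos h4] at e2
      rwa [show τ - -(τ' - τ) = τ' by ring] at e2
  have hZu : Z = Set.univ := IsClopen.eq_univ ⟨hZc, hZo⟩ ⟨τs, rfl⟩
  have hconst : ∀ τ, f τ = f τs := fun τ => by
    have : τ ∈ Z := hZu ▸ Set.mem_univ τ
    exact this
  refine ⟨fun τ τ' => (hconst τ).trans (hconst τ').symm, ?_⟩
  intro j
  obtain ⟨h0, h0pos, hh⟩ := hsd1 j
  have := hh h0 h0pos.le le_rfl
  rw [hconst (t j + h0), hconst (t j - h0), hconst (t j)] at this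
  have h2 : d j * h0 = 0 := by linarith
  rcases mul_eq_zero.1 h2 with h | h
  · exact h
  · exact absurd h h0pos.ne'


lemma sd_lower (f : ℝ → ℝ) (x h δ : ℝ) (hh : 0 < h)
    (hf : IntervalIntegrable f volume (x - h) (x + h))
    (hs : ∀ s ∈ Set.Ioo 0 h, -(2 * δ * s) ≤ f (x + s) - f (x - s)) :
    -(δ * h ^ 2) ≤ (∫ u in x..(x + h), f u) - ∫ u in (x - h)..x, f u := by
  have h1 : IntervalIntegrable f volume x (x + h) :=
    hf.mono_set (Set.uIcc_subset_uIcc (Set.mem_uIcc.2 (Or.inl ⟨by linarith, by linarith⟩))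
      Set.right_mem_uIcc)
  have h2 : IntervalIntegrable f volume (x - h) x :=
    hf.mono_set (Set.uIcc_subset_uIcc Set.left_mem_uIcc
      (Set.mem_uIcc.2 (Or.inl ⟨by linarith, by linarith⟩)))
  have e1 : ∫ u in x..(x + h), f u = ∫ s in (0:ℝ)..h, f (x + s) := by
    rw [intervalIntegral.integral_comp_add_left]; simp
  have e2 : ∫ u in (x - h)..x, f u = ∫ s in (0:ℝ)..h, f (x - s) := by
    rw [intervalIntegral.integral_comp_sub_left]; simp
  have i1 : IntervalIntegrable (fun s => f (x + s)) volume 0 h := by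
    have := h1.comp_add_left x
    simpa using this
  have i2 : IntervalIntegrable (fun s => f (x - s)) volume 0 h := by
    have := (h2.comp_sub_left x).symm
    simpa using this
  rw [e1, e2, ← intervalIntegral.integral_sub i1 i2]
  have e3 : ∫ s in (0:ℝ)..h, -(2 * δ * s) = -(δ * h ^ 2) := by
    rw [intervalIntegral.integral_neg, intervalIntegral.integral_const_mul, integral_id]
    ring
  rw [← e3]
  apply intervalIntegral.integral_mono_on_of_le_Ioo hh.le _ (i1.sub i2) hs
  exact (Continuous.intervalIntegrable (by fun_prop) _ _)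

lemma sd_upper (f : ℝ → ℝ) (x h δ : ℝ) (hh : 0 < h)
    (hf : IntervalIntegrable f volume (x - h) (x + h))
    (hs : ∀ s ∈ Set.Ioo 0 h, f (x + s) - f (x - s) ≤ 2 * δ * s) :
    (∫ u in x..(x + h), f u) - ∫ u in (x - h)..x, f u ≤ δ * h ^ 2 := by
  have := sd_lower (fun u => - f u) x h δ hh hf.neg (fun s hs' => by
    have := hs s hs'
    linarith)
  rw [intervalIntegral.integral_neg, intervalIntegral.integral_neg] at this
  linarith

/-- Abstract two-point maximum principle. -/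
theorem two_point_max {ι : Type} [Fintype ι] [Nonempty ι] (a0 b0 δ : ℝ) (hab : a0 < b0)
    (t : ι → ℝ) (ht : Function.Injective t)
    (p : ι → ℝ → ℝ) (hpint : ∀ i, IntervalIntegrable (p i) volume a0 b0)
    (L L' : ι → ℝ → ℝ) (m : ι → ℝ)
    (hL0 : ∀ i, L i a0 = 0) (hL0' : ∀ i, L' i a0 = 0)
    (hL1 : ∀ i, L i b0 = m i) (hL1' : ∀ i, L' i b0 = m i)
    (hLr : ∀ i c, 0 ≤ L i c ∧ L i c ≤ m i) (hLr' : ∀ i c, 0 ≤ L' i c ∧ L' i c ≤ m i)
    (cc : ℝ → ℝ → ℝ)
    (hF : ∀ a b, a0 ≤ a → a ≤ b → b ≤ b0 → ∀ i, ∫ s in a..b, p i s =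
      cc a b - ∑ j, ((L' j b - L' j a) - (L j b - L j a)) * max (t i - t j) 0)
    (hsum : ∀ a b, a0 ≤ a → a ≤ b → b ≤ b0 → ∑ j, ((L' j b - L' j a) - (L j b - L j a)) = 0)
    (hnorm : cc a0 b0 = 0)
    (hslopeb : ∀ i, ∀ b ∈ Set.Ioo a0 b0, 0 < L' i b → L i b < m i →
      ∃ h0 > 0, ∀ s ∈ Set.Ioo 0 h0, -(2 * δ * s) ≤ p i (b + s) - p i (b - s))
    (hslopea : ∀ i, ∀ a ∈ Set.Ioo a0 b0, L' i a < m i → 0 < L i a →
      ∃ h0 > 0, ∀ s ∈ Set.Ioo 0 h0, p i (a + s) - p i (a - s) ≤ 2 * δ * s)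
    (hgeom : ∀ c ∈ Set.Ioo a0 b0, ∃ j, 0 < L j c ∧ L j c < m j) :
    ∀ a b, a0 ≤ a → a ≤ b → b ≤ b0 → ∀ i,
      ∫ s in a..b, p i s ≤ δ * ((b - a) * ((b0 - a0) - (b - a)) / 2) := by
  classical
  set θ : ℝ → ℝ := fun r => r * ((b0 - a0) - r) / 2 with hθ
  suffices H : ∀ δ' > δ, ∀ a b, a0 ≤ a → a ≤ b → b ≤ b0 → ∀ i,
      ∫ s in a..b, p i s ≤ δ' * θ (b - a) by
    intro a b ha hab' hb i
    have hθ0 : 0 ≤ θ (b - a) := by
      simp only [hθ]
      have h1 : 0 ≤ b - a := by linarith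
      have h2 : 0 ≤ (b0 - a0) - (b - a) := by linarith
      positivity
    apply le_of_forall_pos_le_add
    intro ε hε
    have h3 := H (δ + ε / (θ (b - a) + 1)) (by
      have : 0 < ε / (θ (b - a) + 1) := by positivity
      linarith) a b ha hab' hb i
    have h4 : ε / (θ (b - a) + 1) * θ (b - a) ≤ ε := by
      rw [div_mul_eq_mul_div, div_le_iff₀ (by positivity)]
      nlinarith
    calc ∫ s in a..b, p i s ≤ (δ + ε / (θ (b - a) + 1)) * θ (b - a) := h3
      _ = δ * θ (b - a) + ε / (θ (b - a) + 1) * θ (b - a) := by ring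
      _ ≤ δ * θ (b - a) + ε := by linarith
  intro δ' hδ'
  have hint : ∀ i x y, a0 ≤ x → x ≤ b0 → a0 ≤ y → y ≤ b0 → IntervalIntegrable (p i) volume x y := by
    intro i x y h1 h2 h3 h4
    exact (hpint i).mono_set (Set.uIcc_subset_uIcc (Set.mem_uIcc.2 (Or.inl ⟨h1, h2⟩))
      (Set.mem_uIcc.2 (Or.inl ⟨h3, h4⟩)))
  set Pr : ι → ℝ → ℝ := fun i x => ∫ s in a0..x, p i s with hPrdef
  have hPr : ∀ i x y, a0 ≤ x → x ≤ b0 → a0 ≤ y → y ≤ b0 →
      ∫ s in x..y, p i s = Pr i y - Pr i x := by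
    intro i x y h1 h2 h3 h4
    exact (intervalIntegral.integral_interval_sub_left (hint i a0 y le_rfl hab.le h3 h4)
      (hint i a0 x le_rfl hab.le h1 h2)).symm
  have hPrc : ∀ i, ContinuousOn (Pr i) (Set.Icc a0 b0) := by
    intro i
    have := intervalIntegral.continuousOn_primitive_interval' (hpint i) Set.left_mem_uIcc
    rwa [Set.uIcc_of_le hab.le] at this
  set W : ι → ℝ × ℝ → ℝ := fun i q => Pr i q.2 - Pr i q.1 - δ' * θ (q.2 - q.1) with hW
  set Δ : Set (ℝ × ℝ) := {q | a0 ≤ q.1 ∧ q.1 ≤ q.2 ∧ q.2 ≤ b0} with hΔ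
  have hΔc : IsCompact Δ := by
    apply IsCompact.of_isClosed_subset
      ((isCompact_Icc (a := a0) (b := b0)).prod (isCompact_Icc (a := a0) (b := b0)))
    · have c1 : IsClosed {q : ℝ × ℝ | a0 ≤ q.1} := isClosed_le continuous_const continuous_fst
      have c2 : IsClosed {q : ℝ × ℝ | q.1 ≤ q.2} := isClosed_le continuous_fst continuous_snd
      have c3 : IsClosed {q : ℝ × ℝ | q.2 ≤ b0} := isClosed_le continuous_snd continuous_const
      exact c1.inter (c2.inter c3)
    · rintro q ⟨h1, h2, h3⟩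
      exact ⟨⟨h1, h2.trans h3⟩, ⟨h1.trans h2, h3⟩⟩
  have hWc : ∀ i, ContinuousOn (W i) Δ := by
    intro i
    have c1 : ContinuousOn (fun q : ℝ × ℝ => Pr i q.2) Δ :=
      (hPrc i).comp continuous_snd.continuousOn (fun q hq => ⟨hq.1.trans hq.2.1, hq.2.2⟩)
    have c2 : ContinuousOn (fun q : ℝ × ℝ => Pr i q.1) Δ :=
      (hPrc i).comp continuous_fst.continuousOn (fun q hq => ⟨hq.1, hq.2.1.trans hq.2.2⟩)
    have c3 : Continuous (fun q : ℝ × ℝ => δ' * θ (q.2 - q.1)) := by
      simp only [hθ]; fun_prop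
    exact (c1.sub c2).sub c3.continuousOn
  have hne : Δ.Nonempty := ⟨(a0, a0), le_rfl, le_rfl, hab.le⟩
  have hex : ∀ i, ∃ q ∈ Δ, IsMaxOn (W i) Δ q := fun i => hΔc.exists_isMaxOn hne (hWc i)
  choose qq hqq hqmax using hex
  obtain ⟨i, _, hi⟩ := Finset.exists_max_image Finset.univ (fun i => W i (qq i))
    Finset.univ_nonempty
  have hmax : ∀ i' q', q' ∈ Δ → W i' q' ≤ W i (qq i) := fun i' q' hq' =>
    (hqmax i' hq').trans (hi i' (Finset.mem_univ _))
  set a := (qq i).1 with ha_def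
  set b := (qq i).2 with hb_def
  have hq : a0 ≤ a ∧ a ≤ b ∧ b ≤ b0 := hqq i
  set M := W i (qq i) with hM
  have hMval : M = Pr i b - Pr i a - δ' * θ (b - a) := rfl
  by_cases hM0 : M ≤ 0
  · intro a' b' h1 h2 h3 i'
    have h4 := hmax i' (a', b') ⟨h1, h2, h3⟩
    have e := hPr i' a' b' h1 (h2.trans h3) (h1.trans h2) h3
    have h5 : W i' (a', b') = Pr i' b' - Pr i' a' - δ' * θ (b' - a') := rfl
    linarith
  exfalso
  have hMpos : 0 < M := not_le.1 hM0
  have hab2 : a < b := by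
    rcases hq.2.1.lt_or_eq with h | h
    · exact h
    · exfalso
      have : M = 0 := by
        rw [hMval, ← h]
        simp [hθ]
      linarith
  set dd : ι → ℝ := fun j => (L' j b - L' j a) - (L j b - L j a) with hdd
  have hWab : ∀ j, W j (a, b) = Pr j b - Pr j a - δ' * θ (b - a) := fun j => rfl
  have hrow : ∀ j, W j (a, b) = cc a b - ∑ l, dd l * max (t j - t l) 0 - δ' * θ (b - a) := by
    intro j
    have h1 := hF a b hq.1 hq.2.1 hq.2.2 j
    rw [hPr j a b hq.1 (hq.2.1.trans hq.2.2) (hq.1.trans hq.2.1) hq.2.2] at h1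
    rw [hWab j, h1]
  have hnot : ¬ (a = a0 ∧ b = b0) := by
    rintro ⟨h1, h2⟩
    have h3 := hrow i
    have h4 : ∀ l, dd l = 0 := by
      intro l
      simp only [hdd, h1, h2, hL0, hL0', hL1, hL1']
      ring
    have h5 : W i (a, b) = M := rfl
    rw [h5] at h3
    simp only [h4, zero_mul, Finset.sum_const_zero, sub_zero] at h3
    rw [h1, h2, hnorm] at h3
    have h6 : θ (b0 - a0) = 0 := by simp [hθ]
    rw [h6] at h3
    linarith
  have stepB : ∀ j, W j (a, b) = M → b < b0 → ¬ (0 < L' j b ∧ L j b < m j) := by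
    rintro j hj hb ⟨h1, h2⟩
    obtain ⟨h0, h0pos, hs⟩ := hslopeb j b ⟨by linarith [hq.1], hb⟩ h1 h2
    set h := min h0 (min (b0 - b) (b - a)) with hh
    have hpos : 0 < h := lt_min h0pos (lt_min (by linarith) (by linarith))
    have hle0 : h ≤ h0 := min_le_left _ _
    have hle1 : h ≤ b0 - b := (min_le_right _ _).trans (min_le_left _ _)
    have hle2 : h ≤ b - a := (min_le_right _ _).trans (min_le_right _ _)
    have m1 := hmax j (a, b + h) ⟨hq.1, by show a ≤ b + h; linarith, by show b + h ≤ b0; linarith⟩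
    have m2 := hmax j (a, b - h) ⟨hq.1, by show a ≤ b - h; linarith, by show b - h ≤ b0; linarith⟩
    have lower := sd_lower (p j) b h δ hpos
      (hint j (b - h) (b + h) (by linarith [hq.1]) (by linarith) (by linarith [hq.1]) (by linarith))
      (fun s hs' => hs s ⟨hs'.1, hs'.2.trans_le hle0⟩)
    rw [hPr j b (b + h) (by linarith [hq.1]) (by linarith) (by linarith [hq.1]) (by linarith),
      hPr j (b - h) b (by linarith [hq.1]) (by linarith) (by linarith [hq.1]) (by linarith)] at lower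
    have e1 : W j (a, b + h) = Pr j (b + h) - Pr j a - δ' * θ (b + h - a) := rfl
    have e2 : W j (a, b - h) = Pr j (b - h) - Pr j a - δ' * θ (b - h - a) := rfl
    have hθ2 : θ (b + h - a) + θ (b - h - a) - 2 * θ (b - a) = - h ^ 2 := by
      simp only [hθ]; ring
    rw [e1] at m1
    rw [e2] at m2
    rw [hWab j] at hj
    have h3 : 0 < (δ' - δ) * h ^ 2 := mul_pos (sub_pos.2 hδ') (pow_pos hpos 2)
    have h4 : δ' * (θ (b + h - a) + θ (b - h - a) - 2 * θ (b - a)) = - (δ' * h ^ 2) := by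
      rw [hθ2]; ring
    nlinarith
  have stepA : ∀ j, W j (a, b) = M → a0 < a → ¬ (L' j a < m j ∧ 0 < L j a) := by
    rintro j hj ha ⟨h1, h2⟩
    obtain ⟨h0, h0pos, hs⟩ := hslopea j a ⟨ha, by linarith [hq.2.2]⟩ h1 h2
    set h := min h0 (min (a - a0) (b - a)) with hh
    have hpos : 0 < h := lt_min h0pos (lt_min (by linarith) (by linarith))
    have hle0 : h ≤ h0 := min_le_left _ _
    have hle1 : h ≤ a - a0 := (min_le_right _ _).trans (min_le_left _ _)
    have hle2 : h ≤ b - a := (min_le_right _ _).trans (min_le_right _ _)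
    have m1 := hmax j (a + h, b) ⟨by show a0 ≤ a + h; linarith, by show a + h ≤ b; linarith, hq.2.2⟩
    have m2 := hmax j (a - h, b) ⟨by show a0 ≤ a - h; linarith, by show a - h ≤ b; linarith, hq.2.2⟩
    have upper := sd_upper (p j) a h δ hpos
      (hint j (a - h) (a + h) (by linarith) (by linarith [hq.2.2]) (by linarith) (by linarith [hq.2.2]))
      (fun s hs' => hs s ⟨hs'.1, hs'.2.trans_le hle0⟩)
    rw [hPr j a (a + h) (by linarith) (by linarith [hq.2.2]) (by linarith) (by linarith [hq.2.2]),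
      hPr j (a - h) a (by linarith) (by linarith [hq.2.2]) (by linarith) (by linarith [hq.2.2])] at upper
    have e1 : W j (a + h, b) = Pr j b - Pr j (a + h) - δ' * θ (b - (a + h)) := rfl
    have e2 : W j (a - h, b) = Pr j b - Pr j (a - h) - δ' * θ (b - (a - h)) := rfl
    have hθ2 : θ (b - (a + h)) + θ (b - (a - h)) - 2 * θ (b - a) = - h ^ 2 := by
      simp only [hθ]; ring
    rw [e1] at m1
    rw [e2] at m2
    rw [hWab j] at hj
    have h3 : 0 < (δ' - δ) * h ^ 2 := mul_pos (sub_pos.2 hδ') (pow_pos hpos 2)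
    have h4 : δ' * (θ (b - (a + h)) + θ (b - (a - h)) - 2 * θ (b - a)) = - (δ' * h ^ 2) := by
      rw [hθ2]; ring
    nlinarith
  have hcmp : ∀ j, W j (a, b) = M → L' j b ≤ L j b ∧ L j a ≤ L' j a := by
    intro j hj
    constructor
    · rcases hq.2.2.lt_or_eq with hb | hb
      · have h1 := stepB j hj hb
        by_cases h2 : 0 < L' j b
        · have h3 : m j ≤ L j b := not_lt.1 (fun h => h1 ⟨h2, h⟩)
          exact (hLr' j b).2.trans h3
        · exact (not_lt.1 h2).trans (hLr j b).1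
      · rw [hb, hL1, hL1']
    · rcases hq.1.lt_or_eq with ha | ha
      · have h1 := stepA j hj ha
        by_cases h2 : 0 < L j a
        · have h3 : m j ≤ L' j a := not_lt.1 (fun h => h1 ⟨h, h2⟩)
          exact (hLr j a).2.trans h3
        · exact (not_lt.1 h2).trans (hLr' j a).1
      · rw [← ha, hL0, hL0']
  obtain ⟨hconst, hd0⟩ := pl_const t dd ht (cc a b) (hsum a b hq.1 hq.2.1 hq.2.2) (by
    intro j hj
    have h1 := hj (t i)
    have h2 : W j (a, b) = M := by
      apply le_antisymm (hmax j (a, b) hq)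
      have h3 : M = W i (a, b) := rfl
      rw [h3, hrow i, hrow j]
      linarith
    have h3 := hcmp j h2
    simp only [hdd]
    linarith [h3.1, h3.2])
  have hall : ∀ j, W j (a, b) = M := by
    intro j
    have h3 : M = W i (a, b) := rfl
    rw [h3, hrow i, hrow j, hconst (t j) (t i)]
  have heq : ∀ j, L' j b = L j b ∧ L j a = L' j a := by
    intro j
    have h1 := hcmp j (hall j)
    have h2 : (L' j b - L' j a) - (L j b - L j a) = 0 := hd0 j
    constructor <;> linarith [h1.1, h1.2]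
  rcases hq.2.2.lt_or_eq with hb | hb
  · obtain ⟨j, hj1, hj2⟩ := hgeom b ⟨by linarith [hq.1], hb⟩
    exact stepB j (hall j) hb ⟨by rw [(heq j).1]; exact hj1, hj2⟩
  · rcases hq.1.lt_or_eq with ha | ha
    · obtain ⟨j, hj1, hj2⟩ := hgeom a ⟨ha, by linarith⟩
      exact stepA j (hall j) ha ⟨by rw [← (heq j).2]; exact hj2, hj1⟩
    · exact hnot ⟨ha.symm, hb⟩

end Vale.Agent.Lib.P074t
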