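import Vale.Agent.Lib.P074t.Section
import Vale.Agent.Lib.P074t.Fubini
import Vale.Agent.Lib.P074t.Geom
import Vale.Agent.Lib.P074t.MaxPrinciple
import Vale.Agent.Lib.P074t.CoreA
import Vale.Agent.Lib.P074t.CoreB
import Vale.Agent.Lib.P074t.CoreC

open MeasureTheory

namespace Vale.Agent.Lib.P074t

variable {ι : Type} [Fintype ι] {K : Set (ℝ × ℝ)}

/-- One-sided version of the sup-norm stability, with a given normalising function `cc`. -/
theorem E3half [Nonempty ι] (hK : IsCompact K) (hKc : Convex ℝ K) (hKi : (interior K).Nonempty)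
    (η η' t w w' : ι → ℝ) (ht : Function.Injective t) (δ : ℝ) (he : ∀ i, |η' i - η i| ≤ δ)
    (hmass : ∀ i, volume (cell K η t w i) = volume (cell K η' t w' i))
    {a0 b0 : ℝ} (hab : a0 < b0) (hr : Prod.fst '' K = Set.Icc a0 b0) (cc : ℝ → ℝ → ℝ)
    (hcc : ∀ a b, a0 ≤ a → a ≤ b → b ≤ b0 → ∀ i,
        ∫ s in a..b, (PL K η' t w' s (t i) - PL K η t w s (t i)) =
          cc a b - ∑ j, ((Lm K η' t w' j b - Lm K η' t w' j a) -
            (Lm K η t w j b - Lm K η t w j a)) * max (t i - t j) 0)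
    (hsum : ∀ a b, a0 ≤ a → a ≤ b → b ≤ b0 →
        ∑ j, ((Lm K η' t w' j b - Lm K η' t w' j a) - (Lm K η t w j b - Lm K η t w j a)) = 0) :
    ∀ p ∈ K, pot η' t w' p.1 p.2 - pot η t w p.1 p.2 - cc a0 b0 / (b0 - a0) ≤
      δ * ((b0 - a0) / 2) := by
  have hδ : 0 ≤ δ := (abs_nonneg _).trans (he (Classical.arbitrary ι))
  have hw : 0 < b0 - a0 := sub_pos.2 hab
  set c0 := cc a0 b0 / (b0 - a0) with hc0
  have hmass' : ∀ i, mass K η' t w' i = mass K η t w i := fun i => by
    simp only [mass, hmass i]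
  have hI : ∀ i, IntervalIntegrable
      (fun s => PL K η' t w' s (t i) - PL K η t w s (t i)) volume a0 b0 := fun i =>
    (PL_intervalIntegrable hK hKc η' t w' hr (t i)).sub (PL_intervalIntegrable hK hKc η t w hr (t i))
  have hIsub : ∀ i a b, a0 ≤ a → a ≤ b → b ≤ b0 → IntervalIntegrable
      (fun s => PL K η' t w' s (t i) - PL K η t w s (t i)) volume a b := by
    intro i a b h1 h2 h3
    exact (hI i).mono_set (Set.uIcc_subset_uIcc (Set.mem_uIcc.2 (Or.inl ⟨h1, h2.trans h3⟩))
      (Set.mem_uIcc.2 (Or.inl ⟨h1.trans h2, h3⟩)))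
  have key := two_point_max a0 b0 δ hab t ht
    (fun i s => PL K η' t w' s (t i) - PL K η t w s (t i) - c0)
    (fun i => (hI i).sub intervalIntegrable_const)
    (fun i c => Lm K η t w i c) (fun i c => Lm K η' t w' i c) (fun i => mass K η t w i)
    (fun i => Lm_left hK η t w i hr) (fun i => Lm_left hK η' t w' i hr)
    (fun i => Lm_right hK η t w i hr)
    (fun i => (Lm_right hK η' t w' i hr).trans (hmass' i))
    (fun i c => ⟨Lm_nonneg η t w i c, Lm_le_mass hK η t w i c⟩)
    (fun i c => ⟨Lm_nonneg η' t w' i c, (Lm_le_mass hK η' t w' i c).trans (hmass' i).le⟩)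
    (fun a b => cc a b - c0 * (b - a))
    (by
      intro a b h1 h2 h3 i
      rw [intervalIntegral.integral_sub (hIsub i a b h1 h2 h3) intervalIntegrable_const,
        hcc a b h1 h2 h3 i, intervalIntegral.integral_const, smul_eq_mul]
      ring)
    hsum
    (by
      rw [hc0]
      field_simp
      ring)
    (by
      intro i b _ h1 h2
      exact coreB_b hK hKc η η' t w w' δ he i h1 h2 c0)
    (by
      intro i a _ h1 h2
      exact coreB_a hK hKc η η' t w w' δ he i (by rw [hmass' i]; exact h1) h2 c0)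
    (fun c hc => exists_crossing hK hKc hKi η t w ht hr hc)
  apply coreC hK hKc η η' t w w' hr hab c0 (δ * ((b0 - a0) / 2))
  intro a b h1 h2 h3 i
  refine (key a b h1 h2 h3 i).trans ?_
  have h4 : 0 ≤ b - a := sub_nonneg.2 h2
  have h5 : (b - a) * ((b0 - a0) - (b - a)) / 2 ≤ (b0 - a0) / 2 * (b - a) := by nlinarith
  calc δ * ((b - a) * ((b0 - a0) - (b - a)) / 2) ≤ δ * ((b0 - a0) / 2 * (b - a)) :=
        mul_le_mul_of_nonneg_left h5 hδ
    _ = δ * ((b0 - a0) / 2) * (b - a) := by ring

/-- Sup-norm stability of planar piecewise affine potentials under horizontal moves of the atoms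
(rows pairwise distinct, equal cell areas). -/
theorem E3core [Nonempty ι] (hK : IsCompact K) (hKc : Convex ℝ K) (hKi : (interior K).Nonempty)
    (η η' t w w' : ι → ℝ) (ht : Function.Injective t) (δ : ℝ) (he : ∀ i, |η' i - η i| ≤ δ)
    (D : ℝ) (hD : ∀ p ∈ K, ∀ q ∈ K, |p.1 - q.1| ≤ D)
    (hmass : ∀ i, volume (cell K η t w i) = volume (cell K η' t w' i)) :
    ∃ c, ∀ p ∈ K, |pot η' t w' p.1 p.2 - pot η t w p.1 p.2 - c| ≤ δ * D := by
  obtain ⟨a0, b0, hab, hr⟩ := fst_image_eq hK hKc hKi
  obtain ⟨cc, hcc, hsum⟩ := coreA hK hKc η η' t w w' ht hr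
  have hδ : 0 ≤ δ := (abs_nonneg _).trans (he (Classical.arbitrary ι))
  have hw : 0 < b0 - a0 := sub_pos.2 hab
  have hwD : b0 - a0 ≤ D := by
    have ha : a0 ∈ Prod.fst '' K := hr ▸ Set.left_mem_Icc.2 hab.le
    have hb : b0 ∈ Prod.fst '' K := hr ▸ Set.right_mem_Icc.2 hab.le
    obtain ⟨pa, hpa, ea⟩ := ha
    obtain ⟨pb, hpb, eb⟩ := hb
    have := hD pb hpb pa hpa
    rw [ea, eb] at this
    exact (le_abs_self _).trans this
  have hbound : δ * ((b0 - a0) / 2) ≤ δ * D := by
    apply mul_le_mul_of_nonneg_left _ hδ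
    linarith
  have up := E3half hK hKc hKi η η' t w w' ht δ he hmass hab hr cc hcc hsum
  have dn := E3half hK hKc hKi η' η t w' w ht δ (fun i => by rw [abs_sub_comm]; exact he i)
    (fun i => (hmass i).symm) hab hr (fun a b => - cc a b)
    (by
      intro a b h1 h2 h3 i
      have e1 : ∫ s in a..b, (PL K η t w s (t i) - PL K η' t w' s (t i)) =
          - ∫ s in a..b, (PL K η' t w' s (t i) - PL K η t w s (t i)) := by
        rw [← intervalIntegral.integral_neg]
        congr 1
        funext s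
        ring
      rw [e1, hcc a b h1 h2 h3 i, neg_sub, sub_eq_add_neg (-cc a b), ← Finset.sum_neg_distrib,
        add_comm, sub_eq_add_neg]
      congr 1
      apply Finset.sum_congr rfl
      intro j _
      ring)
    (by
      intro a b h1 h2 h3
      have := hsum a b h1 h2 h3
      have e2 : ∑ j, ((Lm K η t w j b - Lm K η t w j a) -
          (Lm K η' t w' j b - Lm K η' t w' j a)) =
          - ∑ j, ((Lm K η' t w' j b - Lm K η' t w' j a) - (Lm K η t w j b - Lm K η t w j a)) := by
        rw [← Finset.sum_neg_distrib]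
        apply Finset.sum_congr rfl
        intro j _
        ring
      rw [e2, this, neg_zero])
  refine ⟨cc a0 b0 / (b0 - a0), ?_⟩
  intro p hp
  have h1 := up p hp
  have h2 := dn p hp
  rw [neg_div] at h2
  rw [abs_le]
  constructor <;> linarith

end Vale.Agent.Lib.P074t
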