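import Mathlib

/-!
Planar power diagrams in mixed coordinates: definitions for the sup-norm stability of
potentials under horizontal moves of the atoms (dimension two).
-/

open MeasureTheory

namespace Vale.Agent.Lib.P074t

variable {ι : Type} [Fintype ι]

/-- The affine piece `η i * s + t i * z - w i`. -/
def aff (η t w : ι → ℝ) (i : ι) (s z : ℝ) : ℝ := η i * s + t i * z - w i

/-- The piecewise affine convex potential. -/
noncomputable def pot (η t w : ι → ℝ) (s z : ℝ) : ℝ := ⨆ i, aff η t w i s z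

/-- Vertical section of a planar set. -/
def sec (K : Set (ℝ × ℝ)) (s : ℝ) : Set ℝ := {z | (s, z) ∈ K}

/-- The cell of index `i` inside `K`. -/
def cell (K : Set (ℝ × ℝ)) (η t w : ι → ℝ) (i : ι) : Set (ℝ × ℝ) :=
  {p | p ∈ K ∧ ∀ j, aff η t w j p.1 p.2 ≤ aff η t w i p.1 p.2}

/-- Length of the vertical section of the cell. -/
noncomputable def tau (K : Set (ℝ × ℝ)) (η t w : ι → ℝ) (i : ι) (s : ℝ) : ℝ :=
  (volume (sec (cell K η t w i) s)).toReal

/-- Legendre transform in the second variable only. -/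
noncomputable def PL (K : Set (ℝ × ℝ)) (η t w : ι → ℝ) (s τ : ℝ) : ℝ :=
  sInf ((fun z => pot η t w s z - τ * z) '' sec K s)

/-- Area of the part of the cell to the left of the line `p.1 = c`. -/
noncomputable def Lm (K : Set (ℝ × ℝ)) (η t w : ι → ℝ) (i : ι) (c : ℝ) : ℝ :=
  (volume (cell K η t w i ∩ {p | p.1 ≤ c})).toReal

/-- Area of the cell. -/
noncomputable def mass (K : Set (ℝ × ℝ)) (η t w : ι → ℝ) (i : ι) : ℝ :=
  (volume (cell K η t w i)).toReal

/-- Lowest point of the vertical section. -/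
noncomputable def bot (K : Set (ℝ × ℝ)) (s : ℝ) : ℝ := sInf (sec K s)

/-- The gap function of row `i`. -/
noncomputable def G (K : Set (ℝ × ℝ)) (η t w : ι → ℝ) (i : ι) (s : ℝ) : ℝ :=
  PL K η t w s (t i) - (η i * s - w i)

end Vale.Agent.Lib.P074t
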