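import Vale.Agent.Lib.P074e.SupToL2Sub

open MeasureTheory
open scoped NNReal RealInnerProductSpace

namespace Vale.Agent.Lib.P074t

open Vale.Agent.Lib.P074q (E)

/-- Sup-norm closeness of two convex Lipschitz potentials on a convex body implies `L²` closeness
of their subgradient maps, linearly in the sup-norm (finite differences, no logarithm). -/
theorem sup_to_L2 {d : ℕ} (K : Set (E d)) (hK : IsCompact K) (hKc : Convex ℝ K)
    (hKi : (interior K).Nonempty) (R : ℝ≥0) :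
    ∃ C : ℝ, 0 ≤ C ∧ ∀ (a a' : E d → ℝ), LipschitzWith R a → LipschitzWith R a' →
      (∀ x w, 2 * a x ≤ a (x + w) + a (x - w)) → (∀ x w, 2 * a' x ≤ a' (x + w) + a' (x - w)) →
      ∀ T S : E d → E d, Measurable T → Measurable S →
      (∀ᵐ x ∂(volume.restrict K), ∀ z, a x + ⟪T x, z - x⟫ ≤ a z) →
      (∀ᵐ x ∂(volume.restrict K), ∀ z, a' x + ⟪S x, z - x⟫ ≤ a' z) →
      ∀ ε c : ℝ, 0 < ε → (∀ x ∈ K, |a' x - a x - c| ≤ ε) →
      ∫ x in K, ‖T x - S x‖ ^ 2 ≤ C * ε := by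
  obtain ⟨C, hC0, hC⟩ := Vale.Agent.Lib.P074e.sup_to_L2_sub K hK hKc hKi R
  exact ⟨C, hC0, fun a a' la la' _ _ T S hT hS t1 t2 ε c _ hk =>
    hC a a' la la' T S hT hS t1 t2 ε c hk⟩

end Vale.Agent.Lib.P074t
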