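import Vale.Agent.Lib.P074t.Plane
import Vale.Agent.Lib.P074t.SupToL2
import Vale.Agent.Lib.P074b.Defs

open MeasureTheory
open scoped NNReal RealInnerProductSpace

namespace Vale.Agent.Lib.P074t

open Vale.Agent.Lib.P074q (E)
open Vale.Agent.Lib.P074b (unif)

section aux

variable {d : ℕ} {ι : Type} [Fintype ι] [Nonempty ι]

lemma supPot_ge (P : ι → E d) (w : ι → ℝ) (x : E d) (i : ι) :
    ⟪x, P i⟫ - w i ≤ ⨆ i, (⟪x, P i⟫ - w i) :=
  le_ciSup (f := fun i => ⟪x, P i⟫ - w i) (Set.finite_range _).bddAbove i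

lemma supPot_lipschitz (P : ι → E d) (w : ι → ℝ) (R : ℝ≥0) (hP : ∀ i, ‖P i‖ ≤ R) :
    LipschitzWith R (fun x : E d => ⨆ i, (⟪x, P i⟫ - w i)) := by
  apply LipschitzWith.of_le_add_mul
  intro x y
  apply ciSup_le
  intro i
  have h1 := supPot_ge P w y i
  have h2 : ⟪x - y, P i⟫ ≤ ‖x - y‖ * ‖P i‖ := real_inner_le_norm _ _
  have h3 : ‖x - y‖ * ‖P i‖ ≤ ‖x - y‖ * R := mul_le_mul_of_nonneg_left (hP i) (norm_nonneg _)
  rw [inner_sub_left] at h2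
  rw [dist_eq_norm]
  linarith

lemma supPot_subgrad (P : ι → E d) (w : ι → ℝ) {x t : E d}
    (h : ∃ i, t = P i ∧ ∀ j, ⟪x, P j⟫ - w j ≤ ⟪x, P i⟫ - w i) (z : E d) :
    (⨆ i, (⟪x, P i⟫ - w i)) + ⟪t, z - x⟫ ≤ ⨆ i, (⟪z, P i⟫ - w i) := by
  obtain ⟨i, rfl, hi⟩ := h
  have h1 : (⨆ i, (⟪x, P i⟫ - w i)) ≤ ⟪x, P i⟫ - w i := ciSup_le hi
  have h2 := supPot_ge P w z i
  rw [inner_sub_right, real_inner_comm z, real_inner_comm x]
  linarith

lemma ae_unif_iff {K : Set (E d)} (hvT : volume K ≠ ⊤) {p : E d → Prop} :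
    (∀ᵐ x ∂(unif K), p x) ↔ ∀ᵐ x ∂(volume.restrict K), p x := by
  unfold unif
  exact Measure.ae_ennreal_smul_measure_iff (ENNReal.inv_ne_zero.mpr hvT)

lemma eLpNorm_unif_le {K : Set (E d)} (hv0 : volume K ≠ 0) (hvT : volume K ≠ ⊤) {f : E d → E d}
    (hf : Measurable f) {B : ℝ} (hB : ∀ᵐ x ∂(volume.restrict K), ‖f x‖ ≤ B) {X : ℝ}
    (hX : ∫ x in K, ‖f x‖ ^ 2 ≤ X) :
    eLpNorm f 2 (unif K) ≤ ENNReal.ofReal (Real.sqrt ((volume K).toReal⁻¹ * X)) := by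
  have hV : 0 < (volume K).toReal := ENNReal.toReal_pos hv0 hvT
  have hfin : IsFiniteMeasure (volume.restrict K) := ⟨by simpa using hvT.lt_top⟩
  have hint : Integrable (fun x => ‖f x‖ ^ 2) (volume.restrict K) := by
    refine Integrable.of_bound (hf.norm.pow_const 2).aestronglyMeasurable (B ^ 2) ?_
    filter_upwards [hB] with x hx
    rw [Real.norm_eq_abs, abs_of_nonneg (by positivity)]
    exact pow_le_pow_left₀ (norm_nonneg _) hx 2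
  rw [eLpNorm_eq_lintegral_rpow_enorm (by norm_num) (by norm_num)]
  simp only [ENNReal.toReal_ofNat]
  have e1 : ∫⁻ x, ‖f x‖ₑ ^ (2 : ℝ) ∂(unif K) =
      ENNReal.ofReal ((volume K).toReal⁻¹ * ∫ x in K, ‖f x‖ ^ 2) := by
    unfold unif
    rw [lintegral_smul_measure, ENNReal.ofReal_mul (inv_nonneg.mpr hV.le),
      ENNReal.ofReal_inv_of_pos hV, ENNReal.ofReal_toReal hvT,
      ofReal_integral_eq_lintegral_ofReal hint (Filter.Eventually.of_forall (fun x => by positivity))]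
    simp only [smul_eq_mul]
    congr 1
    apply lintegral_congr
    intro x
    rw [← ofReal_norm_eq_enorm, ENNReal.ofReal_rpow_of_nonneg (norm_nonneg _) (by norm_num)]
    norm_num
  rw [e1, ENNReal.ofReal_rpow_of_nonneg
    (mul_nonneg (inv_nonneg.mpr hV.le) (integral_nonneg (fun x => by positivity))) (by norm_num),
    ← Real.sqrt_eq_rpow]
  apply ENNReal.ofReal_le_ofReal
  apply Real.sqrt_le_sqrt
  exact mul_le_mul_of_nonneg_left hX (inv_nonneg.mpr hV.le)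

end aux

/-- `L²` stability, with exponent `1/2` in the sup-size of the move, for finitely supported
targets whose atoms are moved along one coordinate axis. -/
theorem E1_discrete (K : Set (E 2)) (hK : IsCompact K) (hKc : Convex ℝ K)
    (hKi : (interior K).Nonempty) (R : ℝ≥0) :
    ∃ C : ℝ≥0, ∀ (ι : Type) [Fintype ι] [Nonempty ι] (j0 j1 : Fin 2), j0 ≠ j1 →
      ∀ (P P' : ι → E 2) (w w' : ι → ℝ) (δ : ℝ), 0 < δ →
      (∀ i, ‖P i‖ ≤ R) → (∀ i, ‖P' i‖ ≤ R) →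
      (∀ i, P i j1 = P' i j1) → Function.Injective (fun i => P i j1) →
      (∀ i, |P i j0 - P' i j0| ≤ δ) →
      ∀ T S : E 2 → E 2, Measurable T → Measurable S →
      (∀ᵐ x ∂(unif K), ∃ i, T x = P i ∧ ∀ j, ⟪x, P j⟫ - w j ≤ ⟪x, P i⟫ - w i) →
      (∀ᵐ x ∂(unif K), ∃ i, S x = P' i ∧ ∀ j, ⟪x, P' j⟫ - w' j ≤ ⟪x, P' i⟫ - w' i) →
      (∀ i, unif K {x | ∀ j, ⟪x, P j⟫ - w j ≤ ⟪x, P i⟫ - w i} =
        unif K {x | ∀ j, ⟪x, P' j⟫ - w' j ≤ ⟪x, P' i⟫ - w' i}) →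
      eLpNorm (fun x => T x - S x) 2 (unif K) ≤ C * ENNReal.ofReal δ ^ (1 / 2 : ℝ) := by
  obtain ⟨D, hD0, hD⟩ := E3_plane K hK hKc hKi
  obtain ⟨C, hC0, hC⟩ := Vale.Agent.Lib.P074e.sup_to_L2_sub K hK hKc hKi R
  have hv0 : volume K ≠ 0 := (Measure.measure_pos_of_nonempty_interior volume hKi).ne'
  have hvT : volume K ≠ ⊤ := hK.measure_lt_top.ne
  have hV : 0 < (volume K).toReal := ENNReal.toReal_pos hv0 hvT
  refine ⟨Real.toNNReal (Real.sqrt ((volume K).toReal⁻¹ * (C * D))), ?_⟩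
  intro ι _ _ j0 j1 hj P P' w w' δ hδ hPR hP'R hrow hinj hmove T S hT hS hTs hSs hmass
  rw [ae_unif_iff hvT] at hTs hSs
  have la := supPot_lipschitz P w R hPR
  have la' := supPot_lipschitz P' w' R hP'R
  have t1 : ∀ᵐ x ∂(volume.restrict K), ∀ z,
      (⨆ i, (⟪x, P i⟫ - w i)) + ⟪T x, z - x⟫ ≤ ⨆ i, (⟪z, P i⟫ - w i) :=
    hTs.mono (fun x hx z => supPot_subgrad P w hx z)
  have t2 : ∀ᵐ x ∂(volume.restrict K), ∀ z,
      (⨆ i, (⟪x, P' i⟫ - w' i)) + ⟪S x, z - x⟫ ≤ ⨆ i, (⟪z, P' i⟫ - w' i) :=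
    hSs.mono (fun x hx z => supPot_subgrad P' w' hx z)
  have hvol : ∀ i, volume {x | x ∈ K ∧ ∀ j, ⟪x, P j⟫ - w j ≤ ⟪x, P i⟫ - w i} =
        volume {x | x ∈ K ∧ ∀ j, ⟪x, P' j⟫ - w' j ≤ ⟪x, P' i⟫ - w' i} := by
    intro i
    have h := hmass i
    unfold unif at h
    rw [Measure.smul_apply, Measure.smul_apply, Measure.restrict_apply' hK.measurableSet,
      Measure.restrict_apply' hK.measurableSet, smul_eq_mul, smul_eq_mul] at h
    have h' := (ENNReal.mul_right_inj (ENNReal.inv_ne_zero.mpr hvT)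
      (ENNReal.inv_ne_top.mpr hv0)).mp h
    have s1 : {x | x ∈ K ∧ ∀ j, ⟪x, P j⟫ - w j ≤ ⟪x, P i⟫ - w i} =
        {x | ∀ j, ⟪x, P j⟫ - w j ≤ ⟪x, P i⟫ - w i} ∩ K := by
      ext x; simp [and_comm]
    have s2 : {x | x ∈ K ∧ ∀ j, ⟪x, P' j⟫ - w' j ≤ ⟪x, P' i⟫ - w' i} =
        {x | ∀ j, ⟪x, P' j⟫ - w' j ≤ ⟪x, P' i⟫ - w' i} ∩ K := by
      ext x; simp [and_comm]
    rw [s1, s2]
    exact h'
  obtain ⟨c, hc⟩ := hD ι j0 j1 hj P P' w w' δ hrow hinj hmove hvol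
  have hI := hC _ _ la la' T S hT hS t1 t2 (δ * D) c hc
  have hB : ∀ᵐ x ∂(volume.restrict K), ‖T x - S x‖ ≤ R + R := by
    filter_upwards [hTs, hSs] with x ⟨i, hi, _⟩ ⟨i', hi', _⟩
    rw [hi, hi']
    exact (norm_sub_le _ _).trans (add_le_add (hPR i) (hP'R i'))
  refine (eLpNorm_unif_le hv0 hvT (hT.sub hS) hB hI).trans (le_of_eq ?_)
  rw [ENNReal.ofReal_rpow_of_nonneg hδ.le (by norm_num), ← Real.sqrt_eq_rpow]
  have e : (volume K).toReal⁻¹ * (C * (δ * D)) = ((volume K).toReal⁻¹ * (C * D)) * δ := by ring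
  rw [e, Real.sqrt_mul (by positivity), ENNReal.ofReal_mul (Real.sqrt_nonneg _)]
  rfl

end Vale.Agent.Lib.P074t
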