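import Vale.Agent.Lib.P074t.Defs
import Vale.Agent.Lib.P074e_helper23.Line

open MeasureTheory

namespace Vale.Agent.Lib.P074t

variable {ι : Type} [Fintype ι]

theorem iSup_eq_env [Nonempty ι] (t c : ι → ℝ) (z : ℝ) :
    (⨆ i, (t i * z - c i)) = Vale.Agent.Lib.P074e.env (fun i => - c i) t z := by
  unfold Vale.Agent.Lib.P074e.env
  rw [Finset.sup'_univ_eq_ciSup]
  congr 1
  ext i
  ring

theorem lineCell_eq (t c : ι → ℝ) (α β : ℝ) (j : ι) :
    {z | z ∈ Set.Icc α β ∧ ∀ l, t l * z - c l ≤ t j * z - c j}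
      = Vale.Agent.Lib.P074e.top1 (fun i => - c i) t j ∩ Set.Icc α β := by
  ext z
  simp only [Set.mem_setOf_eq, Set.mem_inter_iff, Vale.Agent.Lib.P074e.top1]
  constructor
  · rintro ⟨h1, h2⟩
    exact ⟨fun k => by have := h2 k; linarith, h1⟩
  · rintro ⟨h1, h2⟩
    exact ⟨h2, fun k => by have := h1 k; linarith⟩

/-- One-dimensional lemma: minimum of `max_i (t i z - c i) - τ z` over `[α, β]`. -/
theorem line_isLeast [Nonempty ι] (t c : ι → ℝ) (ht : Function.Injective t) {α β : ℝ}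
    (hαβ : α ≤ β) (τ : ℝ) :
    IsLeast ((fun z => (⨆ i, (t i * z - c i)) - τ * z) '' Set.Icc α β)
      ((⨆ i, (t i * α - c i)) - τ * α -
        ∑ j, (volume {z | z ∈ Set.Icc α β ∧ ∀ l, t l * z - c l ≤ t j * z - c j}).toReal *
          max (τ - t j) 0) := by
  have h := Vale.Agent.Lib.P074e.isLeast_env_sub (α := fun i => - c i) ht hαβ τ
  simp only [iSup_eq_env, lineCell_eq]
  exact h

theorem line_sum [Nonempty ι] (t c : ι → ℝ) (ht : Function.Injective t) {α β : ℝ}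
    (hαβ : α ≤ β) :
    ∑ j, (volume {z | z ∈ Set.Icc α β ∧ ∀ l, t l * z - c l ≤ t j * z - c j}).toReal = β - α := by
  simp only [lineCell_eq]
  exact Vale.Agent.Lib.P074e.sum_len (α := fun i => - c i) ht hαβ

end Vale.Agent.Lib.P074t
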