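import Vale.Agent.Lib.P074t.Core
import Vale.Agent.Lib.P074q.Defs

open MeasureTheory
open scoped NNReal RealInnerProductSpace

namespace Vale.Agent.Lib.P074t

open Vale.Agent.Lib.P074q (E)

/-- Coordinates `(x j0, x j1)`. -/
def toPair (j0 j1 : Fin 2) (x : E 2) : ℝ × ℝ := (x j0, x j1)

theorem inner_eq_pair {j0 j1 : Fin 2} (h : j0 ≠ j1) (x y : E 2) :
    ⟪x, y⟫ = x j0 * y j0 + x j1 * y j1 := by
  have e : ⟪x, y⟫ = x 0 * y 0 + x 1 * y 1 := by
    simp [PiLp.inner_apply, Fin.sum_univ_two, mul_comm]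
  rw [e]
  fin_cases j0 <;> fin_cases j1 <;> simp_all <;> ring

theorem measurePreserving_toPair {j0 j1 : Fin 2} (h : j0 ≠ j1) :
    MeasurePreserving (toPair j0 j1) volume volume := by
  have h01 : MeasurePreserving (toPair 0 1) volume volume :=
    (volume_preserving_finTwoArrow ℝ).comp (PiLp.volume_preserving_ofLp (Fin 2))
  have h10 : MeasurePreserving (toPair 1 0) volume volume :=
    (Measure.measurePreserving_swap (μ := (volume : Measure ℝ)) (ν := (volume : Measure ℝ))).comp h01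
  fin_cases j0 <;> fin_cases j1 <;> simp_all

theorem toPair_injective {j0 j1 : Fin 2} (h : j0 ≠ j1) : Function.Injective (toPair j0 j1) := by
  intro x y hxy
  have h0 : x j0 = y j0 := congrArg Prod.fst hxy
  have h1 : x j1 = y j1 := congrArg Prod.snd hxy
  ext k
  fin_cases j0 <;> fin_cases j1 <;> fin_cases k <;> simp_all

/-- `toPair` as a continuous linear map. -/
noncomputable def toPairL (j0 j1 : Fin 2) : E 2 →L[ℝ] ℝ × ℝ :=
  (EuclideanSpace.proj j0).prod (EuclideanSpace.proj j1)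

theorem toPairL_apply (j0 j1 : Fin 2) (x : E 2) : toPairL j0 j1 x = toPair j0 j1 x := rfl

theorem toPairL_surjective {j0 j1 : Fin 2} (h : j0 ≠ j1) :
    Function.Surjective (toPairL j0 j1) := by
  intro p
  refine ⟨EuclideanSpace.single j0 p.1 + EuclideanSpace.single j1 p.2, ?_⟩
  rw [toPairL_apply]
  ext <;> simp [toPair, h, h.symm]

/-- Sup-norm stability in `E 2`: atoms are moved only in the coordinate `j0`, the coordinates
`j1` are pairwise distinct, the cells have equal areas. -/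
theorem E3_plane (K : Set (E 2)) (hK : IsCompact K) (hKc : Convex ℝ K)
    (hKi : (interior K).Nonempty) :
    ∃ D : ℝ, 0 ≤ D ∧ ∀ (ι : Type) [Fintype ι] [Nonempty ι] (j0 j1 : Fin 2), j0 ≠ j1 →
      ∀ (P P' : ι → E 2) (w w' : ι → ℝ) (δ : ℝ),
      (∀ i, P i j1 = P' i j1) → Function.Injective (fun i => P i j1) →
      (∀ i, |P i j0 - P' i j0| ≤ δ) →
      (∀ i, volume {x | x ∈ K ∧ ∀ j, ⟪x, P j⟫ - w j ≤ ⟪x, P i⟫ - w i} =
        volume {x | x ∈ K ∧ ∀ j, ⟪x, P' j⟫ - w' j ≤ ⟪x, P' i⟫ - w' i}) →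
      ∃ c, ∀ x ∈ K, |(⨆ i, (⟪x, P' i⟫ - w' i)) - (⨆ i, (⟪x, P i⟫ - w i)) - c| ≤ δ * D := by
  obtain ⟨M, hM⟩ := hK.isBounded.exists_norm_le
  obtain ⟨x0, hx0⟩ := hKi
  have hM0 : 0 ≤ M := (norm_nonneg _).trans (hM x0 (interior_subset hx0))
  refine ⟨2 * M, by positivity, ?_⟩
  intro ι _ _ j0 j1 hj P P' w w' δ hrow hinj hmove hvol
  set K' : Set (ℝ × ℝ) := toPair j0 j1 '' K with hK'
  have hK'L : K' = toPairL j0 j1 '' K := rfl
  have cK' : IsCompact K' := by
    rw [hK'L]; exact hK.image (toPairL j0 j1).continuous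
  have vK' : Convex ℝ K' := by
    rw [hK'L]; exact hKc.linear_image (toPairL j0 j1).toLinearMap
  have iK' : (interior K').Nonempty := by
    have ho : IsOpenMap (toPairL j0 j1) := (toPairL j0 j1).isOpenMap (toPairL_surjective hj)
    exact ⟨toPairL j0 j1 x0, ho.image_interior_subset K ⟨x0, hx0, rfl⟩⟩
  have hmem : ∀ x, toPair j0 j1 x ∈ K' ↔ x ∈ K := fun x =>
    (toPair_injective hj).mem_set_image
  have hpre : ∀ (Q : ι → E 2) (u : ι → ℝ) (i : ι),
      {x | x ∈ K ∧ ∀ j, ⟪x, Q j⟫ - u j ≤ ⟪x, Q i⟫ - u i} =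
        toPair j0 j1 ⁻¹' (cell K' (fun i => Q i j0) (fun i => Q i j1) u i) := by
    intro Q u i
    ext x
    simp only [Set.mem_ofPred_eq, Set.mem_preimage, cell, hmem, aff, inner_eq_pair hj]
    simp only [toPair, mul_comm]
  have hmp := measurePreserving_toPair hj
  have hcell : ∀ i, volume (cell K' (fun i => P i j0) (fun i => P i j1) w i) =
      volume (cell K' (fun i => P' i j0) (fun i => P i j1) w' i) := by
    intro i
    have h1 := hmp.measure_preimage
      (measurableSet_cell cK' (fun i => P i j0) (fun i => P i j1) w i).nullMeasurableSet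
    have h2 := hmp.measure_preimage
      (measurableSet_cell cK' (fun i => P' i j0) (fun i => P' i j1) w' i).nullMeasurableSet
    have e : (fun i => P' i j1) = fun i => P i j1 := funext (fun i => (hrow i).symm)
    rw [← hpre] at h1 h2
    rw [e] at h2
    rw [← h1, ← h2]
    exact hvol i
  have hD : ∀ p ∈ K', ∀ q ∈ K', |p.1 - q.1| ≤ 2 * M := by
    rintro _ ⟨x, hx, rfl⟩ _ ⟨y, hy, rfl⟩
    have b1 : |x j0| ≤ ‖x‖ := by
      have h1 : ‖x j0‖ ≤ ‖x‖ := PiLp.norm_apply_le x j0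
      simpa using h1
    have b2 : |y j0| ≤ ‖y‖ := by
      have h1 : ‖y j0‖ ≤ ‖y‖ := PiLp.norm_apply_le y j0
      simpa using h1
    have := abs_sub (x j0) (y j0)
    have := hM x hx
    have := hM y hy
    simp only [toPair]
    linarith
  obtain ⟨c, hc⟩ := E3core cK' vK' iK' (fun i => P i j0) (fun i => P' i j0) (fun i => P i j1) w w'
    hinj δ (fun i => by rw [abs_sub_comm]; exact hmove i) (2 * M) hD hcell
  refine ⟨c, ?_⟩
  intro x hx
  have h := hc (toPair j0 j1 x) ⟨x, hx, rfl⟩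
  have e1 : pot (fun i => P i j0) (fun i => P i j1) w (toPair j0 j1 x).1 (toPair j0 j1 x).2 =
      ⨆ i, (⟪x, P i⟫ - w i) := by
    simp only [pot, aff, toPair, inner_eq_pair hj, mul_comm]
  have e2 : pot (fun i => P' i j0) (fun i => P i j1) w' (toPair j0 j1 x).1 (toPair j0 j1 x).2 =
      ⨆ i, (⟪x, P' i⟫ - w' i) := by
    simp only [pot, aff, toPair, inner_eq_pair hj, mul_comm, hrow]
  rw [e1, e2] at h
  exact h

end Vale.Agent.Lib.P074t
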