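import Vale.Agent.Lib.P074t.Line

open MeasureTheory

namespace Vale.Agent.Lib.P074t

variable {ι : Type} [Fintype ι] {K : Set (ℝ × ℝ)}

theorem sec_eq_preimage (K : Set (ℝ × ℝ)) (s : ℝ) : sec K s = (fun z : ℝ => (s, z)) ⁻¹' K := rfl

theorem isCompact_sec_sect (hK : IsCompact K) (s : ℝ) : IsCompact (sec K s) := by
  have hcl : IsClosed (sec K s) := by
    rw [sec_eq_preimage]
    exact hK.isClosed.preimage (by fun_prop)
  have hbd : Bornology.IsBounded (sec K s) := by
    refine (hK.image continuous_snd).isBounded.subset ?_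
    intro z hz
    exact ⟨(s, z), hz, rfl⟩
  exact Metric.isCompact_of_isClosed_isBounded hcl hbd

theorem convex_sec (hKc : Convex ℝ K) (s : ℝ) : Convex ℝ (sec K s) := by
  intro z hz z' hz' a b ha hb hab
  have h := hKc hz hz' ha hb hab
  have he : a • ((s, z) : ℝ × ℝ) + b • ((s, z') : ℝ × ℝ) = (s, a • z + b • z') := by
    ext
    · simp only [Prod.smul_mk, Prod.mk_add_mk, smul_eq_mul]
      rw [← add_mul, hab, one_mul]
    · simp
  rw [he] at h
  exact h

theorem sec_eq_Icc (hK : IsCompact K) (hKc : Convex ℝ K) {s : ℝ} (hs : (sec K s).Nonempty) :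
    sec K s = Set.Icc (bot K s) (sSup (sec K s)) ∧ bot K s ≤ sSup (sec K s) := by
  have hcomp := isCompact_sec_sect hK s
  have hconn : IsConnected (sec K s) := ⟨hs, (convex_sec hKc s).isPreconnected⟩
  refine ⟨eq_Icc_of_connected_compact hconn hcomp, ?_⟩
  obtain ⟨z, hz⟩ := hs
  exact (csInf_le hcomp.bddBelow hz).trans (le_csSup hcomp.bddAbove hz)

theorem fst_image_eq (hK : IsCompact K) (hKc : Convex ℝ K) (hKi : (interior K).Nonempty) :
    ∃ a0 b0 : ℝ, a0 < b0 ∧ Prod.fst '' K = Set.Icc a0 b0 := by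
  have hcomp : IsCompact (Prod.fst '' K) := hK.image continuous_fst
  obtain ⟨x, hx⟩ := hKi
  have hxK : x ∈ K := interior_subset hx
  have hconn : IsConnected (Prod.fst '' K) :=
    ⟨⟨x.1, x, hxK, rfl⟩, hKc.isPreconnected.image _ continuous_fst.continuousOn⟩
  refine ⟨sInf (Prod.fst '' K), sSup (Prod.fst '' K), ?_, eq_Icc_of_connected_compact hconn hcomp⟩
  obtain ⟨ε, hε, hball⟩ := Metric.isOpen_iff.mp isOpen_interior x hx
  have h1 : (x.1 + ε / 2, x.2) ∈ K := by
    apply interior_subset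
    apply hball
    rw [Metric.mem_ball, Prod.dist_eq]
    simp only [dist_self, Real.dist_eq]
    rw [max_lt_iff]
    refine ⟨?_, hε⟩
    rw [add_sub_cancel_left, abs_of_pos (by linarith)]
    linarith
  have h2 : (x.1 - ε / 2, x.2) ∈ K := by
    apply interior_subset
    apply hball
    rw [Metric.mem_ball, Prod.dist_eq]
    simp only [dist_self, Real.dist_eq]
    rw [max_lt_iff]
    refine ⟨?_, hε⟩
    rw [sub_sub_cancel_left, abs_neg, abs_of_pos (by linarith)]
    linarith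
  have h3 : sInf (Prod.fst '' K) ≤ x.1 - ε / 2 := csInf_le hcomp.bddBelow ⟨_, h2, rfl⟩
  have h4 : x.1 + ε / 2 ≤ sSup (Prod.fst '' K) := le_csSup hcomp.bddAbove ⟨_, h1, rfl⟩
  linarith

theorem pot_eq_iSup (η t w : ι → ℝ) (s z : ℝ) :
    pot η t w s z = ⨆ i, (t i * z - (w i - η i * s)) := by
  unfold pot aff
  congr 1
  ext i
  ring

theorem sec_cell_eq (η t w : ι → ℝ) (j : ι) {s α β : ℝ} (h : sec K s = Set.Icc α β) :
    sec (cell K η t w j) s
      = {z | z ∈ Set.Icc α β ∧ ∀ l, t l * z - (w l - η l * s) ≤ t j * z - (w j - η j * s)} := by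
  ext z
  have hz : (s, z) ∈ K ↔ z ∈ Set.Icc α β := by rw [← h]; rfl
  show ((s, z) ∈ K ∧ ∀ l, aff η t w l s z ≤ aff η t w j s z) ↔ _
  rw [hz]
  unfold aff
  constructor
  · rintro ⟨h1, h2⟩
    exact ⟨h1, fun l => by have := h2 l; linarith⟩
  · rintro ⟨h1, h2⟩
    exact ⟨h1, fun l => by have := h2 l; linarith⟩

theorem PL_isLeast [Nonempty ι] (hK : IsCompact K) (hKc : Convex ℝ K) (η t w : ι → ℝ)
    (ht : Function.Injective t) {s : ℝ} (hs : (sec K s).Nonempty) (τ : ℝ) :
    IsLeast ((fun z => pot η t w s z - τ * z) '' sec K s)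
      (pot η t w s (bot K s) - τ * bot K s - ∑ j, tau K η t w j s * max (τ - t j) 0) := by
  obtain ⟨heq, hle⟩ := sec_eq_Icc hK hKc hs
  have h := line_isLeast t (fun i => w i - η i * s) ht hle τ
  unfold tau
  simp only [pot_eq_iSup, sec_cell_eq η t w _ heq]
  generalize sSup (sec K s) = β at heq h ⊢
  rw [heq]
  exact h

theorem PL_formula [Nonempty ι] (hK : IsCompact K) (hKc : Convex ℝ K) (η t w : ι → ℝ)
    (ht : Function.Injective t) {s : ℝ} (hs : (sec K s).Nonempty) (τ : ℝ) :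
    PL K η t w s τ =
      pot η t w s (bot K s) - τ * bot K s - ∑ j, tau K η t w j s * max (τ - t j) 0 :=
  (PL_isLeast hK hKc η t w ht hs τ).csInf_eq

theorem sum_tau [Nonempty ι] (hK : IsCompact K) (hKc : Convex ℝ K) (η t w : ι → ℝ)
    (ht : Function.Injective t) {s : ℝ} (hs : (sec K s).Nonempty) :
    ∑ j, tau K η t w j s = sSup (sec K s) - bot K s := by
  obtain ⟨heq, hle⟩ := sec_eq_Icc hK hKc hs
  have h := line_sum t (fun i => w i - η i * s) ht hle
  unfold tau
  simp only [sec_cell_eq η t w _ heq]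
  exact h

end Vale.Agent.Lib.P074t
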